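import Mathlib

/-! Chain lemma: few strict occurrences of a word give a small hitting set. -/

namespace Vale.Agent.Lib.P037X

open Finset

variable {Λ : Type*} [DecidableEq Λ] {n : ℕ}

/-- `p` has a drop across a point of `Θ`: consecutive positions `j`, `j+1` with
`p (j+1) ≤ t < p j` for some `t ∈ Θ`. -/
def Drop {k : ℕ} (p : Fin k → Fin n) (Θ : Finset (Fin n)) : Prop :=
  ∃ j j' : Fin k, j.val + 1 = j'.val ∧ ∃ t ∈ Θ, p j' ≤ t ∧ t < p j

/-- Strictly increasing occurrences of the word `u` in `w`. -/
def occ {k : ℕ} (w : Fin n → Λ) (u : Fin k → Λ) : Finset (Fin k → Fin n) :=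
  univ.filter fun p => StrictMono p ∧ ∀ j, w (p j) = u j

lemma not_drop_of_monotone {k : ℕ} {p : Fin k → Fin n} (hp : Monotone p) (Θ : Finset (Fin n)) :
    ¬ Drop p Θ := by
  rintro ⟨j, j', hj, t, -, h1, h2⟩
  have : p j ≤ p j' := hp (by rw [Fin.le_def]; omega)
  exact absurd (lt_of_lt_of_le h2 (this.trans h1)) (lt_irrefl _)

/-- Occurrences starting at position at least `s`. -/
def occFrom {k : ℕ} (w : Fin n → Λ) (u : Fin k → Λ) (s : ℕ) : Finset (Fin k → Fin n) :=
  (occ w u).filter fun p => ∀ j : Fin k, s ≤ (p j).val

lemma chain_aux (w : Fin n → Λ) {g : ℕ} (hg : 1 ≤ g) :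
    ∀ (k : ℕ) (u : Fin k → Λ) (s : ℕ), (occFrom w u s).card < g ^ k →
      ∃ X Θ : Finset (Fin n), X.card ≤ k * g ∧ Θ.card ≤ k ∧
        ∀ p : Fin k → Fin n, (∀ j, w (p j) = u j) → (∀ j, p j ∉ X) →
          (∀ j : Fin k, j.val = 0 → s ≤ (p j).val) → Drop p Θ := by
  intro k
  induction k with
  | zero =>
    intro u s h
    exfalso
    have : (occFrom w u s).card = 1 := by
      rw [Finset.card_eq_one]
      refine ⟨fun i => i.elim0, ?_⟩
      ext p
      simp only [occFrom, occ, mem_filter, mem_univ, true_and, mem_singleton]
      constructor
      · intro _; funext i; exact i.elim0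
      · intro _; exact ⟨⟨fun i => i.elim0, fun i => i.elim0⟩, fun i => i.elim0⟩
    simp [this] at h
  | succ k ih =>
    intro u s h
    set O : Finset (Fin n) := univ.filter fun x => w x = u 0 ∧ s ≤ x.val with hO
    by_cases hsmall : O.card < g
    · refine ⟨O, ∅, ?_, by simp, ?_⟩
      · calc O.card ≤ g := hsmall.le
          _ ≤ (k + 1) * g := by nlinarith
      · intro p hw hX hs
        exfalso
        apply hX 0
        rw [hO, mem_filter]
        exact ⟨mem_univ _, hw 0, hs 0 rfl⟩
    · push Not at hsmall
      -- the first `g` elements of `O`
      obtain ⟨B, t, hBO, hBcard, htB, hBle, hOle⟩ :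
          ∃ (B : Finset (Fin n)) (t : Fin n), B ⊆ O ∧ B.card = g ∧ t ∈ B ∧ (∀ x ∈ B, x ≤ t) ∧
            ∀ x ∈ O, x ≤ t → x ∈ B := by
        classical
        set f := O.orderEmbOfFin rfl with hf
        have hgO : g - 1 < O.card := by omega
        set t := f ⟨g - 1, hgO⟩ with ht
        refine ⟨O.filter fun x => x ≤ t, t, filter_subset _ _, ?_, ?_, ?_, ?_⟩
        · -- the elements up to `t` are the first `g`
          have : O.filter (fun x => x ≤ t) = (univ.filter fun i : Fin O.card => i.val ≤ g - 1).image f := by
            ext x
            simp only [mem_filter, mem_image, mem_univ, true_and]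
            constructor
            · rintro ⟨hx, hxt⟩
              have : x ∈ Set.range f := by
                rw [hf, Finset.range_orderEmbOfFin]; exact hx
              obtain ⟨i, rfl⟩ := this
              refine ⟨i, ?_, rfl⟩
              have := f.le_iff_le.1 hxt
              exact this
            · rintro ⟨i, hi, rfl⟩
              refine ⟨?_, f.le_iff_le.2 hi⟩
              exact Finset.orderEmbOfFin_mem O rfl i
          rw [this, card_image_of_injective _ f.injective]
          have h2 : (univ.filter fun i : Fin O.card => i.val ≤ g - 1) =
              (Finset.range g).attachFin (fun m hm => by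
                have := Finset.mem_range.1 hm; omega) := by
            ext i
            simp only [mem_filter, mem_univ, true_and, mem_attachFin, mem_range]
            omega
          rw [h2, card_attachFin, card_range]
        · exact mem_filter.2 ⟨Finset.orderEmbOfFin_mem O rfl _, le_rfl⟩
        · intro x hx; exact (mem_filter.1 hx).2
        · intro x hx hxt; exact mem_filter.2 ⟨hx, hxt⟩
      -- occurrences of the tail after `t`
      set u' : Fin k → Λ := fun i => u i.succ with hu'
      have htail : (occFrom w u' (t.val + 1)).card < g ^ k := by
        by_contra hcon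
        push Not at hcon
        have hinj : (B ×ˢ occFrom w u' (t.val + 1)).card ≤ (occFrom w u s).card := by
          refine card_le_card_of_injOn (fun x => Fin.cons x.1 x.2) ?_ ?_
          · rintro ⟨b, q⟩ hx
            obtain ⟨hb, hq⟩ := Finset.mem_product.1 (Finset.mem_coe.1 hx)
            simp only at hb hq
            simp only [occFrom, occ, mem_filter, mem_univ, true_and] at hq
            obtain ⟨⟨hqm, hqw⟩, hqs⟩ := hq
            have hbO := hBO hb
            simp only [hO, mem_filter, mem_univ, true_and] at hbO
            simp only [occFrom, occ, coe_filter, mem_filter, mem_univ, true_and, Set.mem_setOf_eq]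
            refine ⟨⟨?_, ?_⟩, ?_⟩
            · intro i j hij
              induction i using Fin.cases with
              | zero =>
                induction j using Fin.cases with
                | zero => exact absurd hij (lt_irrefl _)
                | succ j =>
                  simp only [Fin.cons_zero, Fin.cons_succ]
                  have h1 := hBle b hb
                  have h2 := hqs j
                  rw [Fin.lt_def]
                  rw [Fin.le_def] at h1
                  omega
              | succ i =>
                induction j using Fin.cases with
                | zero => exact absurd hij (Fin.not_lt_zero _)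
                | succ j =>
                  simp only [Fin.cons_succ]
                  exact hqm (Fin.succ_lt_succ_iff.1 hij)
            · intro j
              induction j using Fin.cases with
              | zero => simpa using hbO.1
              | succ j => simpa [hu'] using hqw j
            · intro j
              induction j using Fin.cases with
              | zero => simpa using hbO.2
              | succ j =>
                simp only [Fin.cons_succ]
                have h1 := hBle b hb
                have h2 := hqs j
                have h3 := hbO.2
                rw [Fin.le_def] at h1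
                omega
          · rintro ⟨b, q⟩ _ ⟨b', q'⟩ _ heq
            have h1 := Fin.cons_injective2 heq
            simp only [Prod.mk.injEq]
            exact h1
        rw [card_product, hBcard] at hinj
        have : g ^ (k + 1) ≤ (occFrom w u s).card := by
          calc g ^ (k + 1) = g * g ^ k := by ring
            _ ≤ g * (occFrom w u' (t.val + 1)).card := Nat.mul_le_mul_left _ hcon
            _ ≤ _ := hinj
        omega
      obtain ⟨X', Θ', hX', hΘ', hrec⟩ := ih u' (t.val + 1) htail
      refine ⟨B ∪ X', insert t Θ', ?_, ?_, ?_⟩
      · calc (B ∪ X').card ≤ B.card + X'.card := card_union_le _ _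
          _ ≤ g + k * g := by rw [hBcard]; omega
          _ = (k + 1) * g := by ring
      · calc (insert t Θ').card ≤ Θ'.card + 1 := card_insert_le _ _
          _ ≤ k + 1 := by omega
      · intro p hw hX hs
        have hp0 : t < p 0 := by
          by_contra hcon
          push Not at hcon
          have hmem : p 0 ∈ O := by
            rw [hO, mem_filter]
            exact ⟨mem_univ _, hw 0, hs 0 rfl⟩
          exact hX 0 (mem_union_left _ (hOle _ hmem hcon))
        by_cases hk : k = 0
        · subst hk
          exfalso
          -- length one: `p 0` must lie after `t`; the tail count is then impossible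
          simp only [pow_zero, Nat.lt_one_iff] at htail
          have : (occFrom w u' (t.val + 1)).card = 1 := by
            rw [Finset.card_eq_one]
            refine ⟨fun i => i.elim0, ?_⟩
            ext q
            simp only [occFrom, occ, mem_filter, mem_univ, true_and, mem_singleton]
            constructor
            · intro _; funext i; exact i.elim0
            · intro _; exact ⟨⟨fun i => i.elim0, fun i => i.elim0⟩, fun i => i.elim0⟩
          omega
        · have hk0 : 0 < k := Nat.pos_of_ne_zero hk
          set one : Fin (k + 1) := ⟨1, by omega⟩ with hone
          by_cases hp1 : p one ≤ t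
          · exact ⟨0, one, by simp [hone], t, mem_insert_self _ _, hp1, hp0⟩
          · push Not at hp1
            have hd : Drop (fun i : Fin k => p i.succ) Θ' := by
              refine hrec _ (fun j => hw j.succ) (fun j hj => hX j.succ (mem_union_right _ hj)) ?_
              intro j hj
              have : j.succ = one := by
                apply Fin.ext; simp [hone, hj]
              rw [this]
              rw [Fin.lt_def] at hp1
              exact hp1
            obtain ⟨j, j', hj, t', ht', h1, h2⟩ := hd
            exact ⟨j.succ, j'.succ, by simp; omega, t', mem_insert_of_mem ht', h1, h2⟩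

/-- Chain lemma. -/
theorem chain_lemma (w : Fin n → Λ) {k : ℕ} (u : Fin k → Λ) {g : ℕ} (hg : 1 ≤ g)
    (h : (occ w u).card < g ^ k) :
    ∃ X Θ : Finset (Fin n), X.card ≤ k * g ∧ Θ.card ≤ k ∧
      ∀ p : Fin k → Fin n, (∀ j, w (p j) = u j) → (∀ j, p j ∉ X) → Drop p Θ := by
  have h0 : occFrom w u 0 = occ w u := by
    simp [occFrom]
  obtain ⟨X, Θ, h1, h2, h3⟩ := chain_aux w hg k u 0 (by rw [h0]; exact h)
  exact ⟨X, Θ, h1, h2, fun p hw hX => h3 p hw hX (fun _ _ => Nat.zero_le _)⟩

end Vale.Agent.Lib.P037X
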