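import Mathlib

/-! Nested windows `c ↦ ⌊c m / n⌋` on `Fin n`. -/

namespace Vale.Agent.Lib.P037X

open Finset

/-- The window index of `c` at scale `m`. -/
def win (n m : ℕ) (c : Fin n) : ℕ := c.val * m / n

lemma win_lt {n m : ℕ} (hm : 0 < m) (c : Fin n) : win n m c < m := by
  unfold win
  apply Nat.div_lt_of_lt_mul
  have := c.isLt
  rw [mul_comm n m, mul_comm c.val m]
  exact Nat.mul_lt_mul_of_pos_left this hm

lemma win_mono (n m : ℕ) : Monotone (win n m) := by
  intro c c' h
  unfold win
  exact Nat.div_le_div_right (Nat.mul_le_mul_right _ h)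

lemma win_div {n m b : ℕ} (hb : 0 < b) (c : Fin n) : win n (m * b) c / b = win n m c := by
  unfold win
  rw [Nat.div_div_eq_div_mul, ← mul_assoc, Nat.mul_div_mul_right _ _ hb]

/-- Size of a window. -/
def wsize (n m a : ℕ) : ℕ := (univ.filter fun c : Fin n => win n m c = a).card

lemma card_filter_fin_Ico {n l h : ℕ} (hh : h ≤ n) :
    (univ.filter fun c : Fin n => l ≤ c.val ∧ c.val < h).card = h - l := by
  have : (univ.filter fun c : Fin n => l ≤ c.val ∧ c.val < h).map Fin.valEmbedding = Ico l h := by
    ext x
    simp only [mem_map, mem_filter, mem_univ, true_and, Fin.valEmbedding_apply, mem_Ico]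
    constructor
    · rintro ⟨c, hc, rfl⟩; exact hc
    · intro hx; exact ⟨⟨x, by omega⟩, hx, rfl⟩
  rw [← card_map Fin.valEmbedding, this, Nat.card_Ico]

lemma wsize_bounds {n m a : ℕ} (hn : 0 < n) (hm : 0 < m) (ha : a < m) :
    n < m * wsize n m a + m ∧ m * wsize n m a < n + m := by
  set lo : ℕ → ℕ := fun x => (x * n + m - 1) / m with hlo
  have hlo1 : ∀ x, x * n ≤ m * lo x := by
    intro x
    have h1 := Nat.div_add_mod (x * n + m - 1) m
    have h2 := Nat.mod_lt (x * n + m - 1) hm
    simp only [hlo]
    omega
  have hlo2 : ∀ x, m * lo x < x * n + m := by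
    intro x
    have h1 := Nat.div_add_mod (x * n + m - 1) m
    simp only [hlo]
    omega
  have hiff : ∀ (x c : ℕ), lo x ≤ c ↔ x * n ≤ c * m := by
    intro x c
    constructor
    · intro h
      calc x * n ≤ m * lo x := hlo1 x
        _ ≤ m * c := Nat.mul_le_mul_left _ h
        _ = c * m := mul_comm _ _
    · intro h
      by_contra hcon
      push Not at hcon
      have : m * (c + 1) ≤ m * lo x := Nat.mul_le_mul_left _ hcon
      have h2 := hlo2 x
      have h3 : m * (c + 1) = c * m + m := by ring
      omega
  have hhi : lo (a + 1) ≤ n := by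
    rw [hiff]
    rw [mul_comm n m]
    exact Nat.mul_le_mul_right _ ha
  have hcard : wsize n m a = lo (a + 1) - lo a := by
    rw [← card_filter_fin_Ico hhi]
    unfold wsize
    congr 1
    ext c
    simp only [mem_filter, mem_univ, true_and]
    have h1 := hiff a c.val
    have h2 := hiff (a + 1) c.val
    unfold win
    constructor
    · intro h
      have h3 : a ≤ c.val * m / n := h.ge
      have h4 : c.val * m / n < a + 1 := by omega
      rw [Nat.le_div_iff_mul_le hn] at h3
      rw [Nat.div_lt_iff_lt_mul hn] at h4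
      exact ⟨h1.2 h3, by
        by_contra hcon
        push Not at hcon
        have := h2.1 hcon
        omega⟩
    · rintro ⟨h3, h4⟩
      have h5 := h1.1 h3
      have h6 : c.val * m < (a + 1) * n := by
        by_contra hcon
        push Not at hcon
        have := h2.2 hcon
        omega
      have h7 : a ≤ c.val * m / n := (Nat.le_div_iff_mul_le hn).2 h5
      have h8 : c.val * m / n < a + 1 := (Nat.div_lt_iff_lt_mul hn).2 h6
      omega
  have hle : lo a ≤ lo (a + 1) := by
    rw [hiff]
    have h1 := hlo1 (a + 1)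
    have h2 : a * n ≤ (a + 1) * n := Nat.mul_le_mul_right _ (by omega)
    rw [mul_comm (lo (a + 1)) m]
    omega
  have h1 := hlo1 a
  have h2 := hlo2 a
  have h3 := hlo1 (a + 1)
  have h4 := hlo2 (a + 1)
  have h5 : m * wsize n m a = m * lo (a + 1) - m * lo a := by
    rw [hcard, Nat.mul_sub]
  have h6 : (a + 1) * n = a * n + n := by ring
  have h7 : m * lo a ≤ m * lo (a + 1) := Nat.mul_le_mul_left _ hle
  omega

end Vale.Agent.Lib.P037X
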