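import Mathlib
import Vale.Agent.Lib.P037X.Window

/-! Energy on nested windows and selection of a child window. -/

namespace Vale.Agent.Lib.P037X

open Finset

variable {n Q : ℕ}

/-- Number of class `q` columns in window `a` at scale `m`. -/
def cnt (cl : Fin n → Fin Q) (m a : ℕ) (q : Fin Q) : ℕ :=
  (univ.filter fun c => win n m c = a ∧ cl c = q).card

/-- Energy at scale `m`. -/
noncomputable def En (cl : Fin n → Fin Q) (m : ℕ) : ℝ :=
  ∑ a ∈ range m, ∑ q, (cnt cl m a q : ℝ) ^ 2 / (wsize n m a : ℝ)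

lemma sum_cnt (cl : Fin n → Fin Q) (m a : ℕ) : ∑ q, cnt cl m a q = wsize n m a := by
  classical
  unfold cnt wsize
  rw [card_eq_sum_card_fiberwise (s := univ.filter fun c => win n m c = a) (t := univ) (f := cl)
    (fun _ _ => mem_coe.2 (mem_univ _))]
  refine sum_congr rfl fun q _ => ?_
  rw [filter_filter]

lemma sum_wsize {m : ℕ} (hm : 0 < m) : ∑ a ∈ range m, wsize n m a = n := by
  classical
  unfold wsize
  have := card_eq_sum_card_fiberwise (s := (univ : Finset (Fin n))) (t := range m)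
    (f := win n m) (fun c _ => mem_coe.2 (mem_range.2 (win_lt hm c)))
  simp only [card_univ, Fintype.card_fin] at this
  exact this.symm

lemma sum_range_mul' {M : Type*} [AddCommMonoid M] (f : ℕ → M) (m b : ℕ) :
    ∑ x ∈ range (m * b), f x = ∑ a ∈ range m, ∑ i ∈ range b, f (a * b + i) := by
  induction m with
  | zero => simp
  | succ m ih =>
    rw [sum_range_succ, ← ih, Nat.succ_mul, sum_range_add]

/-- Children decomposition for any predicate. -/
lemma child_card {m b a : ℕ} (hb : 0 < b) (P : Fin n → Prop) [DecidablePred P] :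
    (univ.filter fun c => win n m c = a ∧ P c).card =
      ∑ i ∈ range b, (univ.filter fun c => win n (m * b) c = a * b + i ∧ P c).card := by
  classical
  rw [← card_biUnion]
  · congr 1
    ext c
    simp only [mem_filter, mem_univ, true_and, mem_biUnion, mem_range]
    have h1 := win_div (m := m) hb c
    have h2 := Nat.div_add_mod (win n (m * b) c) b
    have h3 := Nat.mod_lt (win n (m * b) c) hb
    constructor
    · rintro ⟨h4, h5⟩
      refine ⟨win n (m * b) c % b, h3, ?_, h5⟩
      rw [h1] at h2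
      rw [h4] at h2
      rw [mul_comm a b]
      exact h2.symm
    · rintro ⟨i, hi, h4, h5⟩
      refine ⟨?_, h5⟩
      rw [← h1, h4, Nat.add_div_of_dvd_right (Dvd.intro_left a rfl), Nat.mul_div_cancel _ hb,
        Nat.div_eq_of_lt hi, add_zero]
  · intro i hi j hj hij
    refine disjoint_left.2 fun c h1 h2 => hij ?_
    have h3 := (mem_filter.1 h1).2.1
    have h4 := (mem_filter.1 h2).2.1
    omega

lemma child_wsize {m b : ℕ} (hb : 0 < b) (a : ℕ) :
    wsize n m a = ∑ i ∈ range b, wsize n (m * b) (a * b + i) := by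
  have := child_card (n := n) (m := m) (a := a) hb (fun _ => True)
  simpa [wsize] using this

lemma child_cnt {m b : ℕ} (hb : 0 < b) (cl : Fin n → Fin Q) (a : ℕ) (q : Fin Q) :
    cnt cl m a q = ∑ i ∈ range b, cnt cl (m * b) (a * b + i) q :=
  child_card hb (fun c => cl c = q)

lemma En_nonneg (cl : Fin n → Fin Q) (m : ℕ) : 0 ≤ En cl m := by
  unfold En
  positivity

lemma En_le (cl : Fin n → Fin Q) {m : ℕ} (hm : 0 < m) : En cl m ≤ n := by
  unfold En
  calc _ ≤ ∑ a ∈ range m, ∑ q, (cnt cl m a q : ℝ) := by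
        refine sum_le_sum fun a _ => sum_le_sum fun q _ => ?_
        have h1 : cnt cl m a q ≤ wsize n m a := by
          rw [← sum_cnt cl m a]
          exact single_le_sum (f := fun q => cnt cl m a q) (fun _ _ => Nat.zero_le _) (mem_univ q)
        have h2 : (cnt cl m a q : ℝ) ≤ wsize n m a := by exact_mod_cast h1
        rcases (Nat.zero_le (wsize n m a)).eq_or_lt with h0 | h0
        · have h3 : cnt cl m a q = 0 := by omega
          simp [h3]
        · have h3 : (0 : ℝ) < wsize n m a := by exact_mod_cast h0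
          rw [div_le_iff₀ h3, sq]
          exact mul_le_mul_of_nonneg_left h2 (by positivity)
    _ = n := by
        have : ∑ a ∈ range m, ∑ q, cnt cl m a q = n := by
          simp only [sum_cnt, sum_wsize hm]
        exact_mod_cast this

/-- Some level of a chain of scales has small energy increment. -/
lemma exists_level (cl : Fin n → Fin Q) (M : ℕ → ℕ) (hM : ∀ j, 0 < M j) {J : ℕ} (hJ : 0 < J) :
    ∃ j < J, En cl (M (j + 1)) - En cl (M j) ≤ (n : ℝ) / J := by
  by_contra hcon
  push Not at hcon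
  have hJr : (0 : ℝ) < J := by exact_mod_cast hJ
  have h1 : ∑ j ∈ range J, ((n : ℝ) / J) < ∑ j ∈ range J, (En cl (M (j + 1)) - En cl (M j)) := by
    apply sum_lt_sum_of_nonempty
    · exact nonempty_range_iff.2 hJ.ne'
    · intro j hj
      exact hcon j (mem_range.1 hj)
  rw [sum_range_sub (fun j => En cl (M j))] at h1
  simp only [sum_const, card_range, nsmul_eq_mul] at h1
  have h2 : (J : ℝ) * ((n : ℝ) / J) = n := by field_simp
  rw [h2] at h1
  have h3 := En_le cl (hM J)
  have h4 := En_nonneg cl (M 0)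
  linarith

/-- The variance computation for children. -/
lemma bad_children_bound {ι : Type*} (I : Finset ι) (s x : ι → ℝ) (hs : ∀ i ∈ I, 0 < s i)
    (hx : ∀ i ∈ I, 0 ≤ x i) {θ : ℝ} (hθ : 0 < θ) (hI : I.Nonempty) [DecidablePred fun i => x i < θ * s i] :
    0 ≤ ∑ i ∈ I, x i ^ 2 / s i - (∑ i ∈ I, x i) ^ 2 / ∑ i ∈ I, s i ∧
    (∑ i ∈ I.filter (fun i => x i < θ * s i), s i) * ∑ i ∈ I, x i ≤
      (∑ i ∈ I, s i) * (2 * θ * ∑ i ∈ I, s i +
        2 / θ * (∑ i ∈ I, x i ^ 2 / s i - (∑ i ∈ I, x i) ^ 2 / ∑ i ∈ I, s i)) := by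
  set S := ∑ i ∈ I, s i with hS
  set X := ∑ i ∈ I, x i with hX
  have hSpos : 0 < S := sum_pos hs hI
  have hX0 : 0 ≤ X := sum_nonneg hx
  set π := X / S with hπ
  have hid : ∑ i ∈ I, x i ^ 2 / s i - X ^ 2 / S = ∑ i ∈ I, s i * (x i / s i - π) ^ 2 := by
    have h1 : ∀ i ∈ I, s i * (x i / s i - π) ^ 2 = x i ^ 2 / s i - 2 * π * x i + π ^ 2 * s i := by
      intro i hi
      have := (hs i hi).ne'
      field_simp
      ring
    rw [sum_congr rfl h1, sum_add_distrib, sum_sub_distrib, ← mul_sum, ← mul_sum, ← hS, ← hX]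
    rw [hπ]
    field_simp
    ring
  rw [hid]
  have hV0 : 0 ≤ ∑ i ∈ I, s i * (x i / s i - π) ^ 2 :=
    sum_nonneg fun i hi => mul_nonneg (hs i hi).le (sq_nonneg _)
  refine ⟨hV0, ?_⟩
  set Vr := ∑ i ∈ I, s i * (x i / s i - π) ^ 2 with hVr
  set B := ∑ i ∈ I.filter (fun i => x i < θ * s i), s i with hB
  have hB0 : 0 ≤ B := sum_nonneg fun i hi => (hs i (mem_filter.1 hi).1).le
  have hBS : B ≤ S := sum_le_sum_of_subset_of_nonneg (filter_subset _ _)
    fun i hi _ => (hs i hi).le
  by_cases hcase : X < 2 * θ * S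
  · have h1 : B * X ≤ S * X := mul_le_mul_of_nonneg_right hBS hX0
    have h2 : S * X ≤ S * (2 * θ * S) := mul_le_mul_of_nonneg_left hcase.le hSpos.le
    have h3 : 0 ≤ 2 / θ * Vr := by positivity
    have h4 : S * (2 * θ * S) ≤ S * (2 * θ * S + 2 / θ * Vr) :=
      mul_le_mul_of_nonneg_left (by linarith) hSpos.le
    linarith
  · push Not at hcase
    have hπ2 : 2 * θ ≤ π := by
      rw [hπ, le_div_iff₀ hSpos]
      exact hcase
    have hπpos : 0 < π := by linarith
    have hXπ : X = π * S := by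
      rw [hπ]; field_simp
    have hbad : ∀ i ∈ I.filter (fun i => x i < θ * s i), s i * (π ^ 2 / 4) ≤
        s i * (x i / s i - π) ^ 2 := by
      intro i hi
      obtain ⟨hi1, hi2⟩ := mem_filter.1 hi
      have hsi := hs i hi1
      have h1 : x i / s i < θ := by
        rw [div_lt_iff₀ hsi]; exact hi2
      have h2 : 0 ≤ x i / s i := div_nonneg (hx i hi1) hsi.le
      refine mul_le_mul_of_nonneg_left ?_ hsi.le
      nlinarith
    have h1 : B * (π ^ 2 / 4) ≤ Vr := by
      calc B * (π ^ 2 / 4) = ∑ i ∈ I.filter (fun i => x i < θ * s i), s i * (π ^ 2 / 4) := by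
            rw [hB, sum_mul]
        _ ≤ ∑ i ∈ I.filter (fun i => x i < θ * s i), s i * (x i / s i - π) ^ 2 := sum_le_sum hbad
        _ ≤ Vr := sum_le_sum_of_subset_of_nonneg (filter_subset _ _)
            fun i hi _ => mul_nonneg (hs i hi).le (sq_nonneg _)
    have h2 : B * π ≤ 2 / θ * Vr := by
      rw [div_mul_eq_mul_div, le_div_iff₀ hθ]
      have h3 : B * π * (2 * θ) ≤ B * π * π :=
        mul_le_mul_of_nonneg_left hπ2 (mul_nonneg hB0 hπpos.le)
      nlinarith
    have h3 : 0 ≤ 2 * θ * S := by positivity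
    rw [hXπ]
    calc B * (π * S) = S * (B * π) := by ring
      _ ≤ S * (2 * θ * S + 2 / θ * Vr) := mul_le_mul_of_nonneg_left (by linarith) hSpos.le

end Vale.Agent.Lib.P037X
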