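import Mathlib
import Vale.Agent.Lib.P037X.Energy

/-! Cost of a child window and the selection of a child for each window. -/

namespace Vale.Agent.Lib.P037X

open Finset

variable {n Q : ℕ}

/-- Class `q` is present in the window `x` at scale `m * b`. -/
def pres (cl : Fin n → Fin Q) (M Θ₀ x : ℕ) (q : Fin Q) : Prop :=
  wsize n M x ≤ Θ₀ * cnt cl M x q

instance (cl : Fin n → Fin Q) (M Θ₀ x : ℕ) (q : Fin Q) : Decidable (pres cl M Θ₀ x q) := by
  unfold pres; infer_instance

/-- Columns of window `a` whose class is absent from child `i`. -/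
def cost (cl : Fin n → Fin Q) (m b Θ₀ a i : ℕ) : ℕ :=
  (univ.filter fun c => win n m c = a ∧ ¬ pres cl (m * b) Θ₀ (a * b + i) (cl c)).card

lemma cost_eq (cl : Fin n → Fin Q) (m b Θ₀ a i : ℕ) :
    cost cl m b Θ₀ a i =
      ∑ q, if pres cl (m * b) Θ₀ (a * b + i) q then 0 else cnt cl m a q := by
  classical
  unfold cost
  rw [card_eq_sum_card_fiberwise (s := univ.filter fun c =>
    win n m c = a ∧ ¬ pres cl (m * b) Θ₀ (a * b + i) (cl c)) (t := univ) (f := cl)
    (fun _ _ => mem_coe.2 (mem_univ _))]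
  refine sum_congr rfl fun q _ => ?_
  rw [filter_filter]
  split_ifs with h
  · rw [card_eq_zero]
    apply filter_eq_empty_iff.2
    rintro c - ⟨⟨-, h2⟩, h3⟩
    rw [h3] at h2
    exact h2 h
  · unfold cnt
    congr 1
    ext c
    simp only [mem_filter, mem_univ, true_and]
    constructor
    · rintro ⟨⟨h1, -⟩, h3⟩
      exact ⟨h1, h3⟩
    · rintro ⟨h1, h3⟩
      exact ⟨⟨h1, by rw [h3]; exact h⟩, h3⟩

/-- The variance of class `q` among the children of `a`. -/
noncomputable def Vr (cl : Fin n → Fin Q) (m b a : ℕ) (q : Fin Q) : ℝ :=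
  ∑ i ∈ range b, (cnt cl (m * b) (a * b + i) q : ℝ) ^ 2 / (wsize n (m * b) (a * b + i) : ℝ)
    - (cnt cl m a q : ℝ) ^ 2 / (wsize n m a : ℝ)

lemma En_diff (cl : Fin n → Fin Q) (m b : ℕ) :
    En cl (m * b) - En cl m = ∑ a ∈ range m, ∑ q, Vr cl m b a q := by
  unfold En Vr
  rw [sum_range_mul', ← sum_sub_distrib]
  refine sum_congr rfl fun a _ => ?_
  rw [sum_comm, ← sum_sub_distrib]

section
variable (cl : Fin n → Fin Q) {m b Θ₀ : ℕ}

lemma wsize_child_pos (hm : 0 < m) (hb : 0 < b) (hn : 2 * (m * b) ≤ n) {x : ℕ} (hx : x < m * b) :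
    0 < wsize n (m * b) x := by
  have hmb : 0 < m * b := Nat.mul_pos hm hb
  have h0 : 0 < n := by omega
  have h1 := (wsize_bounds h0 hmb hx).1
  by_contra hcon
  have : wsize n (m * b) x = 0 := by omega
  rw [this] at h1
  omega

lemma wsize_parent_pos (hm : 0 < m) (hb : 0 < b) (hn : 2 * (m * b) ≤ n) {a : ℕ} (ha : a < m) :
    0 < wsize n m a := by
  have hmb : 0 < m * b := Nat.mul_pos hm hb
  have h0 : 0 < n := by omega
  have h1 := (wsize_bounds h0 hm ha).1
  by_contra hcon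
  have : wsize n m a = 0 := by omega
  rw [this] at h1
  have h2 : m ≤ m * b := Nat.le_mul_of_pos_right _ hb
  omega

lemma child_index_lt {a i : ℕ} (ha : a < m) (hi : i < b) : a * b + i < m * b := by
  have : (a + 1) * b ≤ m * b := Nat.mul_le_mul_right _ ha
  have h2 : (a + 1) * b = a * b + b := by ring
  omega

lemma size_ratio (hm : 0 < m) (hb : 0 < b) (hn : 2 * (m * b) ≤ n) {a i : ℕ} (ha : a < m)
    (hi : i < b) : wsize n (m * b) (a * b + i) * b ≤ 4 * wsize n m a := by
  have hmb : 0 < m * b := Nat.mul_pos hm hb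
  have h0 : 0 < n := by omega
  have h1 := (wsize_bounds h0 hmb (child_index_lt ha hi)).2
  have h2 := (wsize_bounds h0 hm ha).1
  have h3 : m ≤ m * b := Nat.le_mul_of_pos_right _ hb
  have h4 : m * (wsize n (m * b) (a * b + i) * b) ≤ m * (4 * wsize n m a) := by
    have h5 : m * (wsize n (m * b) (a * b + i) * b) = m * b * wsize n (m * b) (a * b + i) := by ring
    have h6 : m * (4 * wsize n m a) = 4 * (m * wsize n m a) := by ring
    rw [h5, h6]
    omega
  exact Nat.le_of_mul_le_mul_left h4 hm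

/-- Weighted child average of the cost. -/
lemma avg_cost (hm : 0 < m) (hb : 0 < b) (hn : 2 * (m * b) ≤ n) (hΘ : 0 < Θ₀) {a : ℕ} (ha : a < m) :
    ∑ i ∈ range b, (wsize n (m * b) (a * b + i) : ℝ) * (cost cl m b Θ₀ a i : ℝ) ≤
      (wsize n m a : ℝ) * (2 * (1 / (Θ₀ : ℝ)) * (wsize n m a : ℝ) * Q +
        2 * (Θ₀ : ℝ) * ∑ q, Vr cl m b a q) := by
  classical
  set θ : ℝ := 1 / (Θ₀ : ℝ) with hθ
  have hΘr : (0 : ℝ) < Θ₀ := by exact_mod_cast hΘ
  have hθpos : 0 < θ := by positivity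
  have hIne : (range b).Nonempty := nonempty_range_iff.2 hb.ne'
  have hS : ∀ q : Fin Q, True := fun _ => trivial
  -- per class bound
  have hq : ∀ q : Fin Q,
      (∑ i ∈ (range b).filter (fun i => ¬ pres cl (m * b) Θ₀ (a * b + i) q),
        (wsize n (m * b) (a * b + i) : ℝ)) * (cnt cl m a q : ℝ) ≤
      (wsize n m a : ℝ) * (2 * θ * (wsize n m a : ℝ) + 2 * (Θ₀ : ℝ) * Vr cl m b a q) := by
    intro q
    have hb1 := (bad_children_bound (range b) (fun i => (wsize n (m * b) (a * b + i) : ℝ))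
      (fun i => (cnt cl (m * b) (a * b + i) q : ℝ))
      (fun i hi => by
        have := wsize_child_pos hm hb hn (child_index_lt ha (mem_range.1 hi))
        exact_mod_cast this)
      (fun i _ => by positivity) hθpos hIne).2
    have hSum : ∑ i ∈ range b, (wsize n (m * b) (a * b + i) : ℝ) = wsize n m a := by
      rw [child_wsize (n := n) (m := m) hb a]
      push_cast
      rfl
    have hXum : ∑ i ∈ range b, (cnt cl (m * b) (a * b + i) q : ℝ) = cnt cl m a q := by
      rw [child_cnt (m := m) hb cl a q]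
      push_cast
      rfl
    rw [hSum, hXum] at hb1
    have hfilter : (range b).filter (fun i => ¬ pres cl (m * b) Θ₀ (a * b + i) q) =
        (range b).filter (fun i => (cnt cl (m * b) (a * b + i) q : ℝ) <
          θ * (wsize n (m * b) (a * b + i) : ℝ)) := by
      refine filter_congr fun i _ => ?_
      unfold pres
      rw [hθ, one_div, inv_mul_eq_div, lt_div_iff₀ hΘr, not_le, mul_comm]
      norm_cast
    have h2 : 2 / θ = 2 * (Θ₀ : ℝ) := by
      rw [hθ]; field_simp
    rw [h2] at hb1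
    rw [hfilter]
    unfold Vr
    convert hb1 using 2
  calc ∑ i ∈ range b, (wsize n (m * b) (a * b + i) : ℝ) * (cost cl m b Θ₀ a i : ℝ)
      = ∑ i ∈ range b, ∑ q : Fin Q, (wsize n (m * b) (a * b + i) : ℝ) *
          (if pres cl (m * b) Θ₀ (a * b + i) q then 0 else (cnt cl m a q : ℝ)) := by
        refine sum_congr rfl fun i _ => ?_
        rw [cost_eq, ← mul_sum]
        congr 1
        push_cast
        refine sum_congr rfl fun q _ => ?_
        split_ifs <;> simp
    _ = ∑ q : Fin Q, ∑ i ∈ range b, (wsize n (m * b) (a * b + i) : ℝ) *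
          (if pres cl (m * b) Θ₀ (a * b + i) q then 0 else (cnt cl m a q : ℝ)) := sum_comm
    _ = ∑ q : Fin Q, (∑ i ∈ (range b).filter (fun i => ¬ pres cl (m * b) Θ₀ (a * b + i) q),
          (wsize n (m * b) (a * b + i) : ℝ)) * (cnt cl m a q : ℝ) := by
        refine sum_congr rfl fun q _ => ?_
        rw [sum_filter, sum_mul]
        refine sum_congr rfl fun i _ => ?_
        split_ifs <;> simp
    _ ≤ ∑ q : Fin Q, (wsize n m a : ℝ) * (2 * θ * (wsize n m a : ℝ) + 2 * (Θ₀ : ℝ) * Vr cl m b a q) :=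
        sum_le_sum fun q _ => hq q
    _ = _ := by
        rw [← mul_sum]
        congr 1
        rw [sum_add_distrib, mul_sum]
        congr 1
        simp only [sum_const, card_univ, Fintype.card_fin, nsmul_eq_mul]
        ring

/-- A point not above the weighted average. -/
lemma exists_weighted_le {ι : Type*} (I : Finset ι) (hI : I.Nonempty) (w Φ : ι → ℝ)
    (hw : ∀ i ∈ I, 0 ≤ w i) : ∃ i ∈ I, Φ i * ∑ j ∈ I, w j ≤ ∑ j ∈ I, w j * Φ j := by
  obtain ⟨i, hi, hmin⟩ := exists_min_image I Φ hI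
  refine ⟨i, hi, ?_⟩
  rw [mul_sum]
  refine sum_le_sum fun j hj => ?_
  rw [mul_comm]
  exact mul_le_mul_of_nonneg_left (hmin j hj) (hw j hj)

/-- Selection of one child for each window. -/
theorem select_children (hm : 0 < m) (hb : 0 < b) (hn : 2 * (m * b) ≤ n) (hΘ : 0 < Θ₀)
    {E W : ℕ} (hE : 0 < E) (hW : 0 < W)
    (hΔ : 2 * (1 / (Θ₀ : ℝ)) * (Q : ℝ) * n + 2 * (Θ₀ : ℝ) * (En cl (m * b) - En cl m)
      ≤ (n : ℝ) / E)
    (thr : ℕ → ℕ) (hthr : ∑ x ∈ range (m * b), thr x ≤ W) :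
    ∃ ι : ℕ → ℕ, (∀ a, ι a < b) ∧ (∑ a ∈ range m, cost cl m b Θ₀ a (ι a)) * E ≤ 2 * n ∧
      (∑ a ∈ range m, thr (a * b + ι a)) * b ≤ 8 * W := by
  classical
  have hn0 : 0 < n := by
    have : 0 < m * b := Nat.mul_pos hm hb
    omega
  have hnr : (0 : ℝ) < n := by exact_mod_cast hn0
  have hEr : (0 : ℝ) < E := by exact_mod_cast hE
  have hWr : (0 : ℝ) < W := by exact_mod_cast hW
  have hbr : (0 : ℝ) < b := by exact_mod_cast hb
  set C₁ : ℝ := (n : ℝ) / E with hC₁
  set C₂ : ℝ := 4 * (W : ℝ) / b with hC₂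
  have hC₁pos : 0 < C₁ := by positivity
  have hC₂pos : 0 < C₂ := by positivity
  set A : ℕ → ℝ := fun a => 2 * (1 / (Θ₀ : ℝ)) * (wsize n m a : ℝ) * Q +
    2 * (Θ₀ : ℝ) * ∑ q, Vr cl m b a q with hA
  set T : ℕ → ℝ := fun a => ∑ i ∈ range b, (thr (a * b + i) : ℝ) with hT
  set Φ : ℕ → ℕ → ℝ := fun a i => (cost cl m b Θ₀ a i : ℝ) / C₁ + (thr (a * b + i) : ℝ) / C₂ with hΦ
  have hpick : ∀ a, ∃ i, i < b ∧ (a < m → Φ a i ≤ A a / C₁ + (4 / (b : ℝ)) * T a / C₂) := by
    intro a
    by_cases ha : a < m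
    · have hSpos : (0 : ℝ) < wsize n m a := by
        have := wsize_parent_pos hm hb hn ha
        exact_mod_cast this
      obtain ⟨i, hi, hle⟩ := exists_weighted_le (range b) (nonempty_range_iff.2 hb.ne')
        (fun i => (wsize n (m * b) (a * b + i) : ℝ)) (Φ a) (fun _ _ => by positivity)
      refine ⟨i, mem_range.1 hi, fun _ => ?_⟩
      have hSum : ∑ i ∈ range b, (wsize n (m * b) (a * b + i) : ℝ) = wsize n m a := by
        rw [child_wsize (n := n) (m := m) hb a]
        push_cast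
        rfl
      rw [hSum] at hle
      have h1 := avg_cost cl hm hb hn hΘ ha
      have h2 : ∑ i ∈ range b, (wsize n (m * b) (a * b + i) : ℝ) * (thr (a * b + i) : ℝ) ≤
          (wsize n m a : ℝ) * ((4 / (b : ℝ)) * T a) := by
        rw [hT]
        simp only []
        rw [mul_sum, mul_sum]
        refine sum_le_sum fun i hi => ?_
        have h3 := size_ratio (n := n) hm hb hn ha (mem_range.1 hi)
        have h4 : (wsize n (m * b) (a * b + i) : ℝ) * b ≤ 4 * wsize n m a := by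
          exact_mod_cast h3
        have h5 : (wsize n (m * b) (a * b + i) : ℝ) ≤ (wsize n m a : ℝ) * (4 / (b : ℝ)) := by
          rw [mul_div_assoc', le_div_iff₀ hbr]
          linarith
        calc _ ≤ (wsize n m a : ℝ) * (4 / (b : ℝ)) * (thr (a * b + i) : ℝ) :=
              mul_le_mul_of_nonneg_right h5 (by positivity)
          _ = _ := by ring
      have h3 : ∑ j ∈ range b, (wsize n (m * b) (a * b + j) : ℝ) * Φ a j =
          (∑ j ∈ range b, (wsize n (m * b) (a * b + j) : ℝ) * (cost cl m b Θ₀ a j : ℝ)) / C₁ +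
          (∑ j ∈ range b, (wsize n (m * b) (a * b + j) : ℝ) * (thr (a * b + j) : ℝ)) / C₂ := by
        rw [sum_div, sum_div, ← sum_add_distrib]
        refine sum_congr rfl fun j _ => ?_
        simp only [hΦ]
        ring
      rw [h3] at hle
      have h4 : (∑ j ∈ range b, (wsize n (m * b) (a * b + j) : ℝ) * (cost cl m b Θ₀ a j : ℝ)) / C₁ ≤
          ((wsize n m a : ℝ) * A a) / C₁ := div_le_div_of_nonneg_right h1 hC₁pos.le
      have h5 : (∑ j ∈ range b, (wsize n (m * b) (a * b + j) : ℝ) * (thr (a * b + j) : ℝ)) / C₂ ≤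
          ((wsize n m a : ℝ) * ((4 / (b : ℝ)) * T a)) / C₂ := div_le_div_of_nonneg_right h2 hC₂pos.le
      have h6 : Φ a i * (wsize n m a : ℝ) ≤ (A a / C₁ + (4 / (b : ℝ)) * T a / C₂) * (wsize n m a : ℝ) := by
        calc _ ≤ _ := hle
          _ ≤ _ := add_le_add h4 h5
          _ = _ := by ring
      exact le_of_mul_le_mul_right h6 hSpos
    · exact ⟨0, hb, fun h => absurd h ha⟩
  choose ι hιb hι using hpick
  refine ⟨ι, hιb, ?_, ?_⟩
  all_goals
    have hsum : ∑ a ∈ range m, Φ a (ι a) ≤ ∑ a ∈ range m, (A a / C₁ + (4 / (b : ℝ)) * T a / C₂) :=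
      sum_le_sum fun a ha => hι a (mem_range.1 ha)
    have hAsum : ∑ a ∈ range m, A a ≤ C₁ := by
      have h1 : ∑ a ∈ range m, A a = 2 * (1 / (Θ₀ : ℝ)) * (Q : ℝ) * n +
          2 * (Θ₀ : ℝ) * (En cl (m * b) - En cl m) := by
        rw [En_diff]
        simp only [hA]
        rw [sum_add_distrib, ← mul_sum]
        congr 1
        have hs : (∑ a ∈ range m, (wsize n m a : ℝ)) = n := by
          have := sum_wsize (n := n) hm
          exact_mod_cast this
        rw [← hs, mul_sum]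
        exact sum_congr rfl fun _ _ => by ring
      rw [h1]
      exact hΔ
    have hTsum : ∑ a ∈ range m, T a ≤ W := by
      have h1 : ∑ a ∈ range m, T a = ((∑ x ∈ range (m * b), thr x : ℕ) : ℝ) := by
        rw [sum_range_mul']
        push_cast
        rfl
      rw [h1]
      exact_mod_cast hthr
    have hRHS : ∑ a ∈ range m, (A a / C₁ + (4 / (b : ℝ)) * T a / C₂) ≤ 2 := by
      rw [sum_add_distrib, ← sum_div, ← sum_div, ← mul_sum]
      have h1 : (∑ a ∈ range m, A a) / C₁ ≤ 1 := by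
        rw [div_le_one hC₁pos]; exact hAsum
      have h2 : (4 / (b : ℝ)) * (∑ a ∈ range m, T a) / C₂ ≤ 1 := by
        rw [div_le_one hC₂pos, hC₂]
        calc (4 / (b : ℝ)) * (∑ a ∈ range m, T a) ≤ (4 / (b : ℝ)) * W :=
              mul_le_mul_of_nonneg_left hTsum (by positivity)
          _ = _ := by ring
      linarith
    have hsplit : ∑ a ∈ range m, Φ a (ι a) =
        (∑ a ∈ range m, (cost cl m b Θ₀ a (ι a) : ℝ)) / C₁ +
          (∑ a ∈ range m, (thr (a * b + ι a) : ℝ)) / C₂ := by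
      rw [sum_div, sum_div, ← sum_add_distrib]
    have hcost0 : 0 ≤ (∑ a ∈ range m, (cost cl m b Θ₀ a (ι a) : ℝ)) / C₁ := by positivity
    have hthr0 : 0 ≤ (∑ a ∈ range m, (thr (a * b + ι a) : ℝ)) / C₂ := by positivity
  · have h1 : (∑ a ∈ range m, (cost cl m b Θ₀ a (ι a) : ℝ)) / C₁ ≤ 2 := by linarith
    rw [div_le_iff₀ hC₁pos, hC₁] at h1
    have h2 : (∑ a ∈ range m, (cost cl m b Θ₀ a (ι a) : ℝ)) * E ≤ 2 * n := by
      have : 2 * ((n : ℝ) / E) * E = 2 * n := by field_simp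
      calc _ ≤ 2 * ((n : ℝ) / E) * E := mul_le_mul_of_nonneg_right h1 hEr.le
        _ = _ := this
    exact_mod_cast h2
  · have h1 : (∑ a ∈ range m, (thr (a * b + ι a) : ℝ)) / C₂ ≤ 2 := by linarith
    rw [div_le_iff₀ hC₂pos, hC₂] at h1
    have h2 : (∑ a ∈ range m, (thr (a * b + ι a) : ℝ)) * b ≤ 8 * W := by
      have : 2 * (4 * (W : ℝ) / b) * b = 8 * W := by field_simp; ring
      calc _ ≤ 2 * (4 * (W : ℝ) / b) * b := mul_le_mul_of_nonneg_right h1 hbr.le
        _ = _ := this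
    exact_mod_cast h2

end

end Vale.Agent.Lib.P037X
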