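import Mathlib
import Vale.Agent.Lib.P037X.Cost

/-! The column map `κ`. -/

namespace Vale.Agent.Lib.P037X

open Finset

variable {n Q : ℕ}

lemma sum_card_mem {ι : Type*} [DecidableEq ι] (R : Finset ι) (X : ι → Finset (Fin n)) :
    ∑ c : Fin n, (R.filter fun ρ => c ∈ X ρ).card = ∑ ρ ∈ R, (X ρ).card := by
  classical
  simp only [card_filter]
  rw [sum_comm]
  refine sum_congr rfl fun ρ _ => ?_
  rw [sum_boole]
  simp

lemma win_of_child {m b a i : ℕ} (hb : 0 < b) (hi : i < b) {c : Fin n}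
    (h : win n (m * b) c = a * b + i) : win n m c = a := by
  rw [← win_div (m := m) hb c, h, Nat.add_div_of_dvd_right (Dvd.intro_left a rfl),
    Nat.mul_div_cancel _ hb, Nat.div_eq_of_lt hi, add_zero]

theorem select_kappa (cl : Fin n → Fin Q) {m b Θ₀ : ℕ} (hm : 0 < m) (hb : 0 < b)
    (hn : 2 * (m * b) ≤ n) (hΘ : 0 < Θ₀) (hQΘ : Q ≤ Θ₀) {E W k' : ℕ} (hE : 0 < E) (hW : 0 < W)
    (hΔ : 2 * (1 / (Θ₀ : ℝ)) * (Q : ℝ) * n + 2 * (Θ₀ : ℝ) * (En cl (m * b) - En cl m)
      ≤ (n : ℝ) / E)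
    {ι₀ : Type*} [DecidableEq ι₀] (R : Finset ι₀) (Θs Xs : ι₀ → Finset (Fin n))
    (hΘs : ∀ ρ ∈ R, (Θs ρ).card ≤ k') (hRW : R.card * k' ≤ W) :
    ∃ (κ : Fin n → Fin n) (Z : Finset (Fin n)),
      (univ.image κ).card ≤ m * Q ∧
      (univ.filter fun c => cl (κ c) ≠ cl c).card * E ≤ 2 * n ∧
      (∀ c c', c ≤ c' → ∀ t, κ c' ≤ t → t < κ c → t ∈ Z) ∧
      (∑ ρ ∈ R, (Θs ρ ∩ Z).card) * b ≤ 8 * W ∧
      (R.filter fun ρ => ∃ c, κ c ∈ Xs ρ).card * n ≤ 2 * (m * b) * Θ₀ * ∑ ρ ∈ R, (Xs ρ).card := by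
  classical
  have hmb : 0 < m * b := Nat.mul_pos hm hb
  have hn0 : 0 < n := by omega
  set thr : ℕ → ℕ := fun x => ∑ ρ ∈ R, ((Θs ρ).filter fun t => win n (m * b) t = x).card with hthr
  have hthrsum : ∑ x ∈ range (m * b), thr x ≤ W := by
    calc ∑ x ∈ range (m * b), thr x
        = ∑ ρ ∈ R, ∑ x ∈ range (m * b), ((Θs ρ).filter fun t => win n (m * b) t = x).card := by
          simp only [hthr]
          exact sum_comm
      _ = ∑ ρ ∈ R, (Θs ρ).card := by
          refine sum_congr rfl fun ρ _ => ?_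
          exact (card_eq_sum_card_fiberwise
            (fun t _ => mem_coe.2 (mem_range.2 (win_lt hmb t)))).symm
      _ ≤ ∑ _ρ ∈ R, k' := sum_le_sum hΘs
      _ = R.card * k' := by simp
      _ ≤ W := hRW
  obtain ⟨ι, hιb, hcost, hthrsel⟩ := select_children cl hm hb hn hΘ hE hW hΔ thr hthrsum
  set L : ℕ → ℕ := fun a => a * b + ι a with hL
  have hLlt : ∀ a, a < m → L a < m * b := fun a ha => child_index_lt ha (hιb a)
  set P : ℕ → Fin Q → Prop := fun a q => pres cl (m * b) Θ₀ (L a) q with hP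
  set xcount : Fin n → ℕ := fun f => (R.filter fun ρ => f ∈ Xs ρ).card with hxcount
  set cell : ℕ → Fin Q → Finset (Fin n) :=
    fun a q => univ.filter fun c => win n (m * b) c = L a ∧ cl c = q with hcell
  have hcellcard : ∀ a q, (cell a q).card = cnt cl (m * b) (L a) q := fun _ _ => rfl
  have hspos : ∀ a, a < m → 0 < wsize n (m * b) (L a) := fun a ha =>
    wsize_child_pos hm hb hn (hLlt a ha)
  have hpick : ∀ a q, ∃ f : Fin n, a < m → P a q →
      f ∈ cell a q ∧ xcount f * (cell a q).card ≤ ∑ c ∈ cell a q, xcount c := by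
    intro a q
    by_cases h : a < m ∧ P a q
    · have hne : (cell a q).Nonempty := by
        rw [← card_pos, hcellcard]
        have h1 := hspos a h.1
        have h2 : wsize n (m * b) (L a) ≤ Θ₀ * cnt cl (m * b) (L a) q := h.2
        by_contra hcon
        have : cnt cl (m * b) (L a) q = 0 := by omega
        rw [this] at h2
        omega
      obtain ⟨f, hf, hmin⟩ := exists_min_image (cell a q) xcount hne
      refine ⟨f, fun _ _ => ⟨hf, ?_⟩⟩
      calc xcount f * (cell a q).card = ∑ _c ∈ cell a q, xcount f := by simp [mul_comm]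
        _ ≤ _ := sum_le_sum hmin
    · exact ⟨⟨0, hn0⟩, fun h1 h2 => absurd ⟨h1, h2⟩ h⟩
  choose f hf using hpick
  have hq₀ : ∀ a, ∃ q : Fin Q, a < m → P a q := by
    intro a
    by_cases ha : a < m
    · by_contra hcon
      push Not at hcon
      have h1 : ∀ q, Θ₀ * cnt cl (m * b) (L a) q < wsize n (m * b) (L a) := by
        intro q
        have := (hcon q).2
        simp only [hP, pres, not_le] at this
        exact this
      have h2 := hspos a ha
      have h3 : Θ₀ * wsize n (m * b) (L a) ≤ Q * wsize n (m * b) (L a) := by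
        rw [← sum_cnt cl (m * b) (L a), mul_sum]
        calc ∑ q, Θ₀ * cnt cl (m * b) (L a) q ≤ ∑ _q : Fin Q, wsize n (m * b) (L a) :=
              sum_le_sum fun q _ => (h1 q).le
          _ = Q * wsize n (m * b) (L a) := by simp
          _ = _ := by rw [sum_cnt]
      have hQ0 : 0 < Q := by
        exact (Fin.pos ((cl ⟨0, hn0⟩)))
      have h4 := Nat.le_of_mul_le_mul_right h3 h2
      have h5 : Θ₀ = Q := le_antisymm h4 hQΘ
      -- strict version
      have h6 : ∑ q, Θ₀ * cnt cl (m * b) (L a) q < ∑ _q : Fin Q, wsize n (m * b) (L a) :=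
        sum_lt_sum_of_nonempty ⟨cl ⟨0, hn0⟩, mem_univ _⟩ fun q _ => h1 q
      rw [← mul_sum, sum_cnt] at h6
      simp only [sum_const, card_univ, Fintype.card_fin, smul_eq_mul] at h6
      rw [h5] at h6
      exact absurd h6 (lt_irrefl _)
    · exact ⟨cl ⟨0, hn0⟩, fun h => absurd h ha⟩
  choose q₀ hq₀ using hq₀
  set κ : Fin n → Fin n := fun c =>
    if P (win n m c) (cl c) then f (win n m c) (cl c) else f (win n m c) (q₀ (win n m c)) with hκ
  have hwin : ∀ c, win n m c < m := win_lt hm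
  have hκcell : ∀ c, win n (m * b) (κ c) = L (win n m c) := by
    intro c
    by_cases h : P (win n m c) (cl c)
    · simp only [hκ, if_pos h]
      exact (mem_filter.1 (hf _ _ (hwin c) h).1).2.1
    · simp only [hκ, if_neg h]
      exact (mem_filter.1 (hf _ _ (hwin c) (hq₀ _ (hwin c))).1).2.1
  have hκwin : ∀ c, win n m (κ c) = win n m c := fun c =>
    win_of_child hb (hιb _) (hκcell c)
  set Pset : Finset (ℕ × Fin Q) := (range m ×ˢ univ).filter fun p => P p.1 p.2 with hPset
  have hPcard : Pset.card ≤ m * Q := by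
    calc Pset.card ≤ (range m ×ˢ (univ : Finset (Fin Q))).card := card_filter_le _ _
      _ = m * Q := by simp
  have hκP : ∀ c, ∃ p ∈ Pset, κ c = f p.1 p.2 := by
    intro c
    by_cases h : P (win n m c) (cl c)
    · exact ⟨(win n m c, cl c), mem_filter.2 ⟨mem_product.2 ⟨mem_range.2 (hwin c), mem_univ _⟩, h⟩,
        by simp only [hκ, if_pos h]⟩
    · exact ⟨(win n m c, q₀ (win n m c)),
        mem_filter.2 ⟨mem_product.2 ⟨mem_range.2 (hwin c), mem_univ _⟩, hq₀ _ (hwin c)⟩,
        by simp only [hκ, if_neg h]⟩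
  set Z : Finset (Fin n) := (range m).biUnion fun a => univ.filter fun t => win n (m * b) t = L a
    with hZ
  refine ⟨κ, Z, ?_, ?_, ?_, ?_, ?_⟩
  · -- image size
    have hsub : univ.image κ ⊆ Pset.image fun p => f p.1 p.2 := by
      intro x hx
      obtain ⟨c, -, rfl⟩ := mem_image.1 hx
      obtain ⟨p, hp, hpc⟩ := hκP c
      exact mem_image.2 ⟨p, hp, hpc.symm⟩
    exact (card_le_card hsub).trans (card_image_le.trans hPcard)
  · -- class changes
    have hsub : (univ.filter fun c => cl (κ c) ≠ cl c) ⊆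
        (range m).biUnion fun a => univ.filter fun c =>
          win n m c = a ∧ ¬ pres cl (m * b) Θ₀ (a * b + ι a) (cl c) := by
      intro c hc
      have h1 := (mem_filter.1 hc).2
      refine mem_biUnion.2 ⟨win n m c, mem_range.2 (hwin c), mem_filter.2 ⟨mem_univ _, rfl, ?_⟩⟩
      intro h
      apply h1
      have h2 : P (win n m c) (cl c) := h
      simp only [hκ, if_pos h2]
      exact (mem_filter.1 (hf _ _ (hwin c) h2).1).2.2
    calc _ ≤ ((range m).biUnion fun a => univ.filter fun c =>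
          win n m c = a ∧ ¬ pres cl (m * b) Θ₀ (a * b + ι a) (cl c)).card * E :=
          Nat.mul_le_mul_right _ (card_le_card hsub)
      _ ≤ (∑ a ∈ range m, cost cl m b Θ₀ a (ι a)) * E :=
          Nat.mul_le_mul_right _ card_biUnion_le
      _ ≤ 2 * n := hcost
  · -- thresholds
    intro c c' hcc' t ht1 ht2
    have hle := win_mono n m hcc'
    rcases lt_or_eq_of_le hle with hlt | heq
    · exfalso
      have h1 : κ c' < κ c := lt_of_le_of_lt ht1 ht2
      have h2 := win_mono n m h1.le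
      rw [hκwin, hκwin] at h2
      omega
    · have h1 := win_mono n (m * b) ht1
      have h2 := win_mono n (m * b) ht2.le
      rw [hκcell] at h1 h2
      rw [heq] at h2
      refine mem_biUnion.2 ⟨win n m c', mem_range.2 (hwin c'), mem_filter.2 ⟨mem_univ _, ?_⟩⟩
      exact le_antisymm h2 h1
  · -- threshold count
    have h1 : ∀ ρ ∈ R, (Θs ρ ∩ Z).card ≤
        ∑ a ∈ range m, ((Θs ρ).filter fun t => win n (m * b) t = L a).card := by
      intro ρ _
      refine le_trans (card_le_card ?_) card_biUnion_le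
      intro t ht
      obtain ⟨h2, h3⟩ := mem_inter.1 ht
      obtain ⟨a, ha, h4⟩ := mem_biUnion.1 h3
      exact mem_biUnion.2 ⟨a, ha, mem_filter.2 ⟨h2, (mem_filter.1 h4).2⟩⟩
    calc (∑ ρ ∈ R, (Θs ρ ∩ Z).card) * b
        ≤ (∑ ρ ∈ R, ∑ a ∈ range m, ((Θs ρ).filter fun t => win n (m * b) t = L a).card) * b :=
          Nat.mul_le_mul_right _ (sum_le_sum h1)
      _ = (∑ a ∈ range m, thr (a * b + ι a)) * b := by
          congr 1
          exact sum_comm
      _ ≤ 8 * W := hthrsel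
  · -- representatives in `X`
    have hsub : (R.filter fun ρ => ∃ c, κ c ∈ Xs ρ) ⊆
        Pset.biUnion fun p => R.filter fun ρ => f p.1 p.2 ∈ Xs ρ := by
      intro ρ hρ
      obtain ⟨h1, c, hc⟩ := mem_filter.1 hρ
      obtain ⟨p, hp, hpc⟩ := hκP c
      refine mem_biUnion.2 ⟨p, hp, mem_filter.2 ⟨h1, ?_⟩⟩
      rw [← hpc]
      exact hc
    have hone : ∀ p ∈ Pset, xcount (f p.1 p.2) * n ≤
        2 * (m * b) * Θ₀ * ∑ c ∈ cell p.1 p.2, xcount c := by
      intro p hp
      obtain ⟨hp1, hp2⟩ := mem_filter.1 hp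
      have hpm : p.1 < m := mem_range.1 (mem_product.1 hp1).1
      obtain ⟨-, hfle⟩ := hf p.1 p.2 hpm hp2
      have h1 := (wsize_bounds hn0 hmb (hLlt p.1 hpm)).1
      have h2 : n ≤ 2 * (m * b) * wsize n (m * b) (L p.1) := by
        nlinarith
      have h3 : wsize n (m * b) (L p.1) ≤ Θ₀ * (cell p.1 p.2).card := by
        rw [hcellcard]
        exact hp2
      calc xcount (f p.1 p.2) * n
          ≤ xcount (f p.1 p.2) * (2 * (m * b) * (Θ₀ * (cell p.1 p.2).card)) := by
            refine Nat.mul_le_mul_left _ (h2.trans (Nat.mul_le_mul_left _ h3))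
        _ = 2 * (m * b) * Θ₀ * (xcount (f p.1 p.2) * (cell p.1 p.2).card) := by ring
        _ ≤ _ := Nat.mul_le_mul_left _ hfle
    have hdisj : (Pset : Set (ℕ × Fin Q)).PairwiseDisjoint fun p => cell p.1 p.2 := by
      intro p hp p' hp' hne
      refine disjoint_left.2 fun c h1 h2 => hne ?_
      obtain ⟨-, h3, h4⟩ := mem_filter.1 h1
      obtain ⟨-, h5, h6⟩ := mem_filter.1 h2
      have hpm : p.1 < m := mem_range.1 (mem_product.1 (mem_filter.1 (mem_coe.1 hp)).1).1
      have h7 : p.1 = p'.1 := by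
        have h8 := win_of_child (m := m) hb (hιb p.1) h3
        have h9 := win_of_child (m := m) hb (hιb p'.1) h5
        rw [← h8, ← h9]
      exact Prod.ext h7 (h4.symm.trans h6)
    calc (R.filter fun ρ => ∃ c, κ c ∈ Xs ρ).card * n
        ≤ (∑ p ∈ Pset, xcount (f p.1 p.2)) * n :=
          Nat.mul_le_mul_right _ ((card_le_card hsub).trans card_biUnion_le)
      _ = ∑ p ∈ Pset, xcount (f p.1 p.2) * n := by rw [sum_mul]
      _ ≤ ∑ p ∈ Pset, 2 * (m * b) * Θ₀ * ∑ c ∈ cell p.1 p.2, xcount c := sum_le_sum hone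
      _ = 2 * (m * b) * Θ₀ * ∑ p ∈ Pset, ∑ c ∈ cell p.1 p.2, xcount c := by rw [mul_sum]
      _ = 2 * (m * b) * Θ₀ * ∑ c ∈ Pset.biUnion (fun p => cell p.1 p.2), xcount c := by
          rw [sum_biUnion hdisj]
      _ ≤ 2 * (m * b) * Θ₀ * ∑ c, xcount c :=
          Nat.mul_le_mul_left _ (sum_le_sum_of_subset (subset_univ _))
      _ = _ := by rw [sum_card_mem]

end Vale.Agent.Lib.P037X
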