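import Mathlib
import Vale.Agent.Lib.P037.Defs
import Vale.Agent.Lib.P037X.Chain
import Vale.Agent.Lib.P037X.Kappa

/-! The set of bad row tuples. -/

namespace Vale.Agent.Lib.P037X

open Finset
open Vale.Agent.Lib.P037

variable {n k Q : ℕ}

/-- The column word of a row tuple. -/
def colWord (A : Fin n → Fin n → Bool) (ρ : Fin k → Fin n) (c : Fin n) : Fin k → Bool :=
  fun i => A (ρ i) c

/-- The columns of the pattern. -/
def patCol (H : Fin k → Fin k → Bool) (j : Fin k) : Fin k → Bool := fun i => H i j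

/-- Row tuples with many column occurrences are few. -/
lemma card_nonsparse_mul_le (A : Fin n → Fin n → Bool) (H : Fin k → Fin k → Bool) (g : ℕ) :
    (univ.filter fun ρ : Fin k → Fin n => StrictMono ρ ∧
      g ^ k ≤ (occ (colWord A ρ) (patCol H)).card).card * g ^ k ≤ orderedCopies H A := by
  classical
  set NS := univ.filter fun ρ : Fin k → Fin n => StrictMono ρ ∧
      g ^ k ≤ (occ (colWord A ρ) (patCol H)).card with hNS
  calc NS.card * g ^ k = ∑ _ρ ∈ NS, g ^ k := by simp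
    _ ≤ ∑ ρ ∈ NS, (occ (colWord A ρ) (patCol H)).card :=
        sum_le_sum fun ρ hρ => (mem_filter.1 hρ).2.2
    _ = (NS.sigma fun ρ => occ (colWord A ρ) (patCol H)).card := by rw [card_sigma]
    _ ≤ orderedCopies H A := by
        refine card_le_card_of_injOn (fun x => (x.1, x.2)) ?_ ?_
        · intro x hx
          obtain ⟨h1, h2⟩ := mem_sigma.1 (mem_coe.1 hx)
          obtain ⟨-, h3, -⟩ := mem_filter.1 h1
          obtain ⟨-, h4, h5⟩ := mem_filter.1 h2
          refine mem_coe.2 (mem_filter.2 ⟨mem_univ _, h3, h4, fun i j => ?_⟩)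
          exact congrFun (h5 j) i
        · rintro ⟨a, b⟩ _ ⟨a', b'⟩ _ heq
          simp only [Prod.mk.injEq] at heq
          obtain ⟨h1, h2⟩ := heq
          subst h1
          subst h2
          rfl

/-- Selection of `κ` together with the bad set of row tuples. -/
theorem exists_kappa_bad (A : Fin n → Fin n → Bool) (H : Fin k → Fin k → Bool)
    (cl : Fin n → Fin Q) {m b Θ₀ E g G : ℕ} (hk : 0 < k) (hm : 0 < m) (hb : 0 < b)
    (hn : 2 * (m * b) ≤ n) (hΘ : 0 < Θ₀) (hQΘ : Q ≤ Θ₀) (hE : 0 < E)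
    (hΔ : 2 * (1 / (Θ₀ : ℝ)) * (Q : ℝ) * n + 2 * (Θ₀ : ℝ) * (En cl (m * b) - En cl m)
      ≤ (n : ℝ) / E)
    (hg : 1 ≤ g) (hgG1 : n ≤ g * G) (hgG2 : g * G ≤ 2 * n)
    (hG : 4 * (m * b) * Θ₀ * b ≤ G)
    (hN : orderedCopies H A * (G ^ k * b) < n ^ (2 * k)) :
    ∃ (κ : Fin n → Fin n) (Bad : Finset (Fin k → Fin n)),
      (univ.image κ).card ≤ m * Q ∧
      (univ.filter fun c => cl (κ c) ≠ cl c).card * E ≤ 2 * n ∧
      Bad.card * b ≤ (9 * k + 1) * n ^ k ∧
      (∀ ρ c : Fin k → Fin n, StrictMono ρ → StrictMono c →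
        (∀ i j, A (ρ i) (κ (c j)) = H i j) → ρ ∈ Bad) ∧
      (∀ ρ c : Fin k → Fin n, StrictMono ρ → StrictMono c → (∀ j, c j ∈ univ.image κ) →
        (∀ i j, A (ρ i) (c j) = H i j) → ρ ∈ Bad) := by
  classical
  have hn0 : 0 < n := by
    have : 0 < m * b := Nat.mul_pos hm hb
    omega
  set NS := univ.filter fun ρ : Fin k → Fin n => StrictMono ρ ∧
      g ^ k ≤ (occ (colWord A ρ) (patCol H)).card with hNS
  set R := univ.filter fun ρ : Fin k → Fin n => StrictMono ρ ∧
      (occ (colWord A ρ) (patCol H)).card < g ^ k with hR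
  have hRcard : R.card ≤ n ^ k := by
    calc R.card ≤ (univ : Finset (Fin k → Fin n)).card := card_filter_le _ _
      _ = n ^ k := by simp
  have hch : ∀ ρ : Fin k → Fin n, ∃ (X Θ : Finset (Fin n)), ρ ∈ R →
      X.card ≤ k * g ∧ Θ.card ≤ k ∧
      ∀ p : Fin k → Fin n, (∀ j, colWord A ρ (p j) = patCol H j) → (∀ j, p j ∉ X) → Drop p Θ := by
    intro ρ
    by_cases h : ρ ∈ R
    · obtain ⟨X, Θ, h1, h2, h3⟩ := chain_lemma (colWord A ρ) (patCol H) hg (mem_filter.1 h).2.2
      exact ⟨X, Θ, fun _ => ⟨h1, h2, h3⟩⟩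
    · exact ⟨∅, ∅, fun h' => absurd h' h⟩
  choose Xs Θs hch using hch
  set W := k * n ^ k with hW
  have hWpos : 0 < W := by positivity
  obtain ⟨κ, Z, hκ1, hκ2, hκ3, hκ4, hκ5⟩ := select_kappa cl hm hb hn hΘ hQΘ hE hWpos hΔ R Θs Xs
    (k' := k) (fun ρ hρ => (hch ρ hρ).2.1) (by rw [hW, mul_comm]; exact Nat.mul_le_mul_left _ hRcard)
  set B2 := R.filter fun ρ => ∃ c, κ c ∈ Xs ρ with hB2
  set B3 := R.filter fun ρ => (Θs ρ ∩ Z).Nonempty with hB3
  refine ⟨κ, NS ∪ (B2 ∪ B3), hκ1, hκ2, ?_, ?_, ?_⟩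
  · -- card bound
    have h1 : NS.card * b ≤ n ^ k := by
      have h2 := card_nonsparse_mul_le A H g
      rw [← hNS] at h2
      have h3 : n ^ k ≤ g ^ k * G ^ k := by
        rw [← mul_pow]
        exact Nat.pow_le_pow_left hgG1 k
      have h4 : NS.card * b * n ^ k ≤ n ^ k * n ^ k := by
        calc NS.card * b * n ^ k ≤ NS.card * b * (g ^ k * G ^ k) := Nat.mul_le_mul_left _ h3
          _ = (NS.card * g ^ k) * (G ^ k * b) := by ring
          _ ≤ orderedCopies H A * (G ^ k * b) := Nat.mul_le_mul_right _ h2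
          _ ≤ n ^ (2 * k) := hN.le
          _ = n ^ k * n ^ k := by rw [two_mul, pow_add]
      exact Nat.le_of_mul_le_mul_right h4 (by positivity)
    have h5 : B2.card * b ≤ k * n ^ k := by
      have h6 : ∑ ρ ∈ R, (Xs ρ).card ≤ n ^ k * (k * g) := by
        calc _ ≤ ∑ _ρ ∈ R, k * g := sum_le_sum fun ρ hρ => (hch ρ hρ).1
          _ = R.card * (k * g) := by simp
          _ ≤ _ := Nat.mul_le_mul_right _ hRcard
      have hmb4 : 0 < 4 * (m * b) * Θ₀ := by positivity
      have h7 : B2.card * b * (4 * (m * b) * Θ₀) * n ≤ (k * n ^ k) * (4 * (m * b) * Θ₀) * n := by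
        calc B2.card * b * (4 * (m * b) * Θ₀) * n = B2.card * n * (4 * (m * b) * Θ₀ * b) := by ring
          _ ≤ B2.card * n * G := Nat.mul_le_mul_left _ hG
          _ ≤ (2 * (m * b) * Θ₀ * (n ^ k * (k * g))) * G :=
              Nat.mul_le_mul_right _ (hκ5.trans (Nat.mul_le_mul_left _ h6))
          _ = 2 * (m * b) * Θ₀ * n ^ k * k * (g * G) := by ring
          _ ≤ 2 * (m * b) * Θ₀ * n ^ k * k * (2 * n) := Nat.mul_le_mul_left _ hgG2
          _ = _ := by ring
      exact Nat.le_of_mul_le_mul_right (Nat.le_of_mul_le_mul_right h7 hn0) hmb4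
    have h8 : B3.card * b ≤ 8 * W := by
      refine le_trans (Nat.mul_le_mul_right _ ?_) hκ4
      calc B3.card = ∑ _ρ ∈ B3, 1 := by simp
        _ ≤ ∑ ρ ∈ B3, (Θs ρ ∩ Z).card :=
            sum_le_sum fun ρ hρ => card_pos.2 (mem_filter.1 hρ).2
        _ ≤ ∑ ρ ∈ R, (Θs ρ ∩ Z).card :=
            sum_le_sum_of_subset (filter_subset _ _)
    have hcard : (NS ∪ (B2 ∪ B3)).card ≤ NS.card + (B2.card + B3.card) :=
      (card_union_le _ _).trans (Nat.add_le_add_left (card_union_le _ _) _)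
    calc (NS ∪ (B2 ∪ B3)).card * b ≤ (NS.card + (B2.card + B3.card)) * b :=
          Nat.mul_le_mul_right _ hcard
      _ = NS.card * b + (B2.card * b + B3.card * b) := by ring
      _ ≤ n ^ k + (k * n ^ k + 8 * W) := by omega
      _ = _ := by rw [hW]; ring
  · -- copies through `κ`
    intro ρ c hρ hc hcopy
    by_cases hns : g ^ k ≤ (occ (colWord A ρ) (patCol H)).card
    · exact mem_union_left _ (mem_filter.2 ⟨mem_univ _, hρ, hns⟩)
    · push Not at hns
      have hρR : ρ ∈ R := mem_filter.2 ⟨mem_univ _, hρ, hns⟩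
      refine mem_union_right _ ?_
      by_cases hx : ∃ c', κ c' ∈ Xs ρ
      · exact mem_union_left _ (mem_filter.2 ⟨hρR, hx⟩)
      · push Not at hx
        refine mem_union_right _ (mem_filter.2 ⟨hρR, ?_⟩)
        obtain ⟨j, j', hj, t, ht, h1, h2⟩ := (hch ρ hρR).2.2 (fun j => κ (c j))
          (fun j => funext fun i => hcopy i j) (fun j => hx _)
        have hle : c j ≤ c j' := hc.monotone (by rw [Fin.le_def]; omega)
        exact ⟨t, mem_inter.2 ⟨ht, hκ3 _ _ hle t h1 h2⟩⟩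
  · -- copies on the representatives
    intro ρ c hρ hc hcT hcopy
    by_cases hns : g ^ k ≤ (occ (colWord A ρ) (patCol H)).card
    · exact mem_union_left _ (mem_filter.2 ⟨mem_univ _, hρ, hns⟩)
    · push Not at hns
      have hρR : ρ ∈ R := mem_filter.2 ⟨mem_univ _, hρ, hns⟩
      refine mem_union_right _ (mem_union_left _ (mem_filter.2 ⟨hρR, ?_⟩))
      by_contra hx
      push Not at hx
      have hd := (hch ρ hρR).2.2 c (fun j => funext fun i => hcopy i j) (fun j => by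
        obtain ⟨c', -, hc'⟩ := mem_image.1 (hcT j)
        rw [← hc']
        exact hx c')
      exact not_drop_of_monotone hc.monotone _ hd

end Vale.Agent.Lib.P037X
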