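import Mathlib
import Vale.Agent.Lib.P037X.Window

/-! Many traces of rows on a column set force a copy of the pattern. -/

namespace Vale.Agent.Lib.P037X

open Finset

/-- Sauer bound. -/
def sauer (D t : ℕ) : ℕ := ∑ i ∈ range D, t.choose i

/-- The dimension `D` is large enough for pattern size `k`. -/
def DGood (k D : ℕ) : Prop := (2 * k) ^ k * sauer k D < 2 ^ D

lemma card_small_subsets {α : Type*} [DecidableEq α] (C : Finset α) (K : ℕ) :
    (C.powerset.filter fun s => s.card < K).card ≤ sauer K C.card := by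
  have hsub : (C.powerset.filter fun s => s.card < K) ⊆
      (range K).biUnion fun j => powersetCard j C := by
    intro s hs
    obtain ⟨h1, h2⟩ := mem_filter.1 hs
    exact mem_biUnion.2 ⟨s.card, mem_range.2 h2, mem_powersetCard.2 ⟨mem_powerset.1 h1, rfl⟩⟩
  calc _ ≤ _ := card_le_card hsub
    _ ≤ ∑ j ∈ range K, (powersetCard j C).card := card_biUnion_le
    _ = sauer K C.card := by
      unfold sauer
      exact sum_congr rfl fun j _ => card_powersetCard _ _

lemma exists_DGood (k : ℕ) : ∃ D, DGood k D := by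
  have ht := tendsto_pow_const_div_const_pow_of_one_lt k (r := (2 : ℝ)) (by norm_num)
  have hpos : (0 : ℝ) < 1 / (((2 * k) ^ k * k + 1 : ℕ) : ℝ) := by positivity
  have hev := ht.eventually (gt_mem_nhds hpos)
  obtain ⟨D, hD⟩ := (hev.and (Filter.eventually_ge_atTop 1)).exists
  obtain ⟨hD, hD1⟩ := hD
  refine ⟨D, ?_⟩
  unfold DGood sauer
  have hsum : ∑ i ∈ range k, D.choose i ≤ k * D ^ k := by
    calc ∑ i ∈ range k, D.choose i ≤ ∑ i ∈ range k, D ^ k := by
          refine sum_le_sum fun i hi => ?_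
          calc D.choose i ≤ D ^ i := Nat.choose_le_pow _ _
            _ ≤ D ^ k := Nat.pow_le_pow_right hD1 (mem_range.1 hi).le
      _ = k * D ^ k := by simp
  have h2 : ((D : ℝ) ^ k) * (((2 * k) ^ k * k + 1 : ℕ) : ℝ) < 2 ^ D := by
    have h3 : (0 : ℝ) < 2 ^ D := by positivity
    rw [div_lt_div_iff₀ h3 (by positivity)] at hD
    linarith
  have h4 : (D ^ k * ((2 * k) ^ k * k + 1) : ℕ) < 2 ^ D := by
    exact_mod_cast h2
  calc (2 * k) ^ k * ∑ i ∈ range k, D.choose i ≤ (2 * k) ^ k * (k * D ^ k) :=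
        Nat.mul_le_mul_left _ hsum
    _ ≤ D ^ k * ((2 * k) ^ k * k + 1) := by nlinarith [Nat.zero_le (D ^ k)]
    _ < 2 ^ D := h4

lemma two_mul_le_of_DGood {k D : ℕ} (hk : 0 < k) (h : DGood k D) : 2 * k ≤ 2 ^ D := by
  unfold DGood at h
  have h1 : 1 ≤ sauer k D := by
    unfold sauer
    calc 1 = D.choose 0 := by simp
      _ ≤ _ := single_le_sum (f := fun i => D.choose i) (fun _ _ => Nat.zero_le _)
        (mem_range.2 hk)
  have h2 : 2 * k ≤ (2 * k) ^ k := by
    calc 2 * k = (2 * k) ^ 1 := by simp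
      _ ≤ (2 * k) ^ k := Nat.pow_le_pow_right (by omega) hk
  nlinarith

variable {n k D : ℕ}

/-- Intersection of lower sets inside the power set of `C`. -/
lemma lower_inter {α : Type*} [DecidableEq α] (C : Finset α) {ι : Type*} [DecidableEq ι]
    (L : ι → Finset (Finset α))
    (hL : ∀ i, IsLowerSet (L i : Set (Finset α))) (hLC : ∀ i, ∀ t ∈ L i, t ⊆ C) (s : Finset ι) :
    (∏ i ∈ s, (L i).card) * 2 ^ C.card ≤
      (2 ^ C.card) ^ s.card * (C.powerset.filter fun t => ∀ i ∈ s, t ∈ L i).card := by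
  induction s using Finset.induction_on with
  | empty => simp
  | insert a s ha ih =>
    rw [prod_insert ha, card_insert_of_notMem ha]
    set W := C.powerset.filter fun t => ∀ i ∈ s, t ∈ L i with hW
    have hWlow : IsLowerSet (W : Set (Finset α)) := by
      intro t t' htt' ht
      have ht2 := mem_filter.1 (mem_coe.1 ht)
      refine mem_coe.2 (mem_filter.2 ⟨?_, ?_⟩)
      · exact mem_powerset.2 ((le_iff_subset.1 htt').trans (mem_powerset.1 ht2.1))
      · intro i hi
        exact mem_coe.1 (hL i htt' (mem_coe.2 (ht2.2 i hi)))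
    have hWC : ∀ t ∈ W, t ⊆ C := fun t ht => mem_powerset.1 (mem_filter.1 ht).1
    have hk := (hL a).le_card_inter_finset' hWlow (hLC a) hWC
    have hinter : L a ∩ W = C.powerset.filter fun t => ∀ i ∈ insert a s, t ∈ L i := by
      ext t
      simp only [hW, mem_inter, mem_filter, forall_mem_insert]
      constructor
      · rintro ⟨h1, h2, h3⟩; exact ⟨h2, h1, h3⟩
      · rintro ⟨h2, h1, h3⟩; exact ⟨h1, h2, h3⟩
    rw [hinter] at hk
    calc ((L a).card * ∏ i ∈ s, (L i).card) * 2 ^ C.card
        = (L a).card * ((∏ i ∈ s, (L i).card) * 2 ^ C.card) := by ring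
      _ ≤ (L a).card * ((2 ^ C.card) ^ s.card * W.card) := Nat.mul_le_mul_left _ ih
      _ = (2 ^ C.card) ^ s.card * ((L a).card * W.card) := by ring
      _ ≤ (2 ^ C.card) ^ s.card * (2 ^ C.card *
          (C.powerset.filter fun t => ∀ i ∈ insert a s, t ∈ L i).card) := Nat.mul_le_mul_left _ hk
      _ = (2 ^ C.card) ^ (s.card + 1) *
          (C.powerset.filter fun t => ∀ i ∈ insert a s, t ∈ L i).card := by ring

/-- Many distinct traces give a copy. -/
theorem copy_of_many_traces (hk : 0 < k) (hD : DGood k D) (A : Fin n → Fin n → Bool)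
    (H : Fin k → Fin k → Bool) (Y T : Finset (Fin n))
    (h : sauer D T.card < (Y.image fun r => T.filter fun c => A r c = true).card) :
    ∃ ρ c : Fin k → Fin n, StrictMono ρ ∧ StrictMono c ∧ (∀ i, ρ i ∈ Y) ∧ (∀ j, c j ∈ T) ∧
      ∀ i j, A (ρ i) (c j) = H i j := by
  classical
  set 𝒜 := Y.image fun r => T.filter fun c => A r c = true with h𝒜
  -- a shattered set of size `D`
  obtain ⟨C, hCshat, hCcard⟩ : ∃ C, 𝒜.Shatters C ∧ C.card = D := by
    have h1 := card_le_card_shatterer 𝒜
    have h2 : ∃ s ∈ 𝒜.shatterer, D ≤ s.card := by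
      by_contra hcon
      push Not at hcon
      have hsub : 𝒜.shatterer ⊆ T.powerset.filter fun s => s.card < D := by
        intro s hs
        refine mem_filter.2 ⟨mem_powerset.2 ?_, hcon s hs⟩
        obtain ⟨u, hu, hsu⟩ := (mem_shatterer.1 hs).exists_superset
        obtain ⟨r, -, rfl⟩ := mem_image.1 hu
        exact hsu.trans (filter_subset _ _)
      have h3 := (card_le_card hsub).trans (card_small_subsets T D)
      omega
    obtain ⟨s, hs, hsD⟩ := h2
    obtain ⟨C, hCs, hC⟩ := exists_subset_card_eq hsD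
    exact ⟨C, (mem_shatterer.1 hs).mono_right hCs, hC⟩
  have hCT : C ⊆ T := by
    obtain ⟨u, hu, hsu⟩ := hCshat.exists_superset
    obtain ⟨r, -, rfl⟩ := mem_image.1 hu
    exact hsu.trans (filter_subset _ _)
  set tr : Fin n → Finset (Fin n) := fun r => C.filter fun c => A r c = true with htr
  -- rows realizing all subsets
  obtain ⟨Y', hY'Y, hY'inj, hY'img⟩ : ∃ Y' : Finset (Fin n), (Y' : Set (Fin n)) ⊆ Y ∧
      Set.InjOn tr Y' ∧ Y'.image tr = C.powerset := by
    apply exists_subset_injOn_image_eq_of_surjOn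
    intro S hS
    have hSC : S ⊆ C := mem_powerset.1 (mem_coe.1 hS)
    obtain ⟨u, hu, hCu⟩ := hCshat hSC
    obtain ⟨r, hr, rfl⟩ := mem_image.1 hu
    refine ⟨r, mem_coe.2 hr, ?_⟩
    rw [← hCu]
    ext c
    simp only [htr, mem_filter, mem_inter]
    constructor
    · rintro ⟨h1, h2⟩; exact ⟨h1, hCT h1, h2⟩
    · rintro ⟨h1, -, h2⟩; exact ⟨h1, h2⟩
  have hY'card : Y'.card = 2 ^ D := by
    have h1 := card_image_of_injOn hY'inj
    rw [hY'img, card_powerset, hCcard] at h1
    exact h1.symm
  set N := 2 ^ D with hN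
  set e := Y'.orderEmbOfFin hY'card with he
  have heY' : ∀ x, e x ∈ Y' := fun x => orderEmbOfFin_mem _ _ _
  set Sx : Fin N → Finset (Fin n) := fun x => tr (e x) with hSx
  have hSxinj : Function.Injective Sx := by
    intro x x' hxx'
    exact e.injective (hY'inj (mem_coe.2 (heY' x)) (mem_coe.2 (heY' x')) hxx')
  have hNpos : 0 < N := by positivity
  have hSxC : ∀ x, Sx x ⊆ C := fun x => filter_subset _ _
  -- the segments
  set seg : Fin k → Finset (Fin N) := fun i => univ.filter fun x => win N k x = i.val with hseg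
  have hsegcard : ∀ i, N ≤ 2 * k * (seg i).card := by
    intro i
    have h1 := (wsize_bounds hNpos hk i.isLt).1
    have h2 := two_mul_le_of_DGood hk hD
    have h3 : wsize N k i.val = (seg i).card := rfl
    rw [h3] at h1
    nlinarith
  set L : Fin k → Finset (Finset (Fin n)) := fun i => ((seg i).image Sx).shatterer with hL
  have hLlow : ∀ i, IsLowerSet (L i : Set (Finset (Fin n))) := fun i => isLowerSet_shatterer _
  have hLC : ∀ i, ∀ t ∈ L i, t ⊆ C := by
    intro i t ht
    obtain ⟨u, hu, htu⟩ := (mem_shatterer.1 ht).exists_superset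
    obtain ⟨x, -, rfl⟩ := mem_image.1 hu
    exact htu.trans (hSxC x)
  have hLcard : ∀ i, N ≤ 2 * k * (L i).card := by
    intro i
    refine (hsegcard i).trans (Nat.mul_le_mul_left _ ?_)
    calc (seg i).card = ((seg i).image Sx).card := (card_image_of_injective _ hSxinj).symm
      _ ≤ _ := card_le_card_shatterer _
  -- Harris-Kleitman
  have hHK := lower_inter C L hLlow hLC univ
  rw [hCcard, ← hN, card_univ, Fintype.card_fin] at hHK
  set W := C.powerset.filter fun t => ∀ i ∈ (univ : Finset (Fin k)), t ∈ L i with hW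
  have hHK' : (∏ i, (L i).card) * N ≤ N ^ k * W.card := by
    convert hHK
  have hprod : N ^ k ≤ (2 * k) ^ k * ∏ i, (L i).card := by
    calc N ^ k = ∏ _i : Fin k, N := by simp
      _ ≤ ∏ i : Fin k, (2 * k * (L i).card) := prod_le_prod' fun i _ => hLcard i
      _ = (2 * k) ^ k * ∏ i, (L i).card := by
        rw [prod_mul_distrib]; simp
  have hWbig : N ≤ (2 * k) ^ k * W.card := by
    have h1 : N ^ k * N ≤ N ^ k * ((2 * k) ^ k * W.card) := by
      calc N ^ k * N ≤ ((2 * k) ^ k * ∏ i, (L i).card) * N := Nat.mul_le_mul_right _ hprod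
        _ = (2 * k) ^ k * ((∏ i, (L i).card) * N) := by ring
        _ ≤ (2 * k) ^ k * (N ^ k * W.card) := Nat.mul_le_mul_left _ hHK'
        _ = _ := by ring
    exact Nat.le_of_mul_le_mul_left h1 (by positivity)
  obtain ⟨t, htW, htk⟩ : ∃ t ∈ W, k ≤ t.card := by
    by_contra hcon
    push Not at hcon
    have hsub : W ⊆ C.powerset.filter fun s => s.card < k := by
      intro s hs
      exact mem_filter.2 ⟨(mem_filter.1 hs).1, hcon s hs⟩
    have h3 := (card_le_card hsub).trans (card_small_subsets C k)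
    rw [hCcard] at h3
    have h4 : (2 * k) ^ k * W.card ≤ (2 * k) ^ k * sauer k D := Nat.mul_le_mul_left _ h3
    have h5 : (2 * k) ^ k * sauer k D < N := hD
    omega
  obtain ⟨s', hs't, hs'card⟩ := exists_subset_card_eq htk
  set σ := s'.orderEmbOfFin hs'card with hσ
  have hσs' : ∀ j, σ j ∈ s' := fun j => orderEmbOfFin_mem _ _ _
  have hs'C : s' ⊆ C := hs't.trans (mem_powerset.1 (mem_filter.1 htW).1)
  have hshat : ∀ i, ((seg i).image Sx).Shatters s' := fun i =>
    (mem_shatterer.1 ((mem_filter.1 htW).2 i (mem_univ _))).mono_right hs't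
  have hpick : ∀ i, ∃ x ∈ seg i, s' ∩ Sx x = (univ.filter fun j => H i j = true).image σ := by
    intro i
    have hsub : (univ.filter fun j => H i j = true).image σ ⊆ s' := by
      intro y hy
      obtain ⟨j, -, rfl⟩ := mem_image.1 hy
      exact hσs' j
    obtain ⟨u, hu, hsu⟩ := hshat i hsub
    obtain ⟨x, hx, rfl⟩ := mem_image.1 hu
    exact ⟨x, hx, hsu⟩
  choose x hxseg hx using hpick
  refine ⟨fun i => e (x i), fun j => σ j, ?_, σ.strictMono, ?_, ?_, ?_⟩
  · intro i i' hii'
    apply e.strictMono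
    by_contra hcon
    push Not at hcon
    have h1 := win_mono N k hcon
    have h2 := (mem_filter.1 (hxseg i)).2
    have h3 := (mem_filter.1 (hxseg i')).2
    rw [h2, h3] at h1
    exact absurd (Fin.lt_def.1 hii') (by omega)
  · intro i
    exact hY'Y (mem_coe.2 (heY' _))
  · intro j
    exact hCT (hs'C (hσs' j))
  · intro i j
    have hiff : A (e (x i)) (σ j) = true ↔ H i j = true := by
      have h1 : σ j ∈ s' ∩ Sx (x i) ↔ σ j ∈ (univ.filter fun j => H i j = true).image σ := by
        rw [hx i]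
      constructor
      · intro h
        have : σ j ∈ s' ∩ Sx (x i) := by
          refine mem_inter.2 ⟨hσs' j, ?_⟩
          exact mem_filter.2 ⟨hs'C (hσs' j), h⟩
        obtain ⟨j', hj', hjj'⟩ := mem_image.1 (h1.1 this)
        rw [σ.injective hjj'] at hj'
        exact (mem_filter.1 hj').2
      · intro h
        have : σ j ∈ (univ.filter fun j => H i j = true).image σ :=
          mem_image.2 ⟨j, mem_filter.2 ⟨mem_univ _, h⟩, rfl⟩
        have h2 := (mem_inter.1 (h1.2 this)).2
        exact (mem_filter.1 h2).2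
    exact Bool.eq_iff_iff.2 hiff

end Vale.Agent.Lib.P037X
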