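import Mathlib
import Vale.Agent.Lib.P037X.Shatter

/-! Sampling: if all trace classes are small, many row tuples admit a copy. -/

namespace Vale.Agent.Lib.P037X

open Finset

variable {n k D : ℕ}

/-- Strictly increasing row tuples in `Y` admitting a copy with columns in `T`. -/
def goodRows (A : Fin n → Fin n → Bool) (H : Fin k → Fin k → Bool) (Y T : Finset (Fin n)) :
    Finset (Fin k → Fin n) :=
  univ.filter fun ρ => StrictMono ρ ∧ (∀ i, ρ i ∈ Y) ∧
    ∃ c : Fin k → Fin n, StrictMono c ∧ (∀ j, c j ∈ T) ∧ ∀ i j, A (ρ i) (c j) = H i j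

/-- Samples from `Y` whose restriction along an injective `f` is prescribed. -/
lemma card_comp_eq_le {n l z : ℕ} (Y : Finset (Fin n)) (f : Fin l → Fin z)
    (hf : Function.Injective f) (g : Fin l → Fin n) :
    ((Fintype.piFinset fun _ : Fin z => Y).filter fun s => s ∘ f = g).card * Y.card ^ l
      ≤ Y.card ^ z := by
  classical
  have h1 : (Fintype.piFinset fun _ : Fin l => Y).card = Y.card ^ l := by
    simp
  have h2 : (Fintype.piFinset fun _ : Fin z => Y).card = Y.card ^ z := by
    simp
  rw [← h1, ← h2, ← card_product]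
  refine card_le_card_of_injOn (fun x => Function.extend f x.2 x.1) ?_ ?_
  · rintro ⟨s, h⟩ hx
    obtain ⟨hs, hh⟩ := mem_product.1 (mem_coe.1 hx)
    simp only at hs hh
    obtain ⟨hs, -⟩ := mem_filter.1 hs
    rw [Fintype.mem_piFinset] at hs hh
    refine mem_coe.2 (Fintype.mem_piFinset.2 fun x => ?_)
    by_cases hx' : ∃ a, f a = x
    · obtain ⟨a, rfl⟩ := hx'
      simp only [hf.extend_apply]
      exact hh a
    · simp only [Function.extend_apply' _ _ _ hx']
      exact hs x
  · rintro ⟨s, h⟩ hx ⟨s', h'⟩ hx' heq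
    obtain ⟨hs, -⟩ := mem_product.1 (mem_coe.1 hx)
    obtain ⟨hs', -⟩ := mem_product.1 (mem_coe.1 hx')
    simp only at hs hs'
    have hsg := (mem_filter.1 hs).2
    have hsg' := (mem_filter.1 hs').2
    simp only at heq
    have hh : h = h' := by
      funext a
      have := congrFun heq (f a)
      simpa only [hf.extend_apply] using this
    have hss : s = s' := by
      funext x
      by_cases hx' : ∃ a, f a = x
      · obtain ⟨a, rfl⟩ := hx'
        have h3 := congrFun hsg a
        have h4 := congrFun hsg' a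
        simp only [Function.comp] at h3 h4
        rw [h3, h4]
      · have := congrFun heq x
        simpa only [Function.extend_apply' _ _ _ hx'] using this
    rw [hss, hh]

lemma card_comp_mem_le {n l z : ℕ} (Y : Finset (Fin n)) (f : Fin l → Fin z)
    (hf : Function.Injective f) (G : Finset (Fin l → Fin n)) :
    ((Fintype.piFinset fun _ : Fin z => Y).filter fun s => s ∘ f ∈ G).card * Y.card ^ l
      ≤ G.card * Y.card ^ z := by
  classical
  have hsub : ((Fintype.piFinset fun _ : Fin z => Y).filter fun s => s ∘ f ∈ G) ⊆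
      G.biUnion fun g => (Fintype.piFinset fun _ : Fin z => Y).filter fun s => s ∘ f = g := by
    intro s hs
    obtain ⟨h1, h2⟩ := mem_filter.1 hs
    exact mem_biUnion.2 ⟨_, h2, mem_filter.2 ⟨h1, rfl⟩⟩
  calc _ ≤ (G.biUnion fun g => (Fintype.piFinset fun _ : Fin z => Y).filter
          fun s => s ∘ f = g).card * Y.card ^ l := Nat.mul_le_mul_right _ (card_le_card hsub)
    _ ≤ (∑ g ∈ G, ((Fintype.piFinset fun _ : Fin z => Y).filter
          fun s => s ∘ f = g).card) * Y.card ^ l := Nat.mul_le_mul_right _ card_biUnion_le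
    _ = ∑ g ∈ G, ((Fintype.piFinset fun _ : Fin z => Y).filter
          fun s => s ∘ f = g).card * Y.card ^ l := by rw [sum_mul]
    _ ≤ ∑ _g ∈ G, Y.card ^ z := sum_le_sum fun g _ => card_comp_eq_le Y f hf g
    _ = G.card * Y.card ^ z := by simp

/-- Sampling lemma. -/
theorem sample_lemma (hk : 0 < k) (hD : DGood k D) (A : Fin n → Fin n → Bool)
    (H : Fin k → Fin k → Bool) (Y T : Finset (Fin n)) {z : ℕ} (hz : sauer D T.card < z)
    (hclass : ∀ r ∈ Y, 2 * z ^ 2 *
      (Y.filter fun r' => (T.filter fun c => A r' c = true) = (T.filter fun c => A r c = true)).card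
        ≤ Y.card) :
    Y.card ^ k ≤ 2 * z ^ k * (goodRows A H Y T).card := by
  classical
  rcases Y.eq_empty_or_nonempty with hY | hY
  · subst hY
    simp [hk.ne']
  have hy : 0 < Y.card := hY.card_pos
  have hz0 : 0 < z := by omega
  set trc : Fin n → Finset (Fin n) := fun r => T.filter fun c => A r c = true with htrc
  set 𝒮 := Fintype.piFinset fun _ : Fin z => Y with h𝒮
  have h𝒮card : 𝒮.card = Y.card ^ z := by simp [h𝒮]
  -- pairs with equal trace
  set G : Finset (Fin 2 → Fin n) :=
    univ.filter fun g => g 0 ∈ Y ∧ g 1 ∈ Y ∧ trc (g 0) = trc (g 1) with hG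
  have hGcard : G.card * (2 * z ^ 2) ≤ Y.card ^ 2 := by
    have hinj : G.card ≤ (Y.sigma fun r => Y.filter fun r' => trc r' = trc r).card := by
      refine card_le_card_of_injOn (fun g => ⟨g 0, g 1⟩) ?_ ?_
      · intro g hg
        obtain ⟨-, h0, h1, h2⟩ := mem_filter.1 (mem_coe.1 hg)
        exact mem_coe.2 (mem_sigma.2 ⟨h0, mem_filter.2 ⟨h1, h2.symm⟩⟩)
      · intro g _ g' _ heq
        simp only [Sigma.mk.injEq] at heq
        obtain ⟨h1, h2⟩ := heq
        funext i
        fin_cases i
        · exact h1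
        · simpa using eq_of_heq h2
    rw [card_sigma] at hinj
    calc G.card * (2 * z ^ 2)
        ≤ (∑ r ∈ Y, (Y.filter fun r' => trc r' = trc r).card) * (2 * z ^ 2) :=
          Nat.mul_le_mul_right _ hinj
      _ = ∑ r ∈ Y, (2 * z ^ 2 * (Y.filter fun r' => trc r' = trc r).card) := by
          rw [sum_mul]; exact sum_congr rfl fun _ _ => by ring
      _ ≤ ∑ _r ∈ Y, Y.card := sum_le_sum hclass
      _ = Y.card ^ 2 := by simp [sq]
  -- one pair of sample indices
  have hpair : ∀ i i' : Fin z, i ≠ i' →
      (𝒮.filter fun s => trc (s i) = trc (s i')).card * (2 * z ^ 2) ≤ Y.card ^ z := by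
    intro i i' hii'
    set f : Fin 2 → Fin z := ![i, i'] with hf
    have hfinj : Function.Injective f := by
      intro a b hab
      fin_cases a <;> fin_cases b <;> simp_all [hf, Ne.symm hii']
    have h1 := card_comp_mem_le Y f hfinj G
    have hsub : (𝒮.filter fun s => trc (s i) = trc (s i')) ⊆
        𝒮.filter fun s => s ∘ f ∈ G := by
      intro s hs
      obtain ⟨h2, h3⟩ := mem_filter.1 hs
      have hsY := Fintype.mem_piFinset.1 h2
      refine mem_filter.2 ⟨h2, mem_filter.2 ⟨mem_univ _, ?_, ?_, ?_⟩⟩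
      · simpa [hf] using hsY i
      · simpa [hf] using hsY i'
      · simpa [hf] using h3
    have h2 := Nat.mul_le_mul_right (Y.card ^ 2) (card_le_card hsub)
    have h3 : (𝒮.filter fun s => trc (s i) = trc (s i')).card * (2 * z ^ 2) * Y.card ^ 2
        ≤ Y.card ^ z * Y.card ^ 2 := by
      calc (𝒮.filter fun s => trc (s i) = trc (s i')).card * (2 * z ^ 2) * Y.card ^ 2
          = ((𝒮.filter fun s => trc (s i) = trc (s i')).card * Y.card ^ 2) * (2 * z ^ 2) := by ring
        _ ≤ ((𝒮.filter fun s => s ∘ f ∈ G).card * Y.card ^ 2) * (2 * z ^ 2) :=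
            Nat.mul_le_mul_right _ h2
        _ ≤ (G.card * Y.card ^ z) * (2 * z ^ 2) := Nat.mul_le_mul_right _ h1
        _ = (G.card * (2 * z ^ 2)) * Y.card ^ z := by ring
        _ ≤ Y.card ^ 2 * Y.card ^ z := Nat.mul_le_mul_right _ hGcard
        _ = _ := by ring
    exact Nat.le_of_mul_le_mul_right h3 (by positivity)
  -- samples with distinct traces
  set 𝒩 := 𝒮.filter fun s => Function.Injective (trc ∘ s) with h𝒩
  have hnon : Y.card ^ z ≤ 2 * 𝒩.card := by
    have hbad : (𝒮.filter fun s => ¬ Function.Injective (trc ∘ s)).card * 2 ≤ Y.card ^ z := by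
      have hsub : (𝒮.filter fun s => ¬ Function.Injective (trc ∘ s)) ⊆
          ((univ : Finset (Fin z × Fin z)).filter fun p => p.1 ≠ p.2).biUnion
            fun p => 𝒮.filter fun s => trc (s p.1) = trc (s p.2) := by
        intro s hs
        obtain ⟨h1, h2⟩ := mem_filter.1 hs
        simp only [Function.Injective, not_forall] at h2
        obtain ⟨a, b, h3, h4⟩ := h2
        exact mem_biUnion.2 ⟨(a, b), mem_filter.2 ⟨mem_univ _, h4⟩, mem_filter.2 ⟨h1, h3⟩⟩
      have h3 := card_le_card hsub
      have h4 := card_biUnion_le (s := (univ : Finset (Fin z × Fin z)).filter fun p => p.1 ≠ p.2)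
        (t := fun p => 𝒮.filter fun s => trc (s p.1) = trc (s p.2))
      have h5 : (∑ p ∈ (univ : Finset (Fin z × Fin z)).filter (fun p => p.1 ≠ p.2),
          (𝒮.filter fun s => trc (s p.1) = trc (s p.2)).card) * (2 * z ^ 2)
            ≤ z ^ 2 * Y.card ^ z := by
        rw [sum_mul]
        calc _ ≤ ∑ _p ∈ (univ : Finset (Fin z × Fin z)).filter (fun p => p.1 ≠ p.2), Y.card ^ z :=
              sum_le_sum fun p hp => hpair p.1 p.2 (mem_filter.1 hp).2
          _ = ((univ : Finset (Fin z × Fin z)).filter (fun p => p.1 ≠ p.2)).card * Y.card ^ z := by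
              simp
          _ ≤ (univ : Finset (Fin z × Fin z)).card * Y.card ^ z :=
              Nat.mul_le_mul_right _ (card_filter_le _ _)
          _ = z ^ 2 * Y.card ^ z := by simp [sq]
      have h6 : (𝒮.filter fun s => ¬ Function.Injective (trc ∘ s)).card * 2 * z ^ 2
          ≤ Y.card ^ z * z ^ 2 := by
        calc (𝒮.filter fun s => ¬ Function.Injective (trc ∘ s)).card * 2 * z ^ 2
            = (𝒮.filter fun s => ¬ Function.Injective (trc ∘ s)).card * (2 * z ^ 2) := by ring
          _ ≤ (∑ p ∈ (univ : Finset (Fin z × Fin z)).filter (fun p => p.1 ≠ p.2),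
              (𝒮.filter fun s => trc (s p.1) = trc (s p.2)).card) * (2 * z ^ 2) :=
              Nat.mul_le_mul_right _ (h3.trans h4)
          _ ≤ z ^ 2 * Y.card ^ z := h5
          _ = _ := by ring
      exact Nat.le_of_mul_le_mul_right h6 (by positivity)
    have hsplit : 𝒩.card + (𝒮.filter fun s => ¬ Function.Injective (trc ∘ s)).card = Y.card ^ z := by
      rw [← h𝒮card, h𝒩]
      convert card_filter_add_card_filter_not (s := 𝒮) (fun s => Function.Injective (trc ∘ s))
    omega
  -- each sample with distinct traces contains a good tuple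
  have hcover : 𝒩 ⊆ ((univ : Finset (Fin k → Fin z)).filter Function.Injective).biUnion
      fun f => 𝒮.filter fun s => s ∘ f ∈ goodRows A H Y T := by
    intro s hs
    obtain ⟨h1, h2⟩ := mem_filter.1 hs
    have hsY := Fintype.mem_piFinset.1 h1
    have hcard : ((univ.image s).image fun r => T.filter fun c => A r c = true).card = z := by
      rw [image_image]
      have : (((fun r => T.filter fun c => A r c = true) ∘ s) : Fin z → _) = trc ∘ s := rfl
      rw [this, card_image_of_injective _ h2]
      simp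
    obtain ⟨ρ, c, hρ, hc, hρs, hcT, hcopy⟩ :=
      copy_of_many_traces hk hD A H (univ.image s) T (by rw [hcard]; exact hz)
    have hex : ∀ i, ∃ x, s x = ρ i := by
      intro i
      obtain ⟨x, -, hx⟩ := mem_image.1 (hρs i)
      exact ⟨x, hx⟩
    choose f hf using hex
    have hfinj : Function.Injective f := by
      intro a b hab
      apply hρ.injective
      rw [← hf a, ← hf b, hab]
    have hcomp : s ∘ f = ρ := funext hf
    refine mem_biUnion.2 ⟨f, mem_filter.2 ⟨mem_univ _, hfinj⟩, mem_filter.2 ⟨h1, ?_⟩⟩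
    rw [hcomp]
    refine mem_filter.2 ⟨mem_univ _, hρ, ?_, c, hc, hcT, hcopy⟩
    intro i
    rw [← hf i]
    exact hsY _
  have hmain : 𝒩.card * Y.card ^ k ≤ z ^ k * ((goodRows A H Y T).card * Y.card ^ z) := by
    calc 𝒩.card * Y.card ^ k
        ≤ (∑ f ∈ (univ : Finset (Fin k → Fin z)).filter Function.Injective,
          (𝒮.filter fun s => s ∘ f ∈ goodRows A H Y T).card) * Y.card ^ k :=
          Nat.mul_le_mul_right _ ((card_le_card hcover).trans card_biUnion_le)
      _ = ∑ f ∈ (univ : Finset (Fin k → Fin z)).filter Function.Injective,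
          (𝒮.filter fun s => s ∘ f ∈ goodRows A H Y T).card * Y.card ^ k := by rw [sum_mul]
      _ ≤ ∑ _f ∈ (univ : Finset (Fin k → Fin z)).filter Function.Injective,
          (goodRows A H Y T).card * Y.card ^ z :=
          sum_le_sum fun f hf => card_comp_mem_le Y f (mem_filter.1 hf).2 _
      _ = ((univ : Finset (Fin k → Fin z)).filter Function.Injective).card *
          ((goodRows A H Y T).card * Y.card ^ z) := by simp
      _ ≤ (univ : Finset (Fin k → Fin z)).card * ((goodRows A H Y T).card * Y.card ^ z) :=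
          Nat.mul_le_mul_right _ (card_filter_le _ _)
      _ = z ^ k * ((goodRows A H Y T).card * Y.card ^ z) := by simp
  have hfinal : Y.card ^ k * Y.card ^ z ≤ (2 * z ^ k * (goodRows A H Y T).card) * Y.card ^ z := by
    calc Y.card ^ k * Y.card ^ z = Y.card ^ z * Y.card ^ k := by ring
      _ ≤ (2 * 𝒩.card) * Y.card ^ k := Nat.mul_le_mul_right _ hnon
      _ = 2 * (𝒩.card * Y.card ^ k) := by ring
      _ ≤ 2 * (z ^ k * ((goodRows A H Y T).card * Y.card ^ z)) := Nat.mul_le_mul_left _ hmain
      _ = _ := by ring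
  exact Nat.le_of_mul_le_mul_right hfinal (by positivity)

end Vale.Agent.Lib.P037X
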