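import Mathlib
import Vale.Agent.Lib.P037.Defs
import Vale.Agent.Lib.P037X.Sample

/-! Step A: classes of columns of small Hamming diameter. -/

namespace Vale.Agent.Lib.P037X

open Finset
open Vale.Agent.Lib.P037

variable {n k D : ℕ}

/-- Hamming distance between two columns. -/
def hamC (A : Fin n → Fin n → Bool) (c c' : Fin n) : ℕ :=
  (univ.filter fun r => A r c ≠ A r c').card

lemma hamC_comm (A : Fin n → Fin n → Bool) (c c' : Fin n) : hamC A c c' = hamC A c' c := by
  unfold hamC
  congr 1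
  ext r
  simp [ne_comm]

lemma hamC_triangle (A : Fin n → Fin n → Bool) (c d c' : Fin n) :
    hamC A c c' ≤ hamC A c d + hamC A d c' := by
  unfold hamC
  refine (card_le_card ?_).trans (card_union_le _ _)
  intro r hr
  simp only [mem_union, mem_filter, mem_univ, true_and] at hr ⊢
  by_contra hcon
  push Not at hcon
  exact hr (hcon.1.trans hcon.2)

lemma exists_index {β : Type*} [DecidableEq β] (s : Finset β) :
    ∃ idx : β → ℕ, (∀ x ∈ s, idx x < s.card) ∧ Set.InjOn idx s := by
  classical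
  refine ⟨fun x => if h : x ∈ s then (s.equivFin ⟨x, h⟩).val else 0, ?_, ?_⟩
  · intro x hx
    simp only [dif_pos hx]
    exact (s.equivFin ⟨x, hx⟩).isLt
  · intro x hx y hy hxy
    simp only [dif_pos (mem_coe.1 hx), dif_pos (mem_coe.1 hy)] at hxy
    have := s.equivFin.injective (Fin.ext hxy)
    simpa using this

lemma card_image_heavy_le {β : Type*} [DecidableEq β] (f : Fin n → β) {V : ℕ} (hn : 0 < n)
    (Lt : Finset (Fin n))
    (hLt : ∀ r, r ∉ Lt → n ≤ (univ.filter fun r' => f r' = f r).card * V) :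
    ((univ \ Lt).image f).card ≤ V := by
  classical
  set 𝓗 := (univ \ Lt).image f with h𝓗
  have hsum : ∑ τ ∈ 𝓗, (univ.filter fun r => f r = τ).card ≤ n := by
    have := card_eq_sum_card_fiberwise (s := (univ : Finset (Fin n))) (t := 𝓗 ∪ (univ.image f))
      (f := f) (by
        intro x _
        exact mem_coe.2 (mem_union_right _ (mem_image_of_mem _ (mem_univ _))))
    have h6 : ∑ τ ∈ 𝓗, (univ.filter fun r => f r = τ).card ≤
        ∑ τ ∈ 𝓗 ∪ (univ.image f), (univ.filter fun r => f r = τ).card :=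
      sum_le_sum_of_subset subset_union_left
    simp only [card_univ, Fintype.card_fin] at this
    omega
  have hlow : ∀ τ ∈ 𝓗, n ≤ (univ.filter fun r => f r = τ).card * V := by
    intro τ hτ
    obtain ⟨r, hr, rfl⟩ := mem_image.1 hτ
    exact hLt r (mem_sdiff.1 hr).2
  have h7 : 𝓗.card * n ≤ V * n := by
    calc 𝓗.card * n = ∑ _τ ∈ 𝓗, n := by simp
      _ ≤ ∑ τ ∈ 𝓗, (univ.filter fun r => f r = τ).card * V := sum_le_sum hlow
      _ = (∑ τ ∈ 𝓗, (univ.filter fun r => f r = τ).card) * V := by rw [sum_mul]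
      _ ≤ n * V := Nat.mul_le_mul_right _ hsum
      _ = V * n := mul_comm _ _
  exact Nat.le_of_mul_le_mul_right h7 hn

/-- The abstract classification step. -/
lemma classes_of_trace {β : Type*} [DecidableEq β] (τ : Fin n → β) (far : Fin n → Fin n → Prop)
    [DecidableRel far] (Lc : Finset (Fin n)) {V E : ℕ} (hn : 0 < n)
    (hLc : Lc.card * E < n)
    (hheavy : ∀ c, c ∉ Lc → n ≤ (univ.filter fun c' => τ c' = τ c).card * V)
    (hfar : (∑ c, (univ.filter fun c' => τ c' = τ c ∧ far c c').card) * (V * E) ≤ n * n) :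
    ∃ cl : Fin n → Fin (V + 1), (univ.filter fun c => cl c = 0).card * E ≤ 2 * n ∧
      ∀ c c', cl c = cl c' → cl c ≠ 0 → ∃ ce, ¬ far ce c ∧ ¬ far ce c' := by
  classical
  set 𝓗 := (univ \ Lc).image τ with h𝓗
  have h𝓗card : 𝓗.card ≤ V := card_image_heavy_le τ hn Lc hheavy
  set farN : Fin n → ℕ := fun c => (univ.filter fun c' => τ c' = τ c ∧ far c c').card with hfarN
  set cls : β → Finset (Fin n) := fun t => univ.filter fun c => τ c = t with hcls
  have hcenter : ∀ t, ∃ ce : Fin n, t ∈ 𝓗 →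
      τ ce = t ∧ farN ce * (cls t).card ≤ ∑ c ∈ cls t, farN c := by
    intro t
    by_cases ht : t ∈ 𝓗
    · have hne : (cls t).Nonempty := by
        obtain ⟨r, -, rfl⟩ := mem_image.1 ht
        exact ⟨r, mem_filter.2 ⟨mem_univ _, rfl⟩⟩
      obtain ⟨ce, hce, hmin⟩ := exists_min_image (cls t) farN hne
      refine ⟨ce, fun _ => ⟨(mem_filter.1 hce).2, ?_⟩⟩
      calc farN ce * (cls t).card = ∑ _c ∈ cls t, farN ce := by simp [mul_comm]
        _ ≤ _ := sum_le_sum hmin
    · exact ⟨⟨0, hn⟩, fun h => absurd h ht⟩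
  choose ce hce using hcenter
  set J := 𝓗.biUnion fun t => univ.filter fun c' => τ c' = t ∧ far (ce t) c' with hJ
  have hJcard : J.card * E ≤ n := by
    have h1 : J.card * n ≤ ∑ c, farN c * V := by
      calc J.card * n ≤ (∑ t ∈ 𝓗, farN (ce t)) * n := by
            apply Nat.mul_le_mul_right
            refine card_biUnion_le.trans (sum_le_sum fun t ht => ?_)
            apply card_le_card
            intro c' hc'
            obtain ⟨-, h2, h3⟩ := mem_filter.1 hc'
            refine mem_filter.2 ⟨mem_univ _, ?_, h3⟩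
            rw [h2, (hce t ht).1]
        _ = ∑ t ∈ 𝓗, farN (ce t) * n := by rw [sum_mul]
        _ ≤ ∑ t ∈ 𝓗, farN (ce t) * ((cls t).card * V) := by
            refine sum_le_sum fun t ht => Nat.mul_le_mul_left _ ?_
            obtain ⟨r, hr, rfl⟩ := mem_image.1 ht
            exact hheavy r (mem_sdiff.1 hr).2
        _ = ∑ t ∈ 𝓗, (farN (ce t) * (cls t).card) * V := by
            exact sum_congr rfl fun _ _ => by ring
        _ ≤ ∑ t ∈ 𝓗, (∑ c ∈ cls t, farN c) * V :=
            sum_le_sum fun t ht => Nat.mul_le_mul_right _ (hce t ht).2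
        _ = ∑ t ∈ 𝓗, ∑ c ∈ cls t, farN c * V := by
            exact sum_congr rfl fun _ _ => by rw [sum_mul]
        _ = ∑ c ∈ 𝓗.biUnion cls, farN c * V := by
            rw [sum_biUnion]
            intro t _ t' _ htt'
            refine disjoint_left.2 fun c h1 h2 => htt' ?_
            rw [← (mem_filter.1 h1).2, ← (mem_filter.1 h2).2]
        _ ≤ _ := sum_le_sum_of_subset (subset_univ _)
    have h2 : J.card * E * n ≤ n * n := by
      calc J.card * E * n = (J.card * n) * E := by ring
        _ ≤ (∑ c, farN c * V) * E := Nat.mul_le_mul_right _ h1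
        _ = (∑ c, farN c) * (V * E) := by rw [← sum_mul, mul_assoc]
        _ ≤ n * n := hfar
    exact Nat.le_of_mul_le_mul_right h2 hn
  obtain ⟨idx, hidx, hidxinj⟩ := exists_index 𝓗
  set Gd : Fin n → Prop := fun c => c ∉ Lc ∧ c ∉ J with hGd
  have hmem : ∀ c, c ∉ Lc → τ c ∈ 𝓗 := fun c hc =>
    mem_image.2 ⟨c, mem_sdiff.2 ⟨mem_univ _, hc⟩, rfl⟩
  refine ⟨fun c => if h : Gd c then ⟨idx (τ c) + 1, ?_⟩ else 0, ?_, ?_⟩
  · have := hidx _ (hmem c h.1)
    omega
  · have hsub : (univ.filter fun c => (if h : Gd c then (⟨idx (τ c) + 1, by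
        have := hidx _ (hmem c h.1)
        omega⟩ : Fin (V + 1)) else 0) = 0) ⊆ Lc ∪ J := by
      intro c hc
      have h0 := (mem_filter.1 hc).2
      by_contra hcon
      have h1 : Gd c := by
        simp only [mem_union, not_or] at hcon
        exact hcon
      rw [dif_pos h1] at h0
      have := congrArg Fin.val h0
      simp at this
    calc _ ≤ (Lc ∪ J).card * E := Nat.mul_le_mul_right _ (card_le_card hsub)
      _ ≤ (Lc.card + J.card) * E := Nat.mul_le_mul_right _ (card_union_le _ _)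
      _ = Lc.card * E + J.card * E := by ring
      _ ≤ 2 * n := by omega
  · intro c c' heq hne
    dsimp only at heq hne
    have hc : Gd c := by
      by_contra h
      exact hne (dif_neg h)
    have hc' : Gd c' := by
      by_contra h
      rw [dif_neg h] at heq
      exact hne heq
    rw [dif_pos hc, dif_pos hc'] at heq
    have h1 : idx (τ c) = idx (τ c') := by
      have := congrArg Fin.val heq
      simpa using this
    have h2 : τ c = τ c' := hidxinj (mem_coe.2 (hmem c hc.1)) (mem_coe.2 (hmem c' hc'.1)) h1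
    refine ⟨ce (τ c), ?_, ?_⟩
    · intro hf
      exact hc.2 (mem_biUnion.2 ⟨τ c, hmem c hc.1, mem_filter.2 ⟨mem_univ _, rfl, hf⟩⟩)
    · intro hf
      rw [h2] at hf
      exact hc'.2 (mem_biUnion.2 ⟨τ c', hmem c' hc'.1, mem_filter.2 ⟨mem_univ _, rfl, hf⟩⟩)

/-- Two-function Markov. -/
lemma markov_two {ι : Type*} (S : Finset ι) (hS : S.Nonempty) (f g : ι → ℝ)
    (hf : ∀ s ∈ S, 0 ≤ f s) (hg : ∀ s ∈ S, 0 ≤ g s) {a b : ℝ} (ha : 0 ≤ a) (hb : 0 < b)
    (hfs : ∑ s ∈ S, f s ≤ a * S.card) (hgs : ∑ s ∈ S, g s ≤ b * S.card) :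
    ∃ s ∈ S, f s ≤ 2 * a ∧ g s ≤ 2 * b := by
  rcases ha.eq_or_lt with ha0 | ha0
  · -- all `f` vanish
    have hf0 : ∀ s ∈ S, f s = 0 := by
      have h1 : ∑ s ∈ S, f s ≤ 0 := by simpa [← ha0] using hfs
      exact (sum_eq_zero_iff_of_nonneg hf).1 (le_antisymm h1 (sum_nonneg hf))
    obtain ⟨s, hs, hle⟩ : ∃ s ∈ S, g s ≤ b := by
      by_contra hcon
      push Not at hcon
      have h1 : ∑ s ∈ S, b < ∑ s ∈ S, g s := sum_lt_sum_of_nonempty hS hcon
      simp only [sum_const, nsmul_eq_mul] at h1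
      nlinarith
    exact ⟨s, hs, by rw [hf0 s hs, ← ha0]; simp, by linarith⟩
  · have hsum : ∑ s ∈ S, (f s / a + g s / b) ≤ ∑ _s ∈ S, (2 : ℝ) := by
      rw [sum_add_distrib, ← sum_div, ← sum_div]
      simp only [sum_const, nsmul_eq_mul]
      have h1 : (∑ s ∈ S, f s) / a ≤ S.card := by
        rw [div_le_iff₀ ha0]; linarith
      have h2 : (∑ s ∈ S, g s) / b ≤ S.card := by
        rw [div_le_iff₀ hb]; linarith
      linarith
    obtain ⟨s, hs, hle⟩ := exists_le_of_sum_le hS hsum
    have h1 : 0 ≤ f s / a := div_nonneg (hf s hs) ha0.le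
    have h2 : 0 ≤ g s / b := div_nonneg (hg s hs) hb.le
    refine ⟨s, hs, ?_, ?_⟩
    · have h3 : f s / a ≤ 2 := by linarith
      rwa [div_le_iff₀ ha0] at h3
    · have h3 : g s / b ≤ 2 := by linarith
      rwa [div_le_iff₀ hb] at h3

lemma sauer_mono (D : ℕ) {s t : ℕ} (h : s ≤ t) : sauer D s ≤ sauer D t := by
  unfold sauer
  exact sum_le_sum fun i _ => Nat.choose_le_choose i h

/-- Count of copies whose row tuple lies in the image of the sample. -/
lemma card_rows_in_sample_le {t : ℕ} (ρ : Fin k → Fin n) (hρ : StrictMono ρ) :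
    ((Fintype.piFinset fun _ : Fin t => (univ : Finset (Fin n))).filter
      fun S => ∀ i, ρ i ∈ univ.image S).card * n ^ k ≤ t ^ k * n ^ t := by
  classical
  set 𝒮 := Fintype.piFinset fun _ : Fin t => (univ : Finset (Fin n)) with h𝒮
  have hsub : (𝒮.filter fun S => ∀ i, ρ i ∈ univ.image S) ⊆
      ((univ : Finset (Fin k → Fin t)).filter Function.Injective).biUnion
        fun f => 𝒮.filter fun S => S ∘ f = ρ := by
    intro S hS
    obtain ⟨h1, h2⟩ := mem_filter.1 hS
    have hex : ∀ i, ∃ x, S x = ρ i := by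
      intro i
      obtain ⟨x, -, hx⟩ := mem_image.1 (h2 i)
      exact ⟨x, hx⟩
    choose f hf using hex
    have hfinj : Function.Injective f := by
      intro a b hab
      apply hρ.injective
      rw [← hf a, ← hf b, hab]
    exact mem_biUnion.2 ⟨f, mem_filter.2 ⟨mem_univ _, hfinj⟩, mem_filter.2 ⟨h1, funext hf⟩⟩
  have hone : ∀ f : Fin k → Fin t, Function.Injective f →
      (𝒮.filter fun S => S ∘ f = ρ).card * n ^ k ≤ n ^ t := by
    intro f hf
    have := card_comp_eq_le (univ : Finset (Fin n)) f hf ρ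
    rw [card_univ, Fintype.card_fin] at this
    exact this
  calc _ ≤ (∑ f ∈ (univ : Finset (Fin k → Fin t)).filter Function.Injective,
        (𝒮.filter fun S => S ∘ f = ρ).card) * n ^ k :=
        Nat.mul_le_mul_right _ ((card_le_card hsub).trans card_biUnion_le)
    _ = ∑ f ∈ (univ : Finset (Fin k → Fin t)).filter Function.Injective,
        (𝒮.filter fun S => S ∘ f = ρ).card * n ^ k := by rw [sum_mul]
    _ ≤ ∑ _f ∈ (univ : Finset (Fin k → Fin t)).filter Function.Injective, n ^ t :=
        sum_le_sum fun f hf => hone f (mem_filter.1 hf).2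
    _ = ((univ : Finset (Fin k → Fin t)).filter Function.Injective).card * n ^ t := by simp
    _ ≤ (univ : Finset (Fin k → Fin t)).card * n ^ t :=
        Nat.mul_le_mul_right _ (card_filter_le _ _)
    _ = t ^ k * n ^ t := by simp

/-- The transposed good tuples for a sample. -/
def copCols (A : Fin n → Fin n → Bool) (H : Fin k → Fin k → Bool) (Y T : Finset (Fin n)) :
    Finset (Fin k → Fin n) :=
  goodRows (fun c r => A r c) (fun j i => H i j) Y T

/-- Averaging the sample: copies. -/
lemma sum_cop_le {t : ℕ} (hn : 0 < n) (A : Fin n → Fin n → Bool) (H : Fin k → Fin k → Bool) :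
    (∑ S ∈ Fintype.piFinset (fun _ : Fin t => (univ : Finset (Fin n))),
      (copCols A H univ (univ.image S)).card) * n ^ k ≤ orderedCopies H A * (t ^ k * n ^ t) := by
  classical
  set 𝒮 := Fintype.piFinset fun _ : Fin t => (univ : Finset (Fin n)) with h𝒮
  set 𝒞 : Finset ((Fin k → Fin n) × (Fin k → Fin n)) := univ.filter fun p =>
    StrictMono p.1 ∧ StrictMono p.2 ∧ ∀ i j, A (p.1 i) (p.2 j) = H i j with h𝒞
  have hN : orderedCopies H A = 𝒞.card := rfl
  have h1 : ∀ S : Fin t → Fin n, (copCols A H univ (univ.image S)).card ≤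
      (𝒞.filter fun p => ∀ i, p.1 i ∈ univ.image S).card := by
    intro S
    have hex : ∀ c : Fin k → Fin n, c ∈ copCols A H univ (univ.image S) → ∃ ρ : Fin k → Fin n,
        StrictMono ρ ∧ (∀ i, ρ i ∈ univ.image S) ∧ ∀ i j, A (ρ i) (c j) = H i j := by
      intro c hc
      obtain ⟨-, -, -, ρ, hρ, hρS, hcop⟩ := mem_filter.1 hc
      exact ⟨ρ, hρ, hρS, fun i j => hcop j i⟩
    haveI : Nonempty (Fin k → Fin n) := ⟨fun _ => ⟨0, hn⟩⟩
    choose! ρ hρ using hex
    refine card_le_card_of_injOn (fun c => (ρ c, c)) ?_ ?_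
    · intro c hc
      have hc' := mem_coe.1 hc
      obtain ⟨h2, h3, h4⟩ := hρ c hc'
      obtain ⟨-, h5, -⟩ := mem_filter.1 hc'
      exact mem_coe.2 (mem_filter.2 ⟨mem_filter.2 ⟨mem_univ _, h2, h5, h4⟩, h3⟩)
    · intro c _ c' _ heq
      exact (Prod.mk.inj heq).2
  calc _ ≤ (∑ S ∈ 𝒮, (𝒞.filter fun p => ∀ i, p.1 i ∈ univ.image S).card) * n ^ k :=
        Nat.mul_le_mul_right _ (sum_le_sum fun S _ => h1 S)
    _ = (∑ p ∈ 𝒞, (𝒮.filter fun S => ∀ i, p.1 i ∈ univ.image S).card) * n ^ k := by
        congr 1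
        simp only [card_filter]
        exact sum_comm
    _ = ∑ p ∈ 𝒞, (𝒮.filter fun S => ∀ i, p.1 i ∈ univ.image S).card * n ^ k := by rw [sum_mul]
    _ ≤ ∑ _p ∈ 𝒞, t ^ k * n ^ t :=
        sum_le_sum fun p hp => card_rows_in_sample_le p.1 (mem_filter.1 hp).2.1
    _ = _ := by rw [hN]; simp

/-- Trace of a column on a set of rows. -/
def colTrace (A : Fin n → Fin n → Bool) (T : Finset (Fin n)) (c : Fin n) : Finset (Fin n) :=
  T.filter fun r => A r c = true

lemma card_agree_le {t R : ℕ} (hR : 0 < R) (A : Fin n → Fin n → Bool) (c c' : Fin n)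
    (hfar : n ≤ hamC A c c' * R) :
    (((Fintype.piFinset fun _ : Fin t => (univ : Finset (Fin n))).filter
      fun S => colTrace A (univ.image S) c' = colTrace A (univ.image S) c).card : ℝ)
      ≤ (n : ℝ) ^ t * (1 - 1 / (R : ℝ)) ^ t := by
  classical
  set Ag : Finset (Fin n) := univ.filter fun r => A r c = A r c' with hAg
  have hsub : ((Fintype.piFinset fun _ : Fin t => (univ : Finset (Fin n))).filter
      fun S => colTrace A (univ.image S) c' = colTrace A (univ.image S) c) ⊆
      Fintype.piFinset fun _ : Fin t => Ag := by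
    intro S hS
    have h1 := (mem_filter.1 hS).2
    refine Fintype.mem_piFinset.2 fun i => mem_filter.2 ⟨mem_univ _, ?_⟩
    have hmem : S i ∈ univ.image S := mem_image_of_mem _ (mem_univ _)
    have h2 : A (S i) c' = true ↔ A (S i) c = true := by
      constructor
      · intro h
        have h3 : S i ∈ colTrace A (univ.image S) c' := mem_filter.2 ⟨hmem, h⟩
        rw [h1] at h3
        exact (mem_filter.1 h3).2
      · intro h
        have h3 : S i ∈ colTrace A (univ.image S) c := mem_filter.2 ⟨hmem, h⟩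
        rw [← h1] at h3
        exact (mem_filter.1 h3).2
    exact (Bool.eq_iff_iff.2 h2).symm
  have h1 := card_le_card hsub
  rw [Fintype.card_piFinset] at h1
  simp only [prod_const, card_univ, Fintype.card_fin] at h1
  have hsplit : Ag.card + hamC A c c' = n := by
    have := card_filter_add_card_filter_not (s := (univ : Finset (Fin n)))
      (fun r => A r c = A r c')
    simp only [card_univ, Fintype.card_fin] at this
    exact this
  have hRr : (0 : ℝ) < R := by exact_mod_cast hR
  have h2 : (Ag.card : ℝ) ≤ (n : ℝ) * (1 - 1 / (R : ℝ)) := by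
    have h3 : (Ag.card : ℝ) + hamC A c c' = n := by exact_mod_cast hsplit
    have h4 : (n : ℝ) ≤ hamC A c c' * R := by exact_mod_cast hfar
    have h5 : (n : ℝ) / R ≤ hamC A c c' := by
      rw [div_le_iff₀ hRr]; exact h4
    have h6 : (n : ℝ) * (1 - 1 / (R : ℝ)) = n - n / R := by ring
    rw [h6]
    linarith
  calc _ ≤ ((Ag.card ^ t : ℕ) : ℝ) := by exact_mod_cast h1
    _ = (Ag.card : ℝ) ^ t := by push_cast; rfl
    _ ≤ ((n : ℝ) * (1 - 1 / (R : ℝ))) ^ t := pow_le_pow_left₀ (by positivity) h2 t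
    _ = _ := by rw [mul_pow]

/-- The far pairs with equal trace on the sample. -/
noncomputable def farCount (A : Fin n → Fin n → Bool) (R : ℕ) (T : Finset (Fin n)) : ℕ :=
  by classical exact ∑ c, (univ.filter fun c' => colTrace A T c' = colTrace A T c ∧
    n ≤ hamC A c c' * R).card

lemma sum_far_le {t R : ℕ} (hR : 1 < R) (A : Fin n → Fin n → Bool) :
    (∑ S ∈ Fintype.piFinset (fun _ : Fin t => (univ : Finset (Fin n))),
      (farCount A R (univ.image S) : ℝ)) ≤ (n : ℝ) * n * ((n : ℝ) ^ t * (1 - 1 / (R : ℝ)) ^ t) := by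
  classical
  set 𝒮 := Fintype.piFinset fun _ : Fin t => (univ : Finset (Fin n)) with h𝒮
  set q : ℝ := (n : ℝ) ^ t * (1 - 1 / (R : ℝ)) ^ t with hq
  have hRr : (1 : ℝ) < R := by exact_mod_cast hR
  have hq0 : 0 ≤ q := by
    have : 0 ≤ 1 - 1 / (R : ℝ) := by
      rw [sub_nonneg, div_le_one (by linarith)]
      exact hRr.le
    positivity
  have hexp : ∑ S ∈ 𝒮, farCount A R (univ.image S) =
      ∑ c, ∑ c', ((𝒮.filter fun S => colTrace A (univ.image S) c' = colTrace A (univ.image S) c ∧
        n ≤ hamC A c c' * R).card) := by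
    unfold farCount
    simp only [card_filter]
    rw [sum_comm]
    refine sum_congr rfl fun c _ => ?_
    rw [sum_comm]
  have hcast : (∑ S ∈ 𝒮, (farCount A R (univ.image S) : ℝ)) =
      ∑ c, ∑ c', (((𝒮.filter fun S => colTrace A (univ.image S) c' = colTrace A (univ.image S) c ∧
        n ≤ hamC A c c' * R).card : ℕ) : ℝ) := by
    have := congrArg (fun x : ℕ => (x : ℝ)) hexp
    simpa using this
  rw [hcast]
  calc _ ≤ ∑ _c : Fin n, ∑ _c' : Fin n, q := by
        refine sum_le_sum fun c _ => sum_le_sum fun c' _ => ?_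
        by_cases hfar : n ≤ hamC A c c' * R
        · have h1 : (𝒮.filter fun S => colTrace A (univ.image S) c' = colTrace A (univ.image S) c ∧
              n ≤ hamC A c c' * R).card ≤
              (𝒮.filter fun S => colTrace A (univ.image S) c' = colTrace A (univ.image S) c).card := by
            apply card_le_card
            intro S hS
            obtain ⟨h2, h3, -⟩ := mem_filter.1 hS
            exact mem_filter.2 ⟨h2, h3⟩
          calc _ ≤ (((𝒮.filter fun S => colTrace A (univ.image S) c' =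
                colTrace A (univ.image S) c).card : ℕ) : ℝ) := by exact_mod_cast h1
            _ ≤ q := card_agree_le (by omega) A c c' hfar
        · have h1 : (𝒮.filter fun S => colTrace A (univ.image S) c' = colTrace A (univ.image S) c ∧
              n ≤ hamC A c c' * R) = ∅ := by
            apply filter_eq_empty_iff.2
            intro S _ h
            exact hfar h.2
          rw [h1]
          simpa using hq0
    _ = _ := by simp; ring

/-- Step A. -/
theorem exists_classes (hk : 0 < k) (hD : DGood k D) (A : Fin n → Fin n → Bool)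
    (H : Fin k → Fin k → Bool) {t z R E : ℕ} (hn : 0 < n) (hz : sauer D t < z) (hE : 0 < E)
    (hR : 1 < R)
    (hcop : 4 * (z * E * t) ^ k * orderedCopies H A < n ^ (2 * k))
    (hfar : 2 * ((2 * z ^ 2 * E : ℕ) : ℝ) * E * (1 - 1 / (R : ℝ)) ^ t ≤ 1) :
    ∃ cl : Fin n → Fin (2 * z ^ 2 * E + 1), (univ.filter fun c => cl c = 0).card * E ≤ 2 * n ∧
      ∀ c c', cl c = cl c' → cl c ≠ 0 → hamC A c c' * R < 2 * n := by
  classical
  set 𝒮 := Fintype.piFinset fun _ : Fin t => (univ : Finset (Fin n)) with h𝒮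
  have h𝒮card : 𝒮.card = n ^ t := by simp [h𝒮]
  have h𝒮ne : 𝒮.Nonempty := by
    rw [← card_pos, h𝒮card]; positivity
  set N := orderedCopies H A with hN
  have hnr : (0 : ℝ) < n := by exact_mod_cast hn
  have hRr : (1 : ℝ) < R := by exact_mod_cast hR
  set q : ℝ := (1 - 1 / (R : ℝ)) ^ t with hq
  have hq0 : 0 < q := by
    have : 0 < 1 - 1 / (R : ℝ) := by
      rw [sub_pos, div_lt_one (by linarith)]
      exact hRr
    positivity
  set a : ℝ := (N : ℝ) * (t : ℝ) ^ k / (n : ℝ) ^ k with ha
  set b : ℝ := (n : ℝ) * n * q with hb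
  have ha0 : 0 ≤ a := by positivity
  have hb0 : 0 < b := by positivity
  have hnt : (0 : ℝ) < (n : ℝ) ^ k := by positivity
  obtain ⟨S, hS, hS1, hS2⟩ := markov_two 𝒮 h𝒮ne
    (fun S => ((copCols A H univ (univ.image S)).card : ℝ))
    (fun S => (farCount A R (univ.image S) : ℝ))
    (fun _ _ => by positivity) (fun _ _ => by positivity) ha0 hb0
    (by
      have h1 := sum_cop_le (t := t) hn A H
      rw [← h𝒮] at h1
      have h2 : (∑ S ∈ 𝒮, ((copCols A H univ (univ.image S)).card : ℝ)) * (n : ℝ) ^ k ≤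
          (N : ℝ) * ((t : ℝ) ^ k * (n : ℝ) ^ t) := by
        exact_mod_cast h1
      rw [h𝒮card, ha]
      push_cast
      rw [div_mul_eq_mul_div, le_div_iff₀ hnt]
      calc _ ≤ _ := h2
        _ = _ := by ring)
    (by
      have h1 := sum_far_le (t := t) hR A
      rw [← h𝒮] at h1
      rw [h𝒮card, hb]
      push_cast
      calc _ ≤ _ := h1
        _ = _ := by ring)
  set T := univ.image S with hT
  have hTcard : T.card ≤ t := by
    calc T.card ≤ (univ : Finset (Fin t)).card := card_image_le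
      _ = t := by simp
  have hzT : sauer D T.card < z := lt_of_le_of_lt (sauer_mono D hTcard) hz
  set τ := colTrace A T with hτ
  set V := 2 * z ^ 2 * E with hV
  set Lc : Finset (Fin n) := univ.filter fun c =>
    (univ.filter fun c' => τ c' = τ c).card * V < n with hLc
  have hz0 : 0 < z := by omega
  have hLcsmall : Lc.card * E < n := by
    by_contra hcon
    push Not at hcon
    have hs := sample_lemma hk hD (fun c r => A r c) (fun j i => H i j) Lc T hzT (by
      intro r hr
      have hr2 := (mem_filter.1 hr).2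
      have hsub : (Lc.filter fun r' => (T.filter fun c => A c r' = true) =
          (T.filter fun c => A c r = true)) ⊆ univ.filter fun r' => τ r' = τ r := by
        intro x hx
        exact mem_filter.2 ⟨mem_univ _, (mem_filter.1 hx).2⟩
      have h5 := card_le_card hsub
      have h6 : 2 * z ^ 2 * (Lc.filter fun r' => (T.filter fun c => A c r' = true) =
          (T.filter fun c => A c r = true)).card * E < Lc.card * E := by
        calc _ ≤ (univ.filter fun r' => τ r' = τ r).card * V := by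
              rw [hV]
              nlinarith [Nat.mul_le_mul_left (2 * z ^ 2 * E) h5]
          _ < n := hr2
          _ ≤ _ := hcon
      exact (Nat.lt_of_mul_lt_mul_right h6).le)
    have hgb : (goodRows (fun c r => A r c) (fun j i => H i j) Lc T).card ≤
        (copCols A H univ T).card := by
      apply card_le_card
      intro ρ hρ
      obtain ⟨h1, h2, -, h3⟩ := mem_filter.1 hρ
      exact mem_filter.2 ⟨h1, h2, fun _ => mem_univ _, h3⟩
    have h1 : ((Lc.card : ℝ)) ^ k ≤ 2 * (z : ℝ) ^ k * (2 * a) := by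
      have h2 : Lc.card ^ k ≤ 2 * z ^ k * (copCols A H univ T).card :=
        hs.trans (Nat.mul_le_mul_left _ hgb)
      have h3 : ((Lc.card : ℝ)) ^ k ≤ 2 * (z : ℝ) ^ k * ((copCols A H univ T).card : ℝ) := by
        exact_mod_cast h2
      refine h3.trans ?_
      exact mul_le_mul_of_nonneg_left hS1 (by positivity)
    have h2 : (n : ℝ) ≤ Lc.card * E := by exact_mod_cast hcon
    have h3 : (n : ℝ) ^ k ≤ ((Lc.card : ℝ) * E) ^ k := pow_le_pow_left₀ hnr.le h2 k
    have h4 : (n : ℝ) ^ k * (n : ℝ) ^ k ≤ 4 * ((z : ℝ) * E * t) ^ k * N := by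
      calc (n : ℝ) ^ k * (n : ℝ) ^ k ≤ ((Lc.card : ℝ) * E) ^ k * (n : ℝ) ^ k :=
            mul_le_mul_of_nonneg_right h3 hnt.le
        _ = (Lc.card : ℝ) ^ k * ((E : ℝ) ^ k * (n : ℝ) ^ k) := by rw [mul_pow]; ring
        _ ≤ (2 * (z : ℝ) ^ k * (2 * a)) * ((E : ℝ) ^ k * (n : ℝ) ^ k) :=
            mul_le_mul_of_nonneg_right h1 (by positivity)
        _ = 4 * ((z : ℝ) * E * t) ^ k * N := by
            rw [ha]
            field_simp
            ring
    have h5 : ((4 * (z * E * t) ^ k * N : ℕ) : ℝ) < ((n ^ (2 * k) : ℕ) : ℝ) := by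
      exact_mod_cast hcop
    push_cast at h5
    have h6 : (n : ℝ) ^ (2 * k) = (n : ℝ) ^ k * (n : ℝ) ^ k := by
      rw [two_mul, pow_add]
    rw [h6] at h5
    linarith
  have hfar' : farCount A R T * (V * E) ≤ n * n := by
    have h1 : (farCount A R T : ℝ) ≤ 2 * b := hS2
    have h2 : ((farCount A R T * (V * E) : ℕ) : ℝ) ≤ ((n * n : ℕ) : ℝ) := by
      push_cast
      have h3 : (farCount A R T : ℝ) * (((V : ℕ) : ℝ) * E) ≤ (2 * b) * (((V : ℕ) : ℝ) * E) :=
        mul_le_mul_of_nonneg_right h1 (by positivity)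
      have h4 : (2 * b) * (((V : ℕ) : ℝ) * E) = (n : ℝ) * n * (2 * ((V : ℕ) : ℝ) * E * q) := by
        rw [hb]; ring
      have h5 : (n : ℝ) * n * (2 * ((V : ℕ) : ℝ) * E * q) ≤ (n : ℝ) * n * 1 :=
        mul_le_mul_of_nonneg_left hfar (by positivity)
      linarith
    exact_mod_cast h2
  obtain ⟨cl, hcl0, hcl⟩ := classes_of_trace τ (fun c c' => n ≤ hamC A c c' * R) Lc hn hLcsmall
    (by
      intro c hc
      by_contra hcon
      push Not at hcon
      exact hc (mem_filter.2 ⟨mem_univ _, hcon⟩))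
    (by
      unfold farCount at hfar'
      convert hfar')
  refine ⟨cl, hcl0, fun c c' heq hne => ?_⟩
  obtain ⟨ce, h1, h2⟩ := hcl c c' heq hne
  push Not at h1 h2
  have h3 := hamC_triangle A c ce c'
  rw [hamC_comm A c ce] at h3
  calc hamC A c c' * R ≤ (hamC A ce c + hamC A ce c') * R := Nat.mul_le_mul_right _ h3
    _ = hamC A ce c * R + hamC A ce c' * R := by ring
    _ < 2 * n := by omega

end Vale.Agent.Lib.P037X
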