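import Mathlib
import Vale.Agent.Lib.P037X.Chain
import Vale.Agent.Lib.P037X.Sample

/-! Row cleanup: few bad row tuples allow deleting few rows so that no copy survives. -/

namespace Vale.Agent.Lib.P037X

open Finset

variable {n k D : ℕ}

/-- Largest kept element below `r`, or else the smallest kept element. -/
lemma exists_retract (K : Finset (Fin n)) (hK : K.Nonempty) :
    ∃ μ : Fin n → Fin n, Monotone μ ∧ (∀ r, μ r ∈ K) ∧ ∀ r ∈ K, μ r = r := by
  classical
  set f : Fin n → Fin n := fun r =>
    if h : (K.filter fun x => x ≤ r).Nonempty then (K.filter fun x => x ≤ r).max' h else K.min' hK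
    with hf
  refine ⟨f, ?_, ?_, ?_⟩
  · intro r r' hrr'
    by_cases h : (K.filter fun x => x ≤ r).Nonempty
    · have h' : (K.filter fun x => x ≤ r').Nonempty := by
        obtain ⟨x, hx⟩ := h
        obtain ⟨h1, h2⟩ := mem_filter.1 hx
        exact ⟨x, mem_filter.2 ⟨h1, h2.trans hrr'⟩⟩
      simp only [hf, dif_pos h, dif_pos h']
      apply max'_le
      intro y hy
      obtain ⟨h1, h2⟩ := mem_filter.1 hy
      exact le_max' (K.filter fun x => x ≤ r') y (mem_filter.2 ⟨h1, h2.trans hrr'⟩)
    · simp only [hf, dif_neg h]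
      by_cases h' : (K.filter fun x => x ≤ r').Nonempty
      · simp only [dif_pos h']
        have := max'_mem _ h'
        exact min'_le _ _ (mem_filter.1 this).1
      · simp only [dif_neg h']
        exact le_rfl
  · intro r
    by_cases h : (K.filter fun x => x ≤ r).Nonempty
    · simp only [hf, dif_pos h]
      exact (mem_filter.1 (max'_mem _ h)).1
    · simp only [hf, dif_neg h]
      exact min'_mem _ _
  · intro r hr
    have h : (K.filter fun x => x ≤ r).Nonempty := ⟨r, mem_filter.2 ⟨hr, le_rfl⟩⟩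
    simp only [hf, dif_pos h]
    apply le_antisymm
    · exact (mem_filter.1 (max'_mem _ h)).2
    · exact le_max' (K.filter fun x => x ≤ r) r (mem_filter.2 ⟨hr, le_rfl⟩)

theorem rows_cleanup (hk : 0 < k) (hD : DGood k D) (A : Fin n → Fin n → Bool)
    (H : Fin k → Fin k → Bool) (κ : Fin n → Fin n) (Bad : Finset (Fin k → Fin n))
    (hB1 : ∀ ρ c : Fin k → Fin n, StrictMono ρ → StrictMono c →
      (∀ i j, A (ρ i) (κ (c j)) = H i j) → ρ ∈ Bad)
    (hB2 : ∀ ρ c : Fin k → Fin n, StrictMono ρ → StrictMono c → (∀ j, c j ∈ univ.image κ) →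
      (∀ i j, A (ρ i) (c j) = H i j) → ρ ∈ Bad)
    {z E g : ℕ} (hz : sauer D (univ.image κ).card < z) (hE : 2 < E) (hn : 0 < n)
    (h1 : 2 * z ^ k * E ^ k * Bad.card < n ^ k)
    (h2 : Bad.card < g ^ k) (hg : 1 ≤ g)
    (h3 : (2 * z ^ 2 * E) ^ k * k * g * E ≤ n) :
    ∃ μ : Fin n → Fin n, Monotone μ ∧ (univ.filter fun r => μ r ≠ r).card * E ≤ 2 * n ∧
      ∀ ρ c : Fin k → Fin n, StrictMono ρ → StrictMono c →
        ¬ ∀ i j, A (μ (ρ i)) (κ (c j)) = H i j := by
  classical
  set T := univ.image κ with hT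
  set trc : Fin n → Finset (Fin n) := fun r => T.filter fun c => A r c = true with htrc
  set V := 2 * z ^ 2 * E with hV
  set Lt : Finset (Fin n) := univ.filter fun r =>
    (univ.filter fun r' => trc r' = trc r).card * V < n with hLt
  have hz0 : 0 < z := by omega
  have hVpos : 0 < V := by positivity
  -- few light rows
  have hLtsmall : Lt.card * E < n := by
    by_contra hcon
    push Not at hcon
    have hs := sample_lemma hk hD A H Lt T hz (by
      intro r hr
      have hr2 := (mem_filter.1 hr).2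
      have hsub : (Lt.filter fun r' => (T.filter fun c => A r' c = true) =
          (T.filter fun c => A r c = true)) ⊆ univ.filter fun r' => trc r' = trc r := by
        intro x hx
        exact mem_filter.2 ⟨mem_univ _, (mem_filter.1 hx).2⟩
      have h5 := card_le_card hsub
      have h6 : 2 * z ^ 2 * (Lt.filter fun r' => (T.filter fun c => A r' c = true) =
          (T.filter fun c => A r c = true)).card * E < Lt.card * E := by
        calc _ ≤ (univ.filter fun r' => trc r' = trc r).card * V := by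
              rw [hV]
              nlinarith [Nat.mul_le_mul_left (2 * z ^ 2 * E) h5]
          _ < n := hr2
          _ ≤ _ := hcon
      exact (Nat.lt_of_mul_lt_mul_right h6).le)
    have hgb : (goodRows A H Lt T).card ≤ Bad.card := by
      apply card_le_card
      intro ρ hρ
      obtain ⟨-, hρ1, -, c, hc, hcT, hcopy⟩ := mem_filter.1 hρ
      exact hB2 ρ c hρ1 hc hcT hcopy
    have h5 : n ^ k ≤ (Lt.card * E) ^ k := Nat.pow_le_pow_left hcon k
    have h6 : (Lt.card * E) ^ k ≤ 2 * z ^ k * E ^ k * Bad.card := by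
      rw [mul_pow]
      calc Lt.card ^ k * E ^ k ≤ (2 * z ^ k * (goodRows A H Lt T).card) * E ^ k :=
            Nat.mul_le_mul_right _ hs
        _ ≤ (2 * z ^ k * Bad.card) * E ^ k :=
            Nat.mul_le_mul_right _ (Nat.mul_le_mul_left _ hgb)
        _ = _ := by ring
    omega
  -- heavy traces
  set 𝓗 := (univ \ Lt).image trc with h𝓗
  have h𝓗card : 𝓗.card ≤ V := by
    have hsum : ∑ τ ∈ 𝓗, (univ.filter fun r => trc r = τ).card ≤ n := by
      have := card_eq_sum_card_fiberwise (s := (univ : Finset (Fin n))) (t := 𝓗 ∪ (univ.image trc))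
        (f := trc) (by
          intro x _
          exact mem_coe.2 (mem_union_right _ (mem_image_of_mem _ (mem_univ _))))
      have h6 : ∑ τ ∈ 𝓗, (univ.filter fun r => trc r = τ).card ≤
          ∑ τ ∈ 𝓗 ∪ (univ.image trc), (univ.filter fun r => trc r = τ).card :=
        sum_le_sum_of_subset subset_union_left
      simp only [card_univ, Fintype.card_fin] at this
      omega
    have hlow : ∀ τ ∈ 𝓗, n ≤ (univ.filter fun r => trc r = τ).card * V := by
      intro τ hτ
      obtain ⟨r, hr, rfl⟩ := mem_image.1 hτ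
      have hr2 : r ∉ Lt := (mem_sdiff.1 hr).2
      by_contra hcon
      push Not at hcon
      exact hr2 (mem_filter.2 ⟨mem_univ _, hcon⟩)
    have h7 : 𝓗.card * n ≤ V * n := by
      calc 𝓗.card * n = ∑ _τ ∈ 𝓗, n := by simp
        _ ≤ ∑ τ ∈ 𝓗, (univ.filter fun r => trc r = τ).card * V := sum_le_sum hlow
        _ = (∑ τ ∈ 𝓗, (univ.filter fun r => trc r = τ).card) * V := by rw [sum_mul]
        _ ≤ n * V := Nat.mul_le_mul_right _ hsum
        _ = V * n := mul_comm _ _
    exact Nat.le_of_mul_le_mul_right h7 hn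
  set 𝒰 := Fintype.piFinset fun _ : Fin k => 𝓗 with h𝒰
  have h𝒰card : 𝒰.card ≤ V ^ k := by
    rw [h𝒰]
    simp only [Fintype.card_piFinset, prod_const, card_univ, Fintype.card_fin]
    exact Nat.pow_le_pow_left h𝓗card k
  -- the hitting sets
  have hX : ∀ u : Fin k → Finset (Fin n), ∃ X : Finset (Fin n), X.card ≤ k * g ∧
      ((∃ c : Fin k → Fin n, StrictMono c ∧ ∀ i j, (decide (κ (c j) ∈ u i)) = H i j) →
        ∀ p : Fin k → Fin n, Monotone p → (∀ j, trc (p j) = u j) → ∃ j, p j ∈ X) := by
    intro u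
    by_cases hu : ∃ c : Fin k → Fin n, StrictMono c ∧ ∀ i j, (decide (κ (c j) ∈ u i)) = H i j
    · obtain ⟨c, hc, hcu⟩ := hu
      have hocc : (occ trc u).card < g ^ k := by
        refine lt_of_le_of_lt (card_le_card ?_) h2
        intro ρ hρ
        obtain ⟨-, hρ1, hρ2⟩ := mem_filter.1 hρ
        refine hB1 ρ c hρ1 hc ?_
        intro i j
        rw [← hcu i j, ← hρ2 i]
        have hmem : κ (c j) ∈ T := mem_image_of_mem _ (mem_univ _)
        by_cases hA : A (ρ i) (κ (c j)) = true
        · rw [hA]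
          symm
          exact decide_eq_true (mem_filter.2 ⟨hmem, hA⟩)
        · rw [Bool.not_eq_true] at hA
          rw [hA]
          symm
          refine decide_eq_false ?_
          intro hcon
          have := (mem_filter.1 hcon).2
          rw [hA] at this
          exact absurd this (by simp)
      obtain ⟨X, Θ, hXc, -, hch⟩ := chain_lemma trc u hg hocc
      refine ⟨X, hXc, fun _ p hp hw => ?_⟩
      by_contra hcon
      push Not at hcon
      exact not_drop_of_monotone hp Θ (hch p hw hcon)
    · exact ⟨∅, by simp, fun hcon => absurd hcon hu⟩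
  choose X hXcard hXprop using hX
  set Dl := Lt ∪ 𝒰.biUnion X with hDl
  have hDlcard : Dl.card * E ≤ 2 * n := by
    have h5 : (𝒰.biUnion X).card ≤ V ^ k * (k * g) := by
      calc (𝒰.biUnion X).card ≤ ∑ u ∈ 𝒰, (X u).card := card_biUnion_le
        _ ≤ ∑ _u ∈ 𝒰, k * g := sum_le_sum fun u _ => hXcard u
        _ = 𝒰.card * (k * g) := by simp
        _ ≤ _ := Nat.mul_le_mul_right _ h𝒰card
    have h6 : (𝒰.biUnion X).card * E ≤ n := by
      calc (𝒰.biUnion X).card * E ≤ V ^ k * (k * g) * E := Nat.mul_le_mul_right _ h5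
        _ = V ^ k * k * g * E := by ring
        _ ≤ n := h3
    calc Dl.card * E ≤ (Lt.card + (𝒰.biUnion X).card) * E :=
          Nat.mul_le_mul_right _ (card_union_le _ _)
      _ = Lt.card * E + (𝒰.biUnion X).card * E := by ring
      _ ≤ 2 * n := by omega
  set K := univ \ Dl with hK
  have hKne : K.Nonempty := by
    rw [hK, sdiff_nonempty]
    intro hsub
    have h5 : n ≤ Dl.card := by
      have := card_le_card hsub
      simpa using this
    have h6 : n * E ≤ Dl.card * E := Nat.mul_le_mul_right _ h5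
    nlinarith
  obtain ⟨μ, hμm, hμK, hμfix⟩ := exists_retract K hKne
  refine ⟨μ, hμm, ?_, ?_⟩
  · have hsub : (univ.filter fun r => μ r ≠ r) ⊆ Dl := by
      intro r hr
      by_contra hcon
      exact (mem_filter.1 hr).2 (hμfix r (mem_sdiff.2 ⟨mem_univ _, hcon⟩))
    exact (Nat.mul_le_mul_right _ (card_le_card hsub)).trans hDlcard
  · intro ρ c hρ hc hcopy
    set u : Fin k → Finset (Fin n) := fun i => trc (μ (ρ i)) with hu
    have hμnot : ∀ r, μ r ∉ Dl := fun r => (mem_sdiff.1 (hμK r)).2
    have hu𝒰 : u ∈ 𝒰 := by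
      refine Fintype.mem_piFinset.2 fun i => ?_
      refine mem_image.2 ⟨μ (ρ i), mem_sdiff.2 ⟨mem_univ _, ?_⟩, rfl⟩
      intro hcon
      exact hμnot _ (mem_union_left _ hcon)
    have hbadu : ∃ c : Fin k → Fin n, StrictMono c ∧
        ∀ i j, (decide (κ (c j) ∈ u i)) = H i j := by
      refine ⟨c, hc, fun i j => ?_⟩
      rw [← hcopy i j]
      have hmem : κ (c j) ∈ T := mem_image_of_mem _ (mem_univ _)
      by_cases hA : A (μ (ρ i)) (κ (c j)) = true
      · rw [hA]
        exact decide_eq_true (mem_filter.2 ⟨hmem, hA⟩)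
      · rw [Bool.not_eq_true] at hA
        rw [hA]
        refine decide_eq_false ?_
        intro hcon
        have := (mem_filter.1 hcon).2
        rw [hA] at this
        exact absurd this (by simp)
    obtain ⟨j, hj⟩ := hXprop u hbadu (fun i => μ (ρ i))
      (fun a b hab => hμm (hρ.monotone hab)) (fun _ => rfl)
    exact hμnot _ (mem_union_right _ (mem_biUnion.2 ⟨u, hu𝒰, hj⟩))

end Vale.Agent.Lib.P037X
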