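import Mathlib
import Vale.Agent.Lib.P037X.BadSet
import Vale.Agent.Lib.P037X.Classes
import Vale.Agent.Lib.P037X.Rows

/-! Assembly of the removal statement with explicit parameters. -/

namespace Vale.Agent.Lib.P037X

open Finset
open Vale.Agent.Lib.P037

variable {n k : ℕ}

/-- Sampling size for the row cleanup at scale `m`. -/
def z2 (D Q m : ℕ) : ℕ := sauer D (m * Q) + 1

/-- Number of heavy row traces at scale `m`. -/
def V2 (D Q E m : ℕ) : ℕ := 2 * z2 D Q m ^ 2 * E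

/-- Inverse density of the hitting sets at scale `m`. -/
def G2 (k D Q E m : ℕ) : ℕ := 2 * V2 D Q E m ^ k * k * E

/-- The branching factor at scale `m`. -/
def bf (k D Q E m : ℕ) : ℕ :=
  (9 * k + 1) * G2 k D Q E m ^ k + 2 * z2 D Q m ^ k * E ^ k * (9 * k + 1) + 1

/-- The chain of scales. -/
def MM (k D Q E : ℕ) : ℕ → ℕ
  | 0 => 1
  | j + 1 => MM k D Q E j * bf k D Q E (MM k D Q E j)

lemma bf_pos (k D Q E m : ℕ) : 0 < bf k D Q E m := by
  unfold bf; omega

lemma MM_pos (k D Q E j : ℕ) : 0 < MM k D Q E j := by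
  induction j with
  | zero => simp [MM]
  | succ j ih => exact Nat.mul_pos ih (bf_pos _ _ _ _ _)

lemma MM_mono (k D Q E : ℕ) : Monotone (MM k D Q E) := by
  apply monotone_nat_of_le_succ
  intro j
  exact Nat.le_mul_of_pos_right _ (bf_pos _ _ _ _ _)

lemma z2_mono (D Q : ℕ) {m m' : ℕ} (h : m ≤ m') : z2 D Q m ≤ z2 D Q m' := by
  unfold z2
  have := sauer_mono D (Nat.mul_le_mul_right Q h)
  omega

lemma V2_mono (D Q E : ℕ) {m m' : ℕ} (h : m ≤ m') : V2 D Q E m ≤ V2 D Q E m' := by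
  unfold V2
  exact Nat.mul_le_mul_right _ (Nat.mul_le_mul_left _ (Nat.pow_le_pow_left (z2_mono D Q h) 2))

lemma G2_mono (k D Q E : ℕ) {m m' : ℕ} (h : m ≤ m') : G2 k D Q E m ≤ G2 k D Q E m' := by
  unfold G2
  exact Nat.mul_le_mul_right _ (Nat.mul_le_mul_right _
    (Nat.mul_le_mul_left _ (Nat.pow_le_pow_left (V2_mono D Q E h) k)))

lemma bf_mono (k D Q E : ℕ) {m m' : ℕ} (h : m ≤ m') : bf k D Q E m ≤ bf k D Q E m' := by
  unfold bf
  have h1 := Nat.mul_le_mul_left (9 * k + 1) (Nat.pow_le_pow_left (G2_mono k D Q E h) k)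
  have h2 : 2 * z2 D Q m ^ k * E ^ k * (9 * k + 1) ≤ 2 * z2 D Q m' ^ k * E ^ k * (9 * k + 1) :=
    Nat.mul_le_mul_right _ (Nat.mul_le_mul_right _
      (Nat.mul_le_mul_left _ (Nat.pow_le_pow_left (z2_mono D Q h) k)))
  omega

/-- Distance bound for `B r c = A (μ r) (κ c)`. -/
lemma entryDist_le (A : Fin n → Fin n → Bool) (μ κ : Fin n → Fin n) (Cb : Finset (Fin n))
    {e : ℕ} (hn : 0 < n) (he : 0 < e)
    (hμ : (univ.filter fun r => μ r ≠ r).card * (16 * e) ≤ 2 * n)
    (hCb : Cb.card * (16 * e) ≤ 4 * n)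
    (hham : ∀ c, c ∉ Cb → hamC A c (κ c) * (8 * e) < 2 * n) :
    entryDist A (fun r c => A (μ r) (κ c)) * e < n ^ 2 := by
  classical
  set Rb := univ.filter fun r => μ r ≠ r with hRb
  have hone : ∀ c : Fin n, (univ.filter fun r => A r c ≠ A (μ r) (κ c)).card ≤
      Rb.card + (if c ∈ Cb then n else hamC A c (κ c)) := by
    intro c
    split_ifs with hc
    · calc _ ≤ (univ : Finset (Fin n)).card := card_filter_le _ _
        _ = n := by simp
        _ ≤ _ := Nat.le_add_left _ _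
    · refine (card_le_card ?_).trans (card_union_le _ _)
      intro r hr
      have h1 := (mem_filter.1 hr).2
      by_cases h2 : μ r = r
      · rw [h2] at h1
        exact mem_union_right _ (mem_filter.2 ⟨mem_univ _, h1⟩)
      · exact mem_union_left _ (mem_filter.2 ⟨mem_univ _, h2⟩)
  have hdist : entryDist A (fun r c => A (μ r) (κ c)) =
      ∑ c : Fin n, (univ.filter fun r => A r c ≠ A (μ r) (κ c)).card := by
    unfold entryDist
    simp only [card_filter]
    rw [← univ_product_univ, sum_product_right]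
  have hsum : ∑ c : Fin n, (Rb.card + (if c ∈ Cb then n else hamC A c (κ c))) * (16 * e) ≤
      n * (2 * n) + (n * (4 * n) + n * (4 * n)) := by
    calc _ = ∑ c : Fin n, (Rb.card * (16 * e) +
          ((if c ∈ Cb then n * (16 * e) else 0) +
            (if c ∈ Cb then 0 else hamC A c (κ c) * (16 * e)))) := by
          refine sum_congr rfl fun c _ => ?_
          split_ifs <;> ring
      _ = n * (Rb.card * (16 * e)) + (Cb.card * (n * (16 * e)) +
            ∑ c : Fin n, (if c ∈ Cb then 0 else hamC A c (κ c) * (16 * e))) := by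
          rw [sum_add_distrib, sum_add_distrib]
          congr 1
          · simp
          · congr 1
            rw [sum_ite_mem]
            simp
      _ ≤ n * (2 * n) + (n * (4 * n) + n * (4 * n)) := by
          apply Nat.add_le_add (Nat.mul_le_mul_left _ hμ)
          apply Nat.add_le_add
          · calc Cb.card * (n * (16 * e)) = n * (Cb.card * (16 * e)) := by ring
              _ ≤ _ := Nat.mul_le_mul_left _ hCb
          · calc _ ≤ ∑ _c : Fin n, 4 * n := by
                  refine sum_le_sum fun c _ => ?_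
                  split_ifs with hc
                  · exact Nat.zero_le _
                  · have := hham c hc
                    have h2 : hamC A c (κ c) * (16 * e) = 2 * (hamC A c (κ c) * (8 * e)) := by ring
                    omega
              _ = n * (4 * n) := by simp
  have h16 : entryDist A (fun r c => A (μ r) (κ c)) * e * 16 ≤ 10 * n ^ 2 := by
    calc _ = entryDist A (fun r c => A (μ r) (κ c)) * (16 * e) := by ring
      _ ≤ (∑ c : Fin n, (Rb.card + (if c ∈ Cb then n else hamC A c (κ c)))) * (16 * e) := by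
          rw [hdist]
          exact Nat.mul_le_mul_right _ (sum_le_sum fun c _ => hone c)
      _ = ∑ c : Fin n, (Rb.card + (if c ∈ Cb then n else hamC A c (κ c))) * (16 * e) := by
          rw [sum_mul]
      _ ≤ _ := hsum
      _ = 10 * n ^ 2 := by ring
  have hpos : 0 < n ^ 2 := by positivity
  omega

/-- The top scale. -/
def MJ (k D Q E : ℕ) : ℕ := MM k D Q E (4 * E * (4 * E * Q))

/-- The top branching factor. -/
def bJ (k D Q E : ℕ) : ℕ := bf k D Q E (MJ k D Q E)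

/-- The global inverse density of the hitting sets for column words. -/
def Gg (k D Q E : ℕ) : ℕ := 4 * MJ k D Q E * (4 * E * Q) * bJ k D Q E

/-- The threshold for `n`. -/
def n0 (k D Q E : ℕ) : ℕ := 2 * MJ k D Q E + Gg k D Q E + G2 k D Q E (MJ k D Q E)

/-- Energy selection and construction of `κ` and the bad tuples. -/
lemma level_step (A : Fin n → Fin n → Bool) (H : Fin k → Fin k → Bool) (hk : 0 < k) {D Q E : ℕ}
    (cl : Fin n → Fin Q) (hE : 0 < E) (hn0 : 0 < n)
    (hsmall : n0 k D Q E ≤ n)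
    (hN : orderedCopies H A * (Gg k D Q E ^ k * bJ k D Q E) < n ^ (2 * k)) :
    ∃ (m b : ℕ) (κ : Fin n → Fin n) (Bad : Finset (Fin k → Fin n)),
      m ≤ MJ k D Q E ∧ b = bf k D Q E m ∧
      (univ.image κ).card ≤ m * Q ∧
      (univ.filter fun c => cl (κ c) ≠ cl c).card * E ≤ 2 * n ∧
      Bad.card * b ≤ (9 * k + 1) * n ^ k ∧
      (∀ ρ c : Fin k → Fin n, StrictMono ρ → StrictMono c →
        (∀ i j, A (ρ i) (κ (c j)) = H i j) → ρ ∈ Bad) ∧
      (∀ ρ c : Fin k → Fin n, StrictMono ρ → StrictMono c → (∀ j, c j ∈ univ.image κ) →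
        (∀ i j, A (ρ i) (c j) = H i j) → ρ ∈ Bad) := by
  classical
  have hQpos : 0 < Q := Fin.pos (cl ⟨0, hn0⟩)
  have hEpos : 0 < E := hE
  have hΘpos : 0 < 4 * E * Q := by positivity
  have hJpos : 0 < 4 * E * (4 * E * Q) := by positivity
  have hMJpos : 0 < MJ k D Q E := MM_pos _ _ _ _ _
  have hbJpos : 0 < bJ k D Q E := bf_pos _ _ _ _ _
  have hGpos : 0 < Gg k D Q E := by unfold Gg; positivity
  have hnM : 2 * MJ k D Q E ≤ n := by unfold n0 at hsmall; omega
  have hnG : Gg k D Q E ≤ n := by unfold n0 at hsmall; omega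
  obtain ⟨j, hjJ, hlevel⟩ := exists_level cl (MM k D Q E) (MM_pos _ _ _ _) hJpos
  have hmb : MM k D Q E (j + 1) = MM k D Q E j * bf k D Q E (MM k D Q E j) := rfl
  rw [hmb] at hlevel
  generalize hmdef : MM k D Q E j = m at hlevel hmb
  generalize hbdef : bf k D Q E m = b at hlevel hmb
  have hmpos : 0 < m := by rw [← hmdef]; exact MM_pos _ _ _ _ _
  have hbpos : 0 < b := by rw [← hbdef]; exact bf_pos _ _ _ _ _
  have hmbMJ : m * b ≤ MJ k D Q E := by
    rw [← hmb]
    exact MM_mono _ _ _ _ hjJ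
  have hmMJ : m ≤ MJ k D Q E := by
    rw [← hmdef]
    exact MM_mono _ _ _ _ hjJ.le
  have hbbJ : b ≤ bJ k D Q E := by
    rw [← hbdef]
    exact bf_mono _ _ _ _ hmMJ
  have hn2mb : 2 * (m * b) ≤ n := by omega
  have hnr : (0 : ℝ) < n := by exact_mod_cast hn0
  have hEr : (0 : ℝ) < E := by exact_mod_cast hEpos
  have hQr : (0 : ℝ) < Q := by exact_mod_cast hQpos
  have hΔen : 2 * (1 / ((4 * E * Q : ℕ) : ℝ)) * (Q : ℝ) * n +
      2 * ((4 * E * Q : ℕ) : ℝ) * (En cl (m * b) - En cl m) ≤ (n : ℝ) / E := by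
    have h1 : 2 * ((4 * E * Q : ℕ) : ℝ) * (En cl (m * b) - En cl m) ≤
        2 * ((4 * E * Q : ℕ) : ℝ) * ((n : ℝ) / ((4 * E * (4 * E * Q) : ℕ) : ℝ)) :=
      mul_le_mul_of_nonneg_left hlevel (by positivity)
    have h2 : 2 * ((4 * E * Q : ℕ) : ℝ) * ((n : ℝ) / ((4 * E * (4 * E * Q) : ℕ) : ℝ)) =
        (n : ℝ) / E / 2 := by
      push_cast; field_simp; ring
    have h3 : 2 * (1 / ((4 * E * Q : ℕ) : ℝ)) * (Q : ℝ) * n = (n : ℝ) / E / 2 := by
      push_cast; field_simp; ring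
    linarith
  set G := Gg k D Q E with hG
  set g := n / G + 1 with hg
  have hg1 : 1 ≤ g := Nat.le_add_left 1 _
  have hgG1 : n ≤ g * G := by
    have := Nat.div_add_mod n G
    have h2 := Nat.mod_lt n hGpos
    have h3 : g * G = G * (n / G) + G := by rw [hg]; ring
    omega
  have hgG2 : g * G ≤ 2 * n := by
    have h3 : g * G = G * (n / G) + G := by rw [hg]; ring
    have := Nat.mul_div_le n G
    omega
  have hGb : 4 * (m * b) * (4 * E * Q) * b ≤ G := by
    calc 4 * (m * b) * (4 * E * Q) * b ≤ 4 * MJ k D Q E * (4 * E * Q) * bJ k D Q E :=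
          Nat.mul_le_mul (Nat.mul_le_mul_right _ (Nat.mul_le_mul_left _ hmbMJ)) hbbJ
      _ = G := rfl
  have hNG : orderedCopies H A * (G ^ k * b) < n ^ (2 * k) :=
    lt_of_le_of_lt (Nat.mul_le_mul_left _ (Nat.mul_le_mul_left _ hbbJ)) hN
  obtain ⟨κ, Bad, hκ1, hκ2, hBad, hB1, hB2⟩ := exists_kappa_bad A H cl hk hmpos hbpos hn2mb hΘpos
    (by nlinarith) hEpos hΔen hg1 hgG1 hgG2 hGb hNG
  exact ⟨m, b, κ, Bad, hmMJ, hbdef.symm, hκ1, hκ2, hBad, hB1, hB2⟩

/-- The final assembly at a given level. -/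
lemma finish_rows (A : Fin n → Fin n → Bool) (H : Fin k → Fin k → Bool) (hk : 0 < k) {D Q e m b : ℕ}
    (hD : DGood k D) (cl : Fin n → Fin Q) (κ : Fin n → Fin n) (Bad : Finset (Fin k → Fin n))
    (he : 2 ≤ e) (hn0 : 0 < n) (hG₂n : G2 k D Q (16 * e) m ≤ n) (hb : b = bf k D Q (16 * e) m)
    (hκ1 : (univ.image κ).card ≤ m * Q)
    (hκ2 : (univ.filter fun c => cl (κ c) ≠ cl c).card * (16 * e) ≤ 2 * n)
    (hBad : Bad.card * b ≤ (9 * k + 1) * n ^ k)
    (hB1 : ∀ ρ c : Fin k → Fin n, StrictMono ρ → StrictMono c →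
        (∀ i j, A (ρ i) (κ (c j)) = H i j) → ρ ∈ Bad)
    (hB2 : ∀ ρ c : Fin k → Fin n, StrictMono ρ → StrictMono c → (∀ j, c j ∈ univ.image κ) →
        (∀ i j, A (ρ i) (c j) = H i j) → ρ ∈ Bad)
    (hcl0 : (univ.filter fun c => (cl c).val = 0).card * (16 * e) ≤ 2 * n)
    (hcl : ∀ c c', cl c = cl c' → (cl c).val ≠ 0 → hamC A c c' * (8 * e) < 2 * n) :
    ∃ B : Fin n → Fin n → Bool, orderedCopies H B = 0 ∧ entryDist A B * e < n ^ 2 := by
  classical
  generalize hEdef : 16 * e = E at *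
  have hE3 : 2 < E := by omega
  set z₂ := z2 D Q m with hz₂
  have hzT : sauer D (univ.image κ).card < z₂ := by
    have := sauer_mono D hκ1
    rw [hz₂]; unfold z2; omega
  set G₂ := G2 k D Q E m with hG₂
  have hEpos : 0 < E := by omega
  have hG₂pos : 0 < G₂ := by
    rw [hG₂]; unfold G2 V2 z2
    positivity
  set g₂ := n / G₂ + 1 with hg₂
  have hg₂1 : 1 ≤ g₂ := Nat.le_add_left 1 _
  have hg₂G1 : n ≤ g₂ * G₂ := by
    have := Nat.div_add_mod n G₂
    have h2 := Nat.mod_lt n hG₂pos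
    have h3 : g₂ * G₂ = G₂ * (n / G₂) + G₂ := by rw [hg₂]; ring
    omega
  have hg₂G2 : g₂ * G₂ ≤ 2 * n := by
    have h3 : g₂ * G₂ = G₂ * (n / G₂) + G₂ := by rw [hg₂]; ring
    have := Nat.mul_div_le n G₂
    omega
  have hbdef : b = (9 * k + 1) * G₂ ^ k + 2 * z₂ ^ k * E ^ k * (9 * k + 1) + 1 := hb
  have hnk : 0 < n ^ k := by positivity
  have hr1 : 2 * z₂ ^ k * E ^ k * Bad.card < n ^ k := by
    have h1 : 2 * z₂ ^ k * E ^ k * (9 * k + 1) < b := by omega
    have h2 : (2 * z₂ ^ k * E ^ k * Bad.card) * b < n ^ k * b := by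
      calc (2 * z₂ ^ k * E ^ k * Bad.card) * b = (2 * z₂ ^ k * E ^ k) * (Bad.card * b) := by ring
        _ ≤ (2 * z₂ ^ k * E ^ k) * ((9 * k + 1) * n ^ k) := Nat.mul_le_mul_left _ hBad
        _ = (2 * z₂ ^ k * E ^ k * (9 * k + 1)) * n ^ k := by ring
        _ < b * n ^ k := Nat.mul_lt_mul_of_pos_right h1 hnk
        _ = n ^ k * b := mul_comm _ _
    exact Nat.lt_of_mul_lt_mul_right h2
  have hr2 : Bad.card < g₂ ^ k := by
    have h1 : (9 * k + 1) * G₂ ^ k < b := by omega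
    have h3 : n ^ k ≤ g₂ ^ k * G₂ ^ k := by
      rw [← mul_pow]
      exact Nat.pow_le_pow_left hg₂G1 k
    have h2 : Bad.card * b < g₂ ^ k * b := by
      calc Bad.card * b ≤ (9 * k + 1) * n ^ k := hBad
        _ ≤ (9 * k + 1) * (g₂ ^ k * G₂ ^ k) := Nat.mul_le_mul_left _ h3
        _ = ((9 * k + 1) * G₂ ^ k) * g₂ ^ k := by ring
        _ < b * g₂ ^ k := Nat.mul_lt_mul_of_pos_right h1 (by positivity)
        _ = g₂ ^ k * b := mul_comm _ _
    exact Nat.lt_of_mul_lt_mul_right h2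
  have hr3 : (2 * z₂ ^ 2 * E) ^ k * k * g₂ * E ≤ n := by
    have h1 : G₂ = 2 * ((2 * z₂ ^ 2 * E) ^ k * k * E) := by
      rw [hG₂]; unfold G2 V2; ring
    have h2 : 2 * ((2 * z₂ ^ 2 * E) ^ k * k * g₂ * E) = g₂ * G₂ := by
      rw [h1]; ring
    have h3 : 2 * ((2 * z₂ ^ 2 * E) ^ k * k * g₂ * E) ≤ 2 * n := by
      rw [h2]; exact hg₂G2
    omega
  obtain ⟨μ, -, hμ1, hμ2⟩ := rows_cleanup hk hD A H κ Bad hB1 hB2 hzT hE3 hn0 hr1 hr2 hg₂1 hr3
  refine ⟨fun r c => A (μ r) (κ c), ?_, ?_⟩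
  · unfold orderedCopies
    rw [card_eq_zero]
    apply filter_eq_empty_iff.2
    rintro ⟨ρ, c⟩ - ⟨h1, h2, h3⟩
    exact hμ2 ρ c h1 h2 h3
  · set Cb := (univ.filter fun c => cl (κ c) ≠ cl c) ∪ (univ.filter fun c => (cl c).val = 0) with hCb
    have hCbcard : Cb.card * E ≤ 4 * n := by
      calc _ ≤ ((univ.filter fun c => cl (κ c) ≠ cl c).card +
            (univ.filter fun c => (cl c).val = 0).card) * E :=
            Nat.mul_le_mul_right _ (card_union_le _ _)
        _ = (univ.filter fun c => cl (κ c) ≠ cl c).card * E +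
            (univ.filter fun c => (cl c).val = 0).card * E := by ring
        _ ≤ 4 * n := by omega
    have he0 : 0 < e := by omega
    refine entryDist_le A μ κ Cb hn0 he0 (by rw [hEdef]; exact hμ1) (by rw [hEdef]; exact hCbcard) ?_
    intro c hc
    have h1 : cl (κ c) = cl c := by
      by_contra h
      exact hc (mem_union_left _ (mem_filter.2 ⟨mem_univ _, h⟩))
    have h2 : (cl c).val ≠ 0 := by
      intro h
      exact hc (mem_union_right _ (mem_filter.2 ⟨mem_univ _, h⟩))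
    exact hcl c (κ c) h1.symm h2

/-- The removal statement with explicit parameters. -/
theorem removal_core (hk : 0 < k) {D : ℕ} (hD : DGood k D) {e t z Q Δ : ℕ} (he : 2 ≤ e)
    (hz : sauer D t < z) (hQ : Q = 2 * z ^ 2 * (16 * e) + 1)
    (hfar : 2 * ((2 * z ^ 2 * (16 * e) : ℕ) : ℝ) * ((16 * e : ℕ) : ℝ) *
      (1 - 1 / ((8 * e : ℕ) : ℝ)) ^ t ≤ 1)
    (hΔ1 : 4 * (z * (16 * e) * t) ^ k ≤ Δ)
    (hΔ2 : Gg k D Q (16 * e) ^ k * bJ k D Q (16 * e) ≤ Δ)
    (hΔ3 : n0 k D Q (16 * e) ^ (2 * k) ≤ Δ)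
    (A : Fin n → Fin n → Bool) (H : Fin k → Fin k → Bool)
    (hN : orderedCopies H A * Δ < n ^ (2 * k)) :
    ∃ B : Fin n → Fin n → Bool, orderedCopies H B = 0 ∧ entryDist A B * e < n ^ 2 := by
  classical
  have hn0 : 0 < n := by
    rcases Nat.eq_zero_or_pos n with h | h
    · subst h
      rw [zero_pow (by omega)] at hN
      omega
    · exact h
  by_cases hsmall : n < n0 k D Q (16 * e)
  · -- small `n`: no copies at all
    have h1 : n ^ (2 * k) ≤ Δ := (Nat.pow_le_pow_left hsmall.le _).trans hΔ3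
    have h2 : orderedCopies H A = 0 := by
      by_contra hcon
      have h3 : 1 ≤ orderedCopies H A := Nat.one_le_iff_ne_zero.2 hcon
      have h4 : Δ ≤ orderedCopies H A * Δ := Nat.le_mul_of_pos_left _ h3
      omega
    refine ⟨A, h2, ?_⟩
    have h3 : entryDist A A = 0 := by
      unfold entryDist
      simp
    rw [h3]
    simp only [zero_mul]
    positivity
  push Not at hsmall
  have hNΔ1 : 4 * (z * (16 * e) * t) ^ k * orderedCopies H A < n ^ (2 * k) := by
    calc _ = orderedCopies H A * (4 * (z * (16 * e) * t) ^ k) := by ring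
      _ ≤ orderedCopies H A * Δ := Nat.mul_le_mul_left _ hΔ1
      _ < _ := hN
  obtain ⟨cl, hcl0, hcl⟩ := exists_classes hk hD A H hn0 hz (show 0 < 16 * e by omega)
    (show 1 < 8 * e by omega) hNΔ1 hfar
  subst hQ
  have hcl0' : (univ.filter fun c => (cl c).val = 0).card * (16 * e) ≤ 2 * n := by
    convert hcl0 using 4
    exact ⟨fun h => Fin.ext h, fun h => by rw [h]; rfl⟩
  have hcl' : ∀ c c', cl c = cl c' → (cl c).val ≠ 0 → hamC A c c' * (8 * e) < 2 * n := by
    intro c c' h1 h2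
    exact hcl c c' h1 (fun h3 => h2 (by rw [h3]; rfl))
  obtain ⟨m, b, κ, Bad, hm, hb, h1, h2, h3, h4, h5⟩ := level_step A H hk cl (show 0 < 16 * e by omega) hn0
    hsmall (lt_of_le_of_lt (Nat.mul_le_mul_left _ hΔ2) hN)
  have hG₂ : G2 k D (2 * z ^ 2 * (16 * e) + 1) (16 * e) m ≤ n := by
    refine (G2_mono _ _ _ _ hm).trans ?_
    unfold n0 at hsmall
    omega
  exact finish_rows A H hk hD cl κ Bad he hn0 hG₂ hb h1 h2 h3 h4 h5 hcl0' hcl'

end Vale.Agent.Lib.P037X
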