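import Mathlib
import Vale.Agent.Lib.P037X.Core

/-! Growth of the parameters. -/

namespace Vale.Agent.Lib.P037X

open Finset

lemma sauer_le (D x : ℕ) : sauer D x ≤ D * (x + 1) ^ D := by
  unfold sauer
  calc ∑ i ∈ range D, x.choose i ≤ ∑ _i ∈ range D, (x + 1) ^ D := by
        refine sum_le_sum fun i hi => ?_
        calc x.choose i ≤ x ^ i := Nat.choose_le_pow _ _
          _ ≤ (x + 1) ^ i := Nat.pow_le_pow_left (Nat.le_succ _) _
          _ ≤ (x + 1) ^ D := Nat.pow_le_pow_right (Nat.succ_pos _) (mem_range.1 hi).le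
    _ = D * (x + 1) ^ D := by simp

/-- The exponent in the bound for the branching factor. -/
def aF (k D : ℕ) : ℕ := k * (k * (2 * D + 3) + 1) + k * (D + 2) + 1

lemma bf_le {k D Q E Y m : ℕ} (hk : 0 < k) (hm : 0 < m) (h1 : Q + 1 ≤ Y) (h2 : D + 1 ≤ Y)
    (h3 : 2 * k * E ≤ Y) (h3' : 2 * E ≤ Y) (h4 : 27 * k + 4 ≤ Y) :
    bf k D Q E m ≤ (m * Y) ^ aF k D := by
  set X := m * Y with hX
  have hYX : Y ≤ X := Nat.le_mul_of_pos_left _ hm
  have hX1 : 1 ≤ X := by omega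
  have hz : z2 D Q m ≤ X ^ (D + 1) := by
    unfold z2
    have h5 : m * Q + 1 ≤ X := by
      have : m * (Q + 1) ≤ m * Y := Nat.mul_le_mul_left _ h1
      have h6 : m * (Q + 1) = m * Q + m := by ring
      rw [hX]
      omega
    have h6 : 1 ≤ (m * Q + 1) ^ D := Nat.one_le_pow _ _ (Nat.succ_pos _)
    calc sauer D (m * Q) + 1 ≤ D * (m * Q + 1) ^ D + (m * Q + 1) ^ D :=
          Nat.add_le_add (sauer_le _ _) h6
      _ = (D + 1) * (m * Q + 1) ^ D := by ring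
      _ ≤ X * X ^ D := Nat.mul_le_mul (by omega) (Nat.pow_le_pow_left h5 D)
      _ = X ^ (D + 1) := by ring
  have hV : V2 D Q E m ≤ X ^ (2 * D + 3) := by
    unfold V2
    calc 2 * z2 D Q m ^ 2 * E = (2 * E) * z2 D Q m ^ 2 := by ring
      _ ≤ X * (X ^ (D + 1)) ^ 2 := Nat.mul_le_mul (by omega) (Nat.pow_le_pow_left hz 2)
      _ = X ^ (2 * D + 3) := by ring
  have hG : G2 k D Q E m ≤ X ^ (k * (2 * D + 3) + 1) := by
    unfold G2
    calc 2 * V2 D Q E m ^ k * k * E = (2 * k * E) * V2 D Q E m ^ k := by ring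
      _ ≤ X * (X ^ (2 * D + 3)) ^ k := Nat.mul_le_mul (by omega) (Nat.pow_le_pow_left hV k)
      _ = X ^ (k * (2 * D + 3) + 1) := by
        rw [← pow_mul, pow_succ, mul_comm, mul_comm (2 * D + 3) k]
  set a₀ := k * (k * (2 * D + 3) + 1) + k * (D + 2) with ha₀
  have hG' : G2 k D Q E m ^ k ≤ X ^ a₀ := by
    calc G2 k D Q E m ^ k ≤ (X ^ (k * (2 * D + 3) + 1)) ^ k := Nat.pow_le_pow_left hG k
      _ = X ^ (k * (k * (2 * D + 3) + 1)) := by rw [← pow_mul, mul_comm]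
      _ ≤ X ^ a₀ := Nat.pow_le_pow_right hX1 (by omega)
  have hZ' : z2 D Q m ^ k * E ^ k ≤ X ^ a₀ := by
    calc z2 D Q m ^ k * E ^ k ≤ (X ^ (D + 1)) ^ k * X ^ k :=
          Nat.mul_le_mul (Nat.pow_le_pow_left hz k) (Nat.pow_le_pow_left (by omega) k)
      _ = X ^ (k * (D + 2)) := by
          rw [← pow_mul, ← pow_add]
          congr 1
          ring
      _ ≤ X ^ a₀ := Nat.pow_le_pow_right hX1 (by omega)
  have hone : 1 ≤ X ^ a₀ := Nat.one_le_pow _ _ (by omega)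
  unfold bf
  calc (9 * k + 1) * G2 k D Q E m ^ k + 2 * z2 D Q m ^ k * E ^ k * (9 * k + 1) + 1
      = (9 * k + 1) * G2 k D Q E m ^ k + (2 * (9 * k + 1)) * (z2 D Q m ^ k * E ^ k) + 1 := by ring
    _ ≤ (9 * k + 1) * X ^ a₀ + (2 * (9 * k + 1)) * X ^ a₀ + X ^ a₀ :=
        Nat.add_le_add (Nat.add_le_add (Nat.mul_le_mul_left _ hG') (Nat.mul_le_mul_left _ hZ')) hone
    _ = (27 * k + 4) * X ^ a₀ := by ring
    _ ≤ X * X ^ a₀ := Nat.mul_le_mul_right _ (by omega)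
    _ = X ^ aF k D := by
        unfold aF
        rw [← ha₀]
        ring

lemma MM_le {k D Q E Y : ℕ} (hk : 0 < k) (h1 : Q + 1 ≤ Y) (h2 : D + 1 ≤ Y)
    (h3 : 2 * k * E ≤ Y) (h3' : 2 * E ≤ Y) (h4 : 27 * k + 4 ≤ Y) (j : ℕ) :
    MM k D Q E j * Y ≤ Y ^ (aF k D + 1) ^ j := by
  induction j with
  | zero => simp [MM]
  | succ j ih =>
    have hpos := MM_pos k D Q E j
    have hb := bf_le hk hpos h1 h2 h3 h3' h4
    calc MM k D Q E (j + 1) * Y = MM k D Q E j * bf k D Q E (MM k D Q E j) * Y := rfl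
      _ ≤ MM k D Q E j * (MM k D Q E j * Y) ^ aF k D * Y :=
          Nat.mul_le_mul_right _ (Nat.mul_le_mul_left _ hb)
      _ = (MM k D Q E j * Y) ^ (aF k D + 1) := by ring
      _ ≤ (Y ^ (aF k D + 1) ^ j) ^ (aF k D + 1) := Nat.pow_le_pow_left ih _
      _ = Y ^ (aF k D + 1) ^ (j + 1) := by rw [← pow_mul, pow_succ]

lemma G2_le_bf {k D Q E m : ℕ} (hk : 0 < k) : G2 k D Q E m ≤ bf k D Q E m := by
  unfold bf
  have h1 : G2 k D Q E m ≤ G2 k D Q E m ^ k := by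
    rcases Nat.eq_zero_or_pos (G2 k D Q E m) with h | h
    · rw [h]; exact Nat.zero_le _
    · exact Nat.le_self_pow hk.ne' _
  have h2 : G2 k D Q E m ^ k ≤ (9 * k + 1) * G2 k D Q E m ^ k := Nat.le_mul_of_pos_left _ (by omega)
  omega

/-- The common bound. -/
lemma delta_bounds {k D Q E Y : ℕ} (hk : 0 < k) (h1 : Q + 1 ≤ Y) (h2 : D + 1 ≤ Y)
    (h3 : 2 * k * E ≤ Y) (h3' : 2 * E ≤ Y) (h4 : 27 * k + 4 ≤ Y) (h5 : 16 * E * Q ≤ Y) :
    Gg k D Q E ^ k * bJ k D Q E ≤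
        Y ^ (2 * k * (aF k D + 1) ^ (4 * E * (4 * E * Q)) * (aF k D + 2)) ∧
    n0 k D Q E ^ (2 * k) ≤
        Y ^ (2 * k * (aF k D + 1) ^ (4 * E * (4 * E * Q)) * (aF k D + 2)) := by
  set a := aF k D with ha
  set P := (a + 1) ^ (4 * E * (4 * E * Q)) with hP
  set U := Y ^ P with hU
  have hY3 : 31 ≤ Y := by omega
  have hPpos : 0 < P := by positivity
  have hYU : Y ≤ U := Nat.le_self_pow hPpos.ne' _
  have hU1 : 1 ≤ U := by omega
  have hMJ : MJ k D Q E * Y ≤ U := MM_le hk h1 h2 h3 h3' h4 _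
  have hbJ : bJ k D Q E ≤ U ^ a := by
    calc bJ k D Q E ≤ (MJ k D Q E * Y) ^ a := bf_le hk (MM_pos _ _ _ _ _) h1 h2 h3 h3' h4
      _ ≤ U ^ a := Nat.pow_le_pow_left hMJ a
  have hGg : Gg k D Q E ≤ U ^ (a + 1) := by
    unfold Gg
    calc 4 * MJ k D Q E * (4 * E * Q) * bJ k D Q E
        = (16 * E * Q) * MJ k D Q E * bJ k D Q E := by ring
      _ ≤ Y * MJ k D Q E * U ^ a :=
          Nat.mul_le_mul (Nat.mul_le_mul_right _ h5) hbJ
      _ = (MJ k D Q E * Y) * U ^ a := by ring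
      _ ≤ U * U ^ a := Nat.mul_le_mul_right _ hMJ
      _ = U ^ (a + 1) := by ring
  have hG2 : G2 k D Q E (MJ k D Q E) ≤ U ^ (a + 1) :=
    (G2_le_bf hk).trans (hbJ.trans (Nat.pow_le_pow_right hU1 (by omega)))
  have h2MJ : 2 * MJ k D Q E ≤ U ^ (a + 1) := by
    calc 2 * MJ k D Q E ≤ Y * MJ k D Q E := Nat.mul_le_mul_right _ (by omega)
      _ = MJ k D Q E * Y := mul_comm _ _
      _ ≤ U := hMJ
      _ ≤ U ^ (a + 1) := Nat.le_self_pow (by omega) _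
  have hn0 : n0 k D Q E ≤ U ^ (a + 2) := by
    unfold n0
    calc _ ≤ U ^ (a + 1) + U ^ (a + 1) + U ^ (a + 1) :=
          Nat.add_le_add (Nat.add_le_add h2MJ hGg) hG2
      _ = 3 * U ^ (a + 1) := by ring
      _ ≤ U * U ^ (a + 1) := Nat.mul_le_mul_right _ (by omega)
      _ = U ^ (a + 2) := by ring
  have hexp : 2 * k * P * (a + 2) = P * ((a + 2) * (2 * k)) := by ring
  rw [hexp, pow_mul, ← hU]
  constructor
  · calc Gg k D Q E ^ k * bJ k D Q E ≤ (U ^ (a + 1)) ^ k * U ^ a :=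
          Nat.mul_le_mul (Nat.pow_le_pow_left hGg k) hbJ
      _ = U ^ ((a + 1) * k + a) := by rw [← pow_mul, ← pow_add]
      _ ≤ U ^ ((a + 2) * (2 * k)) := Nat.pow_le_pow_right hU1 (by nlinarith)
  · calc n0 k D Q E ^ (2 * k) ≤ (U ^ (a + 2)) ^ (2 * k) := Nat.pow_le_pow_left hn0 _
      _ = U ^ ((a + 2) * (2 * k)) := by rw [← pow_mul]

end Vale.Agent.Lib.P037X
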