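import Mathlib
import Vale.Agent.Lib.P037X.Growth

/-! The double-exponential removal bound. -/

namespace Vale.Agent.Lib.P037X

open Finset
open Vale.Agent.Lib.P037

/-- Constant for the sampling depth. -/
def CD (D : ℕ) : ℕ := 1024 * (D + 1) ^ 2 * 81 ^ D * (2 * D + 3) ^ (2 * D + 3)

/-- Auxiliary depth. -/
def sF (D e : ℕ) : ℕ := CD D * e ^ (2 * D + 2)

/-- Number of sampled rows. -/
def tF (D e : ℕ) : ℕ := 8 * e * sF D e

/-- Sampling size for the column classes. -/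
def zF (D e : ℕ) : ℕ := sauer D (tF D e) + 1

/-- Number of classes of columns. -/
def QF (D e : ℕ) : ℕ := 2 * zF D e ^ 2 * (16 * e) + 1

/-- Number of energy levels. -/
def JF (D e : ℕ) : ℕ := 4 * (16 * e) * (4 * (16 * e) * QF D e)

/-- The base of the final bound. -/
def YF (k D e : ℕ) : ℕ :=
  (QF D e + 1) + (D + 1) + (2 * k * (16 * e)) + (2 * (16 * e)) + (27 * k + 4) +
    (16 * (16 * e) * QF D e) + (4 * zF D e * (16 * e) * tF D e)

/-- The final inverse density. -/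
def DeltaF (k D e : ℕ) : ℕ :=
  YF k D e ^ (2 * k * (aF k D + 1) ^ JF D e * (aF k D + 2))

lemma far_ok (D : ℕ) {e : ℕ} (he : 0 < e) :
    2 * ((2 * zF D e ^ 2 * (16 * e) : ℕ) : ℝ) * ((16 * e : ℕ) : ℝ) *
      (1 - 1 / ((8 * e : ℕ) : ℝ)) ^ tF D e ≤ 1 := by
  set z := zF D e with hz
  set s := sF D e with hs
  set L := 2 * D + 3 with hL
  have hLpos : 0 < L := by omega
  have hCD : CD D = 1024 * (D + 1) ^ 2 * 81 ^ D * L ^ L := rfl
  have hspos : 0 < s := by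
    rw [hs]; unfold sF CD; positivity
  have htdef : tF D e = 8 * e * s := rfl
  -- the natural inequality
  have hW : 1024 * e ^ 2 * z ^ 2 * L ^ L ≤ s ^ L := by
    have hes : 1 ≤ e * s := Nat.mul_pos he hspos
    have ht1 : tF D e + 1 ≤ 9 * (e * s) := by
      rw [htdef]
      have : 8 * e * s = 8 * (e * s) := by ring
      omega
    have hz1 : z ≤ (D + 1) * (9 * (e * s)) ^ D := by
      have h1 : 1 ≤ (tF D e + 1) ^ D := Nat.one_le_pow _ _ (Nat.succ_pos _)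
      calc z = sauer D (tF D e) + 1 := rfl
        _ ≤ D * (tF D e + 1) ^ D + (tF D e + 1) ^ D := Nat.add_le_add (sauer_le _ _) h1
        _ = (D + 1) * (tF D e + 1) ^ D := by ring
        _ ≤ _ := Nat.mul_le_mul_left _ (Nat.pow_le_pow_left ht1 D)
    have hz2 : z ^ 2 ≤ (D + 1) ^ 2 * 81 ^ D * (e * s) ^ (2 * D) := by
      have h81 : (9 ^ D) ^ 2 = 81 ^ D := by
        rw [← pow_mul, mul_comm, pow_mul]
        norm_num
      have hes2 : ((e * s) ^ D) ^ 2 = (e * s) ^ (2 * D) := by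
        rw [← pow_mul, mul_comm D 2]
      calc z ^ 2 ≤ ((D + 1) * (9 * (e * s)) ^ D) ^ 2 := Nat.pow_le_pow_left hz1 2
        _ = (D + 1) ^ 2 * (9 ^ D) ^ 2 * ((e * s) ^ D) ^ 2 := by
            rw [mul_pow 9 (e * s)]
            ring
        _ = (D + 1) ^ 2 * 81 ^ D * (e * s) ^ (2 * D) := by
            rw [h81, hes2]
    have hsdef : s = 1024 * (D + 1) ^ 2 * 81 ^ D * L ^ L * e ^ (2 * D + 2) := rfl
    calc 1024 * e ^ 2 * z ^ 2 * L ^ L
        ≤ 1024 * e ^ 2 * ((D + 1) ^ 2 * 81 ^ D * (e * s) ^ (2 * D)) * L ^ L :=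
          Nat.mul_le_mul_right _ (Nat.mul_le_mul_left _ hz2)
      _ = (1024 * (D + 1) ^ 2 * 81 ^ D * L ^ L * e ^ (2 * D + 2)) * s ^ (2 * D) := by
          rw [mul_pow]; ring
      _ = s * s ^ (2 * D) := by rw [← hsdef]
      _ = s ^ (2 * D + 1) := by ring
      _ ≤ s ^ L := Nat.pow_le_pow_right hspos (by omega)
  -- the exponential
  have her : (0 : ℝ) < e := by exact_mod_cast he
  have hsr : (0 : ℝ) < s := by exact_mod_cast hspos
  have hLr : (0 : ℝ) < L := by exact_mod_cast hLpos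
  set x : ℝ := 1 / ((8 * e : ℕ) : ℝ) with hx
  have hx8 : x * ((tF D e : ℕ) : ℝ) = s := by
    rw [hx, htdef]
    push_cast
    field_simp
  have h8e : (1 : ℝ) ≤ ((8 * e : ℕ) : ℝ) := by
    have : 1 ≤ 8 * e := by omega
    exact_mod_cast this
  have hx1 : 0 ≤ 1 - x := by
    rw [sub_nonneg, hx, div_le_one (by linarith)]
    exact h8e
  have hpow : (1 - x) ^ tF D e ≤ Real.exp (-(s : ℝ)) := by
    calc (1 - x) ^ tF D e ≤ (Real.exp (-x)) ^ tF D e :=
          pow_le_pow_left₀ hx1 (Real.one_sub_le_exp_neg x) _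
      _ = Real.exp (-(s : ℝ)) := by
          rw [← Real.exp_nat_mul, ← hx8]
          congr 1
          ring
  have hexp : ((s : ℝ) / L) ^ L ≤ Real.exp s := by
    have h1 : (s : ℝ) / L ≤ Real.exp ((s : ℝ) / L) := by
      have := Real.add_one_le_exp ((s : ℝ) / L)
      linarith
    calc ((s : ℝ) / L) ^ L ≤ (Real.exp ((s : ℝ) / L)) ^ L :=
          pow_le_pow_left₀ (by positivity) h1 _
      _ = Real.exp s := by
          rw [← Real.exp_nat_mul]
          congr 1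
          field_simp
  have hWr : (1024 : ℝ) * e ^ 2 * z ^ 2 ≤ ((s : ℝ) / L) ^ L := by
    rw [div_pow, le_div_iff₀ (by positivity)]
    exact_mod_cast hW
  have hfin : 2 * ((2 * z ^ 2 * (16 * e) : ℕ) : ℝ) * ((16 * e : ℕ) : ℝ) ≤ Real.exp s := by
    calc _ = (1024 : ℝ) * e ^ 2 * z ^ 2 := by push_cast; ring
      _ ≤ _ := hWr
      _ ≤ _ := hexp
  calc _ ≤ Real.exp s * Real.exp (-(s : ℝ)) :=
        mul_le_mul hfin hpow (pow_nonneg hx1 _) (Real.exp_pos _).le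
    _ = 1 := by rw [← Real.exp_add]; simp

/-- Removal in terms of `e`. -/
theorem removal_e {k D n : ℕ} (hk : 0 < k) (hD : DGood k D) {e : ℕ} (he : 2 ≤ e)
    (A : Fin n → Fin n → Bool) (H : Fin k → Fin k → Bool)
    (hN : orderedCopies H A * DeltaF k D e < n ^ (2 * k)) :
    ∃ B : Fin n → Fin n → Bool, orderedCopies H B = 0 ∧ entryDist A B * e < n ^ 2 := by
  set Q := QF D e with hQ
  set Y := YF k D e with hY
  have hYdef : Y = (Q + 1) + (D + 1) + (2 * k * (16 * e)) + (2 * (16 * e)) + (27 * k + 4) +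
    (16 * (16 * e) * Q) + (4 * zF D e * (16 * e) * tF D e) := rfl
  have h1 : Q + 1 ≤ Y := by omega
  have h2 : D + 1 ≤ Y := by omega
  have h3 : 2 * k * (16 * e) ≤ Y := by omega
  have h3' : 2 * (16 * e) ≤ Y := by omega
  have h4 : 27 * k + 4 ≤ Y := by omega
  have h5 : 16 * (16 * e) * Q ≤ Y := by omega
  have h6 : 4 * zF D e * (16 * e) * tF D e ≤ Y := by omega
  obtain ⟨hb1, hb2⟩ := delta_bounds (k := k) (D := D) (Q := Q) (E := 16 * e) hk h1 h2 h3 h3' h4 h5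
  have hΔdef : DeltaF k D e =
      Y ^ (2 * k * (aF k D + 1) ^ (4 * (16 * e) * (4 * (16 * e) * Q)) * (aF k D + 2)) := rfl
  refine removal_core hk hD (t := tF D e) (z := zF D e) (Q := Q) (Δ := DeltaF k D e) he
    (Nat.lt_succ_self _) rfl (far_ok D (by omega)) ?_ (by rw [hΔdef]; exact hb1)
    (by rw [hΔdef]; exact hb2) A H hN
  rw [hΔdef]
  have hY1 : 1 ≤ Y := by omega
  calc 4 * (zF D e * (16 * e) * tF D e) ^ k
      ≤ 4 ^ k * (zF D e * (16 * e) * tF D e) ^ k := by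
        refine Nat.mul_le_mul_right _ ?_
        exact Nat.le_self_pow hk.ne' _
    _ = (4 * zF D e * (16 * e) * tF D e) ^ k := by
        rw [← mul_pow]
        congr 1
        ring
    _ ≤ Y ^ k := Nat.pow_le_pow_left h6 k
    _ ≤ _ := by
        refine Nat.pow_le_pow_right hY1 ?_
        have hP : 1 ≤ (aF k D + 1) ^ (4 * (16 * e) * (4 * (16 * e) * Q)) :=
          Nat.one_le_pow _ _ (Nat.succ_pos _)
        calc k ≤ 2 * k * 1 * 1 := by omega
          _ ≤ _ := Nat.mul_le_mul (Nat.mul_le_mul_left _ hP) (by omega)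

/-- Polynomially bounded functions. -/
def PolyB (f : ℕ → ℕ) : Prop := ∃ C d : ℕ, ∀ e, 1 ≤ e → f e ≤ C * e ^ d

lemma PolyB.const (c : ℕ) : PolyB fun _ => c := ⟨c, 0, fun _ _ => by simp⟩

lemma PolyB.id : PolyB fun e => e := ⟨1, 1, fun _ _ => by simp⟩

lemma PolyB.add {f g : ℕ → ℕ} (hf : PolyB f) (hg : PolyB g) : PolyB fun e => f e + g e := by
  obtain ⟨C, d, h⟩ := hf
  obtain ⟨C', d', h'⟩ := hg
  refine ⟨C + C', max d d', fun e he => ?_⟩
  calc f e + g e ≤ C * e ^ d + C' * e ^ d' := Nat.add_le_add (h e he) (h' e he)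
    _ ≤ C * e ^ max d d' + C' * e ^ max d d' :=
        Nat.add_le_add (Nat.mul_le_mul_left _ (Nat.pow_le_pow_right he (le_max_left _ _)))
          (Nat.mul_le_mul_left _ (Nat.pow_le_pow_right he (le_max_right _ _)))
    _ = _ := by ring

lemma PolyB.mul {f g : ℕ → ℕ} (hf : PolyB f) (hg : PolyB g) : PolyB fun e => f e * g e := by
  obtain ⟨C, d, h⟩ := hf
  obtain ⟨C', d', h'⟩ := hg
  refine ⟨C * C', d + d', fun e he => ?_⟩
  calc f e * g e ≤ (C * e ^ d) * (C' * e ^ d') := Nat.mul_le_mul (h e he) (h' e he)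
    _ = _ := by ring

lemma PolyB.pow {f : ℕ → ℕ} (hf : PolyB f) (m : ℕ) : PolyB fun e => f e ^ m := by
  induction m with
  | zero => simpa using PolyB.const 1
  | succ m ih =>
    have := ih.mul hf
    simpa [pow_succ] using this

lemma PolyB.mono {f g : ℕ → ℕ} (hg : PolyB g) (h : ∀ e, f e ≤ g e) : PolyB f := by
  obtain ⟨C, d, h'⟩ := hg
  exact ⟨C, d, fun e he => (h e).trans (h' e he)⟩

lemma poly_params (k D : ℕ) : PolyB fun e => 2 * k * (aF k D + 2) + aF k D * JF D e + YF k D e := by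
  have ht : PolyB (tF D) := by
    have : PolyB fun e => 8 * e * (CD D * e ^ (2 * D + 2)) :=
      ((PolyB.const 8).mul PolyB.id).mul ((PolyB.const (CD D)).mul (PolyB.id.pow _))
    exact this
  have hz : PolyB (zF D) := by
    refine PolyB.mono (g := fun e => D * (tF D e + 1) ^ D + 1) ?_ ?_
    · exact ((PolyB.const D).mul ((ht.add (PolyB.const 1)).pow D)).add (PolyB.const 1)
    · intro e
      exact Nat.add_le_add_right (sauer_le _ _) 1
  have hQ : PolyB (QF D) := by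
    have : PolyB fun e => 2 * zF D e ^ 2 * (16 * e) + 1 :=
      (((PolyB.const 2).mul (hz.pow 2)).mul ((PolyB.const 16).mul PolyB.id)).add (PolyB.const 1)
    exact this
  have hE : PolyB fun e => 16 * e := (PolyB.const 16).mul PolyB.id
  have hJ : PolyB (JF D) := by
    have : PolyB fun e => 4 * (16 * e) * (4 * (16 * e) * QF D e) :=
      ((PolyB.const 4).mul hE).mul (((PolyB.const 4).mul hE).mul hQ)
    exact this
  have hY : PolyB (YF k D) := by
    have : PolyB fun e => (QF D e + 1) + (D + 1) + (2 * k * (16 * e)) + (2 * (16 * e)) +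
        (27 * k + 4) + (16 * (16 * e) * QF D e) + (4 * zF D e * (16 * e) * tF D e) :=
      (((((hQ.add (PolyB.const 1)).add (PolyB.const (D + 1))).add
        ((PolyB.const (2 * k)).mul hE)).add ((PolyB.const 2).mul hE)).add
        (PolyB.const (27 * k + 4))).add (((PolyB.const 16).mul hE).mul hQ) |>.add
        ((((PolyB.const 4).mul hz).mul hE).mul ht)
    exact this
  exact ((PolyB.const (2 * k * (aF k D + 2))).add ((PolyB.const (aF k D)).mul hJ)).add hY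

/-- The natural bound is below a double exponential. -/
lemma delta_le_exp (k D e : ℕ) :
    (DeltaF k D e : ℝ) ≤
      Real.exp (Real.exp ((2 * k * (aF k D + 2) + aF k D * JF D e + YF k D e : ℕ) : ℝ)) := by
  set a := aF k D with ha
  set J := JF D e with hJ
  set Y := YF k D e with hY
  have hle : ∀ x : ℝ, x ≤ Real.exp x := fun x => by
    have := Real.add_one_le_exp x
    linarith
  have h1 : (Y : ℝ) ≤ Real.exp Y := hle _
  have h2 : ((a + 1 : ℕ) : ℝ) ^ J ≤ Real.exp ((a : ℝ) * J) := by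
    have h3 : ((a + 1 : ℕ) : ℝ) ≤ Real.exp a := by
      push_cast
      have := Real.add_one_le_exp (a : ℝ)
      linarith
    calc ((a + 1 : ℕ) : ℝ) ^ J ≤ (Real.exp a) ^ J := pow_le_pow_left₀ (by positivity) h3 _
      _ = Real.exp ((a : ℝ) * J) := by
          rw [← Real.exp_nat_mul]
          congr 1
          ring
  have h4 : ((2 * k * (a + 2) : ℕ) : ℝ) ≤ Real.exp ((2 * k * (a + 2) : ℕ) : ℝ) := hle _
  have hmain : ((2 * k * (a + 1) ^ J * (a + 2) : ℕ) : ℝ) * (Y : ℝ) ≤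
      Real.exp ((2 * k * (a + 2) + a * J + Y : ℕ) : ℝ) := by
    have h5 : ((2 * k * (a + 1) ^ J * (a + 2) : ℕ) : ℝ) * (Y : ℝ) =
        ((2 * k * (a + 2) : ℕ) : ℝ) * (((a + 1 : ℕ) : ℝ) ^ J * (Y : ℝ)) := by
      push_cast
      ring
    have h6 : Real.exp ((2 * k * (a + 2) + a * J + Y : ℕ) : ℝ) =
        Real.exp ((2 * k * (a + 2) : ℕ) : ℝ) * (Real.exp ((a : ℝ) * J) * Real.exp (Y : ℝ)) := by
      rw [← Real.exp_add, ← Real.exp_add]
      congr 1
      push_cast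
      ring
    rw [h5, h6]
    exact mul_le_mul h4 (mul_le_mul h2 h1 (by positivity) (Real.exp_pos _).le)
      (by positivity) (Real.exp_pos _).le
  have hdef : DeltaF k D e = Y ^ (2 * k * (a + 1) ^ J * (a + 2)) := rfl
  rw [hdef]
  push_cast
  calc (Y : ℝ) ^ (2 * k * (a + 1) ^ J * (a + 2))
      ≤ (Real.exp Y) ^ (2 * k * (a + 1) ^ J * (a + 2)) := pow_le_pow_left₀ (by positivity) h1 _
    _ = Real.exp (((2 * k * (a + 1) ^ J * (a + 2) : ℕ) : ℝ) * (Y : ℝ)) := by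
        rw [← Real.exp_nat_mul]
    _ ≤ _ := by
        apply Real.exp_le_exp.2
        refine hmain.trans ?_
        push_cast
        exact le_rfl

lemma exponent_bound {C₁ d e F : ℕ} {ε : ℝ} (hε0 : 0 < ε) (hinv : 1 ≤ 1 / ε)
    (he3 : (e : ℝ) ≤ 3 * (1 / ε)) (h1 : F ≤ C₁ * e ^ d) :
    (F : ℝ) ≤ ((C₁ * 3 ^ d + d + 1 : ℕ) : ℝ) / ε ^ (C₁ * 3 ^ d + d + 1) := by
  generalize hC : C₁ * 3 ^ d + d + 1 = C
  have h2 : (F : ℝ) ≤ (C₁ : ℝ) * (e : ℝ) ^ d := by exact_mod_cast h1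
  have h3 : (e : ℝ) ^ d ≤ (3 * (1 / ε)) ^ d := pow_le_pow_left₀ (by positivity) he3 _
  have h4 : (1 / ε) ^ d ≤ (1 / ε) ^ C := pow_le_pow_right₀ hinv (by omega)
  have h5 : (C : ℝ) / ε ^ C = (C : ℝ) * (1 / ε) ^ C := by
    rw [one_div, inv_pow, div_eq_mul_inv]
  rw [h5]
  have h6 : (C₁ * 3 ^ d : ℝ) ≤ C := by
    have h7 : C₁ * 3 ^ d ≤ C := by omega
    exact_mod_cast h7
  calc _ ≤ (C₁ : ℝ) * (e : ℝ) ^ d := h2
    _ ≤ (C₁ : ℝ) * (3 * (1 / ε)) ^ d := mul_le_mul_of_nonneg_left h3 (by positivity)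
    _ = (C₁ * 3 ^ d : ℝ) * (1 / ε) ^ d := by rw [mul_pow]; ring
    _ ≤ (C : ℝ) * (1 / ε) ^ C := mul_le_mul h6 h4 (by positivity) (by positivity)

lemma count_lower {k D n e : ℕ} {ε : ℝ} (hk : 0 < k) (hD : DGood k D) (he2 : 2 ≤ e)
    (heε : 1 ≤ ε * e) (A : Fin n → Fin n → Bool) (H : Fin k → Fin k → Bool)
    (hfar : FarFromFree H ε A) : n ^ (2 * k) ≤ orderedCopies H A * DeltaF k D e := by
  by_contra hcon
  push Not at hcon
  obtain ⟨B, hB0, hB1⟩ := removal_e hk hD he2 A H hcon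
  have h1 := hfar B hB0
  have h2 : ((entryDist A B * e : ℕ) : ℝ) < ((n ^ 2 : ℕ) : ℝ) := by exact_mod_cast hB1
  push_cast at h2
  have h3 : ε * (n : ℝ) ^ 2 * e ≤ (entryDist A B : ℝ) * e :=
    mul_le_mul_of_nonneg_right h1 (by positivity)
  have h4 : (n : ℝ) ^ 2 ≤ ε * (n : ℝ) ^ 2 * e := by
    calc (n : ℝ) ^ 2 = 1 * (n : ℝ) ^ 2 := by ring
      _ ≤ (ε * e) * (n : ℝ) ^ 2 := mul_le_mul_of_nonneg_right heε (by positivity)
      _ = _ := by ring
  linarith

lemma exists_e {ε : ℝ} (hε0 : 0 < ε) (hε1 : ε < 1) :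
    ∃ e : ℕ, 2 ≤ e ∧ 1 ≤ ε * e ∧ (e : ℝ) ≤ 3 * (1 / ε) := by
  have hinv : 1 ≤ 1 / ε := by
    rw [le_div_iff₀ hε0]; linarith
  refine ⟨⌈1 / ε⌉₊ + 1, ?_, ?_, ?_⟩
  · have : 1 ≤ ⌈1 / ε⌉₊ := Nat.one_le_iff_ne_zero.2 (by
      intro h
      have := Nat.ceil_eq_zero.1 h
      linarith)
    omega
  · have h1 : 1 / ε ≤ (⌈1 / ε⌉₊ : ℝ) := Nat.le_ceil _
    have h3 : 1 / ε ≤ ((⌈1 / ε⌉₊ + 1 : ℕ) : ℝ) := by
      push_cast; linarith
    rw [div_le_iff₀ hε0] at h3
    linarith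
  · have h1 : (⌈1 / ε⌉₊ : ℝ) < 1 / ε + 1 := Nat.ceil_lt_add_one (by linarith)
    push_cast
    linarith

lemma final_step {n N Δ : ℕ} {X : ℝ} {a : ℕ} (h1 : n ^ a ≤ N * Δ) (h2 : (Δ : ℝ) ≤ Real.exp X) :
    Real.exp (-X) * (n : ℝ) ^ a ≤ (N : ℝ) := by
  have hcountr : (n : ℝ) ^ a ≤ (N : ℝ) * (Δ : ℝ) := by
    exact_mod_cast h1
  have hexpXpos : 0 < Real.exp X := Real.exp_pos _
  rw [Real.exp_neg, inv_mul_le_iff₀ hexpXpos]
  calc (n : ℝ) ^ a ≤ (N : ℝ) * (Δ : ℝ) := hcountr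
    _ ≤ (N : ℝ) * Real.exp X := mul_le_mul_of_nonneg_left h2 (by positivity)
    _ = _ := mul_comm _ _

/-- The case of the empty pattern. -/
lemma dexp_zero :
    ∃ C : ℕ, 0 < C ∧ ∀ (H : Fin 0 → Fin 0 → Bool) (n : ℕ), 0 < n → ∀ ε : ℝ, 0 < ε → ε < 1 →
      ∀ A : Fin n → Fin n → Bool, FarFromFree H ε A →
        Real.exp (-Real.exp ((C : ℝ) / ε ^ C)) * (n : ℝ) ^ (2 * 0) ≤ (orderedCopies H A : ℝ) := by
  refine ⟨1, Nat.one_pos, fun H n hn ε _ _ A _ => ?_⟩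
  have h1 : 1 ≤ orderedCopies H A := by
    unfold orderedCopies
    apply card_pos.2
    exact ⟨(fun i => i.elim0, fun i => i.elim0), mem_filter.2 ⟨mem_univ _,
      fun i => i.elim0, fun i => i.elim0, fun i => i.elim0⟩⟩
  have h2 : (1 : ℝ) ≤ (orderedCopies H A : ℝ) := by exact_mod_cast h1
  have h3 : Real.exp (-Real.exp (((1 : ℕ) : ℝ) / ε ^ 1)) ≤ 1 := by
    rw [Real.exp_le_one_iff]
    have := Real.exp_pos (((1 : ℕ) : ℝ) / ε ^ 1)
    linarith
  simpa using h3.trans h2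

/-- The double-exponential removal theorem; the constant depends only on the size of the pattern. -/
theorem dexp_removal (k : ℕ) :
    ∃ C : ℕ, 0 < C ∧ ∀ (H : Fin k → Fin k → Bool) (n : ℕ), 0 < n → ∀ ε : ℝ, 0 < ε → ε < 1 →
      ∀ A : Fin n → Fin n → Bool, FarFromFree H ε A →
        Real.exp (-Real.exp ((C : ℝ) / ε ^ C)) * (n : ℝ) ^ (2 * k) ≤ (orderedCopies H A : ℝ) := by
  rcases Nat.eq_zero_or_pos k with hk0 | hk
  · subst hk0
    exact dexp_zero
  obtain ⟨D, hD⟩ := exists_DGood k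
  obtain ⟨C₁, d, hpoly⟩ := poly_params k D
  refine ⟨C₁ * 3 ^ d + d + 1, by omega, fun H n hn ε hε0 hε1 A hfar => ?_⟩
  have hinv : 1 ≤ 1 / ε := by
    rw [le_div_iff₀ hε0]; linarith
  obtain ⟨e, he2, heε, he3⟩ := exists_e hε0 hε1
  have hcount := count_lower hk hD he2 heε A H hfar
  have hexpo := exponent_bound (C₁ := C₁) (d := d) (e := e) hε0 hinv he3 (hpoly e (by omega))
  have hΔ := (delta_le_exp k D e).trans (Real.exp_le_exp.2 (Real.exp_le_exp.2 hexpo))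
  exact final_step hcount hΔ

end Vale.Agent.Lib.P037X
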